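import Vale.Agent.H16.Torus.Hopf

set_option autoImplicit false

open Real MeasureTheory intervalIntegral Set
open scoped ContDiff

namespace Vale.Agent.P205

/-- The height function on the two-sphere. -/
noncomputable def hgt (c0 δ : ℝ) (M : ℕ) (x : ℝ) : ℝ := c0 + δ * sin (M * x)

noncomputable def hgt' (δ : ℝ) (M : ℕ) (x : ℝ) : ℝ := δ * (M * cos (M * x))

theorem hgt_hasDerivAt (c0 δ : ℝ) (M : ℕ) (x : ℝ) :
    HasDerivAt (hgt c0 δ M) (hgt' δ M x) x := by
  unfold hgt hgt'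
  have h1 : HasDerivAt (fun x : ℝ => (M:ℝ) * x) M x := by
    simpa using (hasDerivAt_id x).const_mul (M:ℝ)
  have h2 := (h1.sin.const_mul δ).const_add c0
  exact h2.congr_deriv (by ring)

theorem hgt_contDiff (c0 δ : ℝ) (M : ℕ) : ContDiff ℝ ∞ (hgt c0 δ M) := by
  unfold hgt; fun_prop

theorem hgt'_contDiff (δ : ℝ) (M : ℕ) : ContDiff ℝ ∞ (hgt' δ M) := by
  unfold hgt'; fun_prop

theorem hgt_abs_le (c0 δ : ℝ) (M : ℕ) (x : ℝ) (h0 : |c0| ≤ 1/2) (hd : 0 ≤ δ) (hd1 : δ ≤ 1/4) :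
    |hgt c0 δ M x| ≤ 3/4 := by
  unfold hgt
  calc |c0 + δ * sin (M * x)| ≤ |c0| + |δ * sin (M * x)| := abs_add_le _ _
    _ ≤ 1/2 + δ * 1 := by
        rw [abs_mul, abs_of_nonneg hd]
        have := abs_sin_le_one (M * x)
        gcongr
    _ ≤ 3/4 := by linarith

theorem hgt_periodic (c0 δ : ℝ) (M : ℕ) : Function.Periodic (hgt c0 δ M) (4 * π) := by
  intro x
  unfold hgt
  have : (M:ℝ) * (x + 4 * π) = M * x + ((2 * M : ℕ) : ℝ) * (2 * π) := by push_cast; ring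
  rw [this, sin_add_nat_mul_two_pi]

theorem hgt'_periodic (δ : ℝ) (M : ℕ) : Function.Periodic (hgt' δ M) (4 * π) := by
  intro x
  unfold hgt'
  have : (M:ℝ) * (x + 4 * π) = M * x + ((2 * M : ℕ) : ℝ) * (2 * π) := by push_cast; ring
  rw [this, cos_add_nat_mul_two_pi]

/-- speed of the curve -/
noncomputable def spd (c0 δ : ℝ) (M : ℕ) (x : ℝ) : ℝ :=
  sqrt (hgt' δ M x ^ 2 / (1 - hgt c0 δ M x ^ 2) + (1 - hgt c0 δ M x ^ 2)) / 2

theorem one_sub_sq_pos {c0 δ : ℝ} {M : ℕ} {x : ℝ} (h0 : |c0| ≤ 1/2) (hd : 0 ≤ δ) (hd1 : δ ≤ 1/4) :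
    0 < 1 - hgt c0 δ M x ^ 2 := by
  have := hgt_abs_le c0 δ M x h0 hd hd1
  have h2 : hgt c0 δ M x ^ 2 ≤ (3/4)^2 := by
    rw [← sq_abs]; gcongr
  nlinarith

theorem rad_pos {c0 δ : ℝ} {M : ℕ} {x : ℝ} (h0 : |c0| ≤ 1/2) (hd : 0 ≤ δ) (hd1 : δ ≤ 1/4) :
    0 < hgt' δ M x ^ 2 / (1 - hgt c0 δ M x ^ 2) + (1 - hgt c0 δ M x ^ 2) := by
  have := one_sub_sq_pos (x := x) (M := M) h0 hd hd1
  positivity

theorem spd_pos {c0 δ : ℝ} {M : ℕ} {x : ℝ} (h0 : |c0| ≤ 1/2) (hd : 0 ≤ δ) (hd1 : δ ≤ 1/4) :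
    0 < spd c0 δ M x := by
  unfold spd
  have := rad_pos (x := x) (M := M) h0 hd hd1
  positivity

theorem spd_contDiff {c0 δ : ℝ} {M : ℕ} (h0 : |c0| ≤ 1/2) (hd : 0 ≤ δ) (hd1 : δ ≤ 1/4) :
    ContDiff ℝ ∞ (spd c0 δ M) := by
  unfold spd
  have h1 := hgt_contDiff c0 δ M
  have h2 := hgt'_contDiff δ M
  refine ContDiff.div_const (ContDiff.sqrt ?_ fun x => (rad_pos h0 hd hd1).ne') 2
  exact ((h2.pow 2).div (contDiff_const.sub (h1.pow 2))
    (fun x => (one_sub_sq_pos h0 hd hd1).ne')).add (contDiff_const.sub (h1.pow 2))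

theorem spd_periodic (c0 δ : ℝ) (M : ℕ) : Function.Periodic (spd c0 δ M) (4 * π) := by
  intro x
  unfold spd
  rw [hgt_periodic c0 δ M x, hgt'_periodic δ M x]

theorem spd_continuous_param (c0 : ℝ) (M : ℕ) (h0 : |c0| ≤ 1/2) :
    ContinuousOn (fun δ : ℝ => ∫ x in (0:ℝ)..(4*π), spd c0 δ M x) (Icc 0 (1/4)) := by
  -- replace δ by a clamped version to get a globally continuous integrand
  have hc : Continuous (fun δ : ℝ => ∫ x in (0:ℝ)..(4*π),
      spd c0 (max 0 (min δ (1/4))) M x) := by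
    apply continuous_parametric_intervalIntegral_of_continuous'
    unfold Function.uncurry spd hgt hgt'
    simp only
    refine Continuous.div_const (Continuous.sqrt ?_) 2
    refine Continuous.add (Continuous.div (by fun_prop) (by fun_prop) ?_) (by fun_prop)
    intro p
    have := one_sub_sq_pos (c0 := c0) (δ := max 0 (min p.1 (1/4))) (M := M) (x := p.2) h0
      (le_max_left _ _) (max_le (by norm_num) (min_le_right _ _))
    unfold hgt at this
    exact this.ne'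
  refine hc.continuousOn.congr fun δ hδ => ?_
  simp only
  rw [min_eq_left hδ.2, max_eq_right hδ.1]

theorem len_zero_le (c0 : ℝ) (M : ℕ) : (∫ x in (0:ℝ)..(4*π), spd c0 0 M x) ≤ 2 * π := by
  have h : ∀ x, spd c0 0 M x = sqrt (1 - c0 ^ 2) / 2 := by
    intro x; unfold spd hgt hgt'; simp
  simp only [h, intervalIntegral.integral_const, smul_eq_mul, sub_zero]
  have h2 : sqrt (1 - c0 ^ 2) ≤ 1 := by
    exact Real.sqrt_le_one.2 (by nlinarith [sq_nonneg c0])
  nlinarith [pi_pos]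

theorem len_quarter_ge (c0 : ℝ) (M : ℕ) (hM : 0 < M) (h0 : |c0| ≤ 1/2) :
    π * M / 4 ≤ ∫ x in (0:ℝ)..(4*π), spd c0 (1/4) M x := by
  have hM' : (0:ℝ) < M := by exact_mod_cast hM
  have hlow : ∀ x, (M:ℝ) / 8 * cos (M * x) ^ 2 ≤ spd c0 (1/4) M x := by
    intro x
    unfold spd
    have h1 := one_sub_sq_pos (c0 := c0) (δ := 1/4) (M := M) (x := x) h0 (by norm_num) le_rfl
    have h2 : |hgt' (1/4) M x| ≤ sqrt (hgt' (1/4) M x ^ 2 / (1 - hgt c0 (1/4) M x ^ 2) +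
        (1 - hgt c0 (1/4) M x ^ 2)) := by
      rw [← Real.sqrt_sq_eq_abs]
      apply Real.sqrt_le_sqrt
      have h3 : hgt' (1/4) M x ^ 2 ≤ hgt' (1/4) M x ^ 2 / (1 - hgt c0 (1/4) M x ^ 2) := by
        rw [le_div_iff₀ h1]
        nlinarith [sq_nonneg (hgt' (1/4) M x), sq_nonneg (hgt c0 (1/4) M x),
          mul_nonneg (sq_nonneg (hgt' (1/4) M x)) (sq_nonneg (hgt c0 (1/4) M x))]
      linarith
    have h4 : (M:ℝ) / 4 * cos (M * x) ^ 2 ≤ |hgt' (1/4) M x| := by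
      unfold hgt'
      rw [abs_mul, abs_mul, abs_of_pos (by norm_num : (0:ℝ) < 1/4), abs_of_pos hM']
      have h5 : cos (M * x) ^ 2 ≤ |cos (M * x)| := by
        rw [← sq_abs]
        nlinarith [abs_nonneg (cos (M * x)), abs_cos_le_one (M * x)]
      nlinarith
    linarith
  have hint : (∫ x in (0:ℝ)..(4*π), (M:ℝ) / 8 * cos (M * x) ^ 2) = π * M / 4 := by
    rw [intervalIntegral.integral_const_mul]
    have h1 : (∫ x in (0:ℝ)..(4*π), cos (M * x) ^ 2) = 2 * π := by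
      have h2 : (∫ x in (0:ℝ)..(4*π), cos ((M:ℝ) * x) ^ 2) =
          (M:ℝ)⁻¹ • ∫ x in ((M:ℝ) * 0)..((M:ℝ) * (4*π)), cos x ^ 2 :=
        intervalIntegral.integral_comp_mul_left (fun x => cos x ^ 2) hM'.ne'
      rw [h2, integral_cos_sq]
      have h3 : sin ((M:ℝ) * (4 * π)) = 0 := by
        have : (M:ℝ) * (4 * π) = ((4 * M : ℕ) : ℝ) * π := by push_cast; ring
        rw [this, sin_nat_mul_pi]
      rw [h3]
      simp
      field_simp
      ring
    rw [h1]; ring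
  rw [← hint]
  refine integral_mono_on (by have := pi_pos; linarith) (Continuous.intervalIntegrable (by fun_prop) _ _)
    ((spd_contDiff h0 (by norm_num) le_rfl).continuous.intervalIntegrable _ _) fun x _ => hlow x

/-- A curve of prescribed length. -/
theorem exists_delta (c0 : ℝ) (h0 : |c0| ≤ 1/2) (L : ℝ) (hL : 2 * π ≤ L) :
    ∃ (δ : ℝ) (M : ℕ), 0 ≤ δ ∧ δ ≤ 1/4 ∧ (∫ x in (0:ℝ)..(4*π), spd c0 δ M x) = L := by
  obtain ⟨M, hM⟩ := exists_nat_gt (4 * L / π)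
  have hMpos : 0 < M := by
    have : (0:ℝ) < M := lt_of_le_of_lt
      (div_nonneg (by have := pi_pos; linarith) pi_pos.le) hM
    exact_mod_cast this
  have h1 := len_zero_le c0 M
  have h2 := len_quarter_ge c0 M hMpos h0
  have h3 : L ≤ π * M / 4 := by
    rw [div_lt_iff₀ pi_pos] at hM
    linarith
  have hivt := intermediate_value_Icc (by norm_num : (0:ℝ) ≤ 1/4) (spd_continuous_param c0 M h0)
  obtain ⟨δ, hδ, hδ'⟩ := hivt (show L ∈ Icc _ _ from ⟨h1.trans hL, h3.trans h2⟩)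
  exact ⟨δ, M, hδ.1, hδ.2, hδ'⟩

/-- **Profile of a Hopf torus** over a closed spherical curve with prescribed length `L ≥ 2π`
and prescribed holonomy `μ` modulo `2π`. -/
theorem exists_profile (L : ℝ) (hL : 2 * π ≤ L) (μ : ℝ) :
    ∃ A B a b : ℝ → ℝ, ContDiff ℝ ∞ A ∧ ContDiff ℝ ∞ B ∧ ContDiff ℝ ∞ a ∧ ContDiff ℝ ∞ b ∧
      (∀ s, A s ^ 2 + B s ^ 2 = 1) ∧
      (∀ s, A s ^ 2 * deriv a s + B s ^ 2 * deriv b s = 0) ∧
      (∀ s, deriv A s ^ 2 + deriv B s ^ 2 + A s ^ 2 * deriv a s ^ 2 + B s ^ 2 * deriv b s ^ 2 = 1) ∧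
      (∀ s, A (s + L) = A s) ∧ (∀ s, B (s + L) = B s) ∧
      (∃ k : ℤ, ∀ s, a (s + L) + μ = a s + k * (2 * π)) ∧
      (∃ k : ℤ, ∀ s, b (s + L) + μ = b s + k * (2 * π)) := by
  -- choose c0 with 2π(1-c0) ≡ μ mod 2π
  obtain ⟨k, hk⟩ : ∃ k : ℤ, |1 - (μ + k * (2 * π)) / (2 * π)| ≤ 1/2 := by
    refine ⟨round (1 - μ / (2 * π)), ?_⟩
    have h1 := abs_sub_round (1 - μ / (2 * π))
    have h2 : 1 - (μ + round (1 - μ / (2 * π)) * (2 * π)) / (2 * π) =
      (1 - μ / (2 * π)) - round (1 - μ / (2 * π)) := by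
      have := pi_pos
      rw [add_div, mul_div_assoc, div_self (by positivity : (2 * π) ≠ 0)]
      ring
    rw [h2]; exact h1
  set c0 : ℝ := 1 - (μ + k * (2 * π)) / (2 * π) with hc0
  obtain ⟨δ, M, hδ0, hδ1, hlen⟩ := exists_delta c0 hk L hL
  obtain ⟨σ, hσc, hσd, hσp⟩ := exists_arclength (spd c0 δ M) (spd_contDiff hk hδ0 hδ1) (4 * π)
    (by have := pi_pos; positivity) (spd_periodic c0 δ M) (fun x => spd_pos hk hδ0 hδ1)
  rw [hlen] at hσp
  have hcb : ∀ x, |hgt c0 δ M x| ≤ 3/4 := fun x => hgt_abs_le c0 δ M x hk hδ0 hδ1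
  have hplus : ∀ x, 0 < (1 + hgt c0 δ M x) / 2 := fun x => by
    have := (abs_le.1 (hcb x)).1; linarith
  have hminus : ∀ x, 0 < (1 - hgt c0 δ M x) / 2 := fun x => by
    have := (abs_le.1 (hcb x)).2; linarith
  have hhc := hgt_contDiff c0 δ M
  -- functions of the parameter
  let A0 : ℝ → ℝ := fun x => sqrt ((1 + hgt c0 δ M x) / 2)
  let B0 : ℝ → ℝ := fun x => sqrt ((1 - hgt c0 δ M x) / 2)
  let a0 : ℝ → ℝ := fun x => -∫ t in (0:ℝ)..x, (1 - hgt c0 δ M t) / 2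
  have hA0 : ContDiff ℝ ∞ A0 := ContDiff.sqrt (by fun_prop) fun x => (hplus x).ne'
  have hB0 : ContDiff ℝ ∞ B0 := ContDiff.sqrt (by fun_prop) fun x => (hminus x).ne'
  have ha0 : ContDiff ℝ ∞ a0 := (contDiff_primitive _ (by fun_prop)).neg
  have hA0d : ∀ x, HasDerivAt A0 (hgt' δ M x / 4 / A0 x) x := fun x => by
    have h1 : HasDerivAt (fun x => (1 + hgt c0 δ M x) / 2) (hgt' δ M x / 2) x :=
      ((hgt_hasDerivAt c0 δ M x).const_add 1).div_const 2
    have h2 := h1.sqrt (hplus x).ne'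
    convert h2 using 1
    simp only [A0]; field_simp; ring
  have hB0d : ∀ x, HasDerivAt B0 (-hgt' δ M x / 4 / B0 x) x := fun x => by
    have h1 : HasDerivAt (fun x => (1 - hgt c0 δ M x) / 2) (-hgt' δ M x / 2) x :=
      ((hgt_hasDerivAt c0 δ M x).const_sub 1).div_const 2
    have h2 := h1.sqrt (hminus x).ne'
    convert h2 using 1
    simp only [B0]; field_simp; ring
  have ha0d : ∀ x, HasDerivAt a0 (-((1 - hgt c0 δ M x) / 2)) x := fun x =>
    (hasDerivAt_primitive (fun t => (1 - hgt c0 δ M t) / 2)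
      (by have := hhc.continuous; fun_prop) x).neg
  have hA0sq : ∀ x, A0 x ^ 2 = (1 + hgt c0 δ M x) / 2 := fun x => Real.sq_sqrt (hplus x).le
  have hB0sq : ∀ x, B0 x ^ 2 = (1 - hgt c0 δ M x) / 2 := fun x => Real.sq_sqrt (hminus x).le
  have hA0p : ∀ x, 0 < A0 x := fun x => Real.sqrt_pos.2 (hplus x)
  have hB0p : ∀ x, 0 < B0 x := fun x => Real.sqrt_pos.2 (hminus x)
  have hA0per : ∀ x, A0 (x + 4 * π) = A0 x := fun x => by
    simp only [A0, hgt_periodic c0 δ M x]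
  have hB0per : ∀ x, B0 (x + 4 * π) = B0 x := fun x => by
    simp only [B0, hgt_periodic c0 δ M x]
  have hmean : (∫ t in (0:ℝ)..(4 * π), (1 - hgt c0 δ M t) / 2) = μ + k * (2 * π) := by
    have h1 : ∀ t, (1 - hgt c0 δ M t) / 2 = (1 - c0) / 2 - δ / 2 * sin (M * t) := fun t => by
      unfold hgt; ring
    simp only [h1]
    rw [intervalIntegral.integral_sub (by simp) (Continuous.intervalIntegrable (by fun_prop) _ _),
      intervalIntegral.integral_const, intervalIntegral.integral_const_mul]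
    have h2 : (∫ t in (0:ℝ)..(4 * π), sin ((M:ℝ) * t)) = 0 := by
      rcases Nat.eq_zero_or_pos M with h | h
      · subst h; simp
      · have hM' : (0:ℝ) < M := by exact_mod_cast h
        rw [intervalIntegral.integral_comp_mul_left (fun x => sin x) hM'.ne', integral_sin]
        have : (M:ℝ) * (4 * π) = ((2 * M : ℕ) : ℝ) * (2 * π) := by push_cast; ring
        rw [this, cos_nat_mul_two_pi]
        simp
    rw [h2, hc0]
    have := pi_pos
    simp only [smul_eq_mul]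
    field_simp
    ring
  have ha0per : ∀ x, a0 (x + 4 * π) = a0 x - (μ + k * (2 * π)) := fun x => by
    simp only [a0]
    have hcont : Continuous (fun t => (1 - hgt c0 δ M t) / 2) := by
      have := hhc.continuous; fun_prop
    have hp : Function.Periodic (fun t => (1 - hgt c0 δ M t) / 2) (4 * π) := fun x => by
      simp only [hgt_periodic c0 δ M x]
    have h1 : (∫ t in (0:ℝ)..x + 4 * π, (1 - hgt c0 δ M t) / 2) =
        (∫ t in (0:ℝ)..x, (1 - hgt c0 δ M t) / 2) +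
          ∫ t in x..x + 4 * π, (1 - hgt c0 δ M t) / 2 :=
      (integral_add_adjacent_intervals (hcont.intervalIntegrable _ _)
        (hcont.intervalIntegrable _ _)).symm
    rw [h1, hp.intervalIntegral_add_eq x 0, zero_add, hmean]
    ring
  refine ⟨fun s => A0 (σ s), fun s => B0 (σ s), fun s => a0 (σ s), fun s => a0 (σ s) + σ s,
    hA0.comp hσc, hB0.comp hσc, ha0.comp hσc, (ha0.comp hσc).add hσc, ?_, ?_, ?_, ?_, ?_, ?_, ?_⟩
  · intro s
    simp only [hA0sq, hB0sq]; ring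
  · intro s
    have d1 := (ha0d (σ s)).comp s (hσd s)
    have d2 := d1.add (hσd s)
    have e1 : deriv (fun s => a0 (σ s)) s = _ := d1.deriv
    have e2 : deriv (fun s => a0 (σ s) + σ s) s = _ := d2.deriv
    rw [e1, e2, hA0sq, hB0sq]
    have := spd_pos (x := σ s) (M := M) hk hδ0 hδ1
    field_simp
    ring
  · intro s
    have d1 := (ha0d (σ s)).comp s (hσd s)
    have d2 := d1.add (hσd s)
    have d3 := (hA0d (σ s)).comp s (hσd s)
    have d4 := (hB0d (σ s)).comp s (hσd s)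
    have e1 : deriv (fun s => a0 (σ s)) s = _ := d1.deriv
    have e2 : deriv (fun s => a0 (σ s) + σ s) s = _ := d2.deriv
    have e3 : deriv (fun s => A0 (σ s)) s = _ := d3.deriv
    have e4 : deriv (fun s => B0 (σ s)) s = _ := d4.deriv
    rw [e1, e2, e3, e4, hA0sq, hB0sq]
    have hsp := spd_pos (x := σ s) (M := M) hk hδ0 hδ1
    have hsq : spd c0 δ M (σ s) ^ 2 = (hgt' δ M (σ s) ^ 2 / (1 - hgt c0 δ M (σ s) ^ 2) +
        (1 - hgt c0 δ M (σ s) ^ 2)) / 4 := by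
      unfold spd
      rw [div_pow, Real.sq_sqrt (rad_pos hk hδ0 hδ1).le]
      norm_num
    have h1 := one_sub_sq_pos (x := σ s) (M := M) hk hδ0 hδ1
    have hAx := hA0p (σ s)
    have hBx := hB0p (σ s)
    have hA2 := hA0sq (σ s)
    have hB2 := hB0sq (σ s)
    set c := hgt c0 δ M (σ s)
    set c' := hgt' δ M (σ s)
    set w := spd c0 δ M (σ s)
    set A := A0 (σ s)
    set B := B0 (σ s)
    have key : (c' / 4 / A * (1 / w)) ^ 2 + (-c' / 4 / B * (1 / w)) ^ 2 +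
        (1 + c) / 2 * (-((1 - c) / 2) * (1 / w)) ^ 2 +
        (1 - c) / 2 * (-((1 - c) / 2) * (1 / w) + 1 / w) ^ 2 =
        ((c' / 4) ^ 2 / A ^ 2 + (c' / 4) ^ 2 / B ^ 2 + (1 - c ^ 2) / 4) / w ^ 2 := by
      field_simp
      ring
    rw [key, hsq, hA2, hB2]
    have h3 : 1 + c ≠ 0 := by have := hplus (σ s); intro h; simp only [c] at h; linarith
    have h4 : 1 - c ≠ 0 := by have := hminus (σ s); intro h; simp only [c] at h; linarith
    have h5 : 1 - c ^ 2 ≠ 0 := h1.ne'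
    have h6 : (c' / 4) ^ 2 / ((1 + c) / 2) + (c' / 4) ^ 2 / ((1 - c) / 2) + (1 - c ^ 2) / 4 =
      (c' ^ 2 / (1 - c ^ 2) + (1 - c ^ 2)) / 4 := by
      have h7 : (1 - c ^ 2) = (1 + c) * (1 - c) := by ring
      rw [h7]
      field_simp
      ring
    rw [h6]
    apply div_self
    have := rad_pos (x := σ s) (M := M) hk hδ0 hδ1
    simp only [c, c']
    positivity
  · intro s; simp only [hσp, hA0per]
  · intro s; simp only [hσp, hB0per]
  · refine ⟨-k, fun s => ?_⟩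
    simp only [hσp, ha0per]; push_cast; ring
  · refine ⟨-k + 2, fun s => ?_⟩
    simp only [hσp, ha0per]; push_cast; ring

end Vale.Agent.P205
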