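import Vale.Agent.H16.Torus.Defs
import Vale.Agent.H16.Torus.Profile

set_option autoImplicit false

open Real MeasureTheory intervalIntegral Set
open scoped ContDiff

namespace Vale.Agent.P205

/-- Product of two circles with variable radii and phases. -/
noncomputable def twoCircle (P Q α β : ℝ × ℝ → ℝ) (p : ℝ × ℝ) : EuclideanSpace ℝ (Fin 4) :=
  WithLp.toLp 2 ![P p * cos (α p), P p * sin (α p), Q p * cos (β p), Q p * sin (β p)]

theorem twoCircle_contDiff {P Q α β : ℝ × ℝ → ℝ} (hP : ContDiff ℝ ∞ P) (hQ : ContDiff ℝ ∞ Q)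
    (hα : ContDiff ℝ ∞ α) (hβ : ContDiff ℝ ∞ β) : ContDiff ℝ ∞ (twoCircle P Q α β) := by
  rw [contDiff_euclidean]
  intro i
  fin_cases i <;> simp only [twoCircle] <;> simp <;> fun_prop

theorem twoCircle_inner {P Q α β : ℝ × ℝ → ℝ} (hP : ContDiff ℝ ∞ P) (hQ : ContDiff ℝ ∞ Q)
    (hα : ContDiff ℝ ∞ α) (hβ : ContDiff ℝ ∞ β) (p v w : ℝ × ℝ) :
    inner ℝ (fderiv ℝ (twoCircle P Q α β) p v) (fderiv ℝ (twoCircle P Q α β) p w) =
      fderiv ℝ P p v * fderiv ℝ P p w + P p ^ 2 * (fderiv ℝ α p v * fderiv ℝ α p w) +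
      (fderiv ℝ Q p v * fderiv ℝ Q p w + Q p ^ 2 * (fderiv ℝ β p v * fderiv ℝ β p w)) := by
  have hne : (∞ : WithTop ℕ∞) ≠ 0 := by simp
  have dP := (hP.differentiable hne p).hasFDerivAt
  have dQ := (hQ.differentiable hne p).hasFDerivAt
  have dα := (hα.differentiable hne p).hasFDerivAt
  have dβ := (hβ.differentiable hne p).hasFDerivAt
  have dΦ := ((twoCircle_contDiff hP hQ hα hβ).differentiable hne p).hasFDerivAt
  have hcomp : ∀ i : Fin 4, ∀ u, (fderiv ℝ (twoCircle P Q α β) p u) i =
      fderiv ℝ (fun x => twoCircle P Q α β x i) p u := by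
    intro i u
    have h1 := (hasFDerivWithinAt_euclidean.1 (dΦ.hasFDerivWithinAt (s := univ))) i
    rw [hasFDerivWithinAt_univ] at h1
    rw [h1.fderiv]
    rfl
  have e0 : ∀ u, fderiv ℝ (fun x => twoCircle P Q α β x 0) p u =
      cos (α p) * fderiv ℝ P p u - P p * sin (α p) * fderiv ℝ α p u := by
    intro u
    have : HasFDerivAt (fun x => twoCircle P Q α β x 0) _ p := dP.mul dα.cos
    rw [this.fderiv]
    simp
    ring
  have e1 : ∀ u, fderiv ℝ (fun x => twoCircle P Q α β x 1) p u =
      sin (α p) * fderiv ℝ P p u + P p * cos (α p) * fderiv ℝ α p u := by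
    intro u
    have : HasFDerivAt (fun x => twoCircle P Q α β x 1) _ p := dP.mul dα.sin
    rw [this.fderiv]
    simp
    ring
  have e2 : ∀ u, fderiv ℝ (fun x => twoCircle P Q α β x 2) p u =
      cos (β p) * fderiv ℝ Q p u - Q p * sin (β p) * fderiv ℝ β p u := by
    intro u
    have : HasFDerivAt (fun x => twoCircle P Q α β x 2) _ p := dQ.mul dβ.cos
    rw [this.fderiv]
    simp
    ring
  have e3 : ∀ u, fderiv ℝ (fun x => twoCircle P Q α β x 3) p u =
      sin (β p) * fderiv ℝ Q p u + Q p * cos (β p) * fderiv ℝ β p u := by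
    intro u
    have : HasFDerivAt (fun x => twoCircle P Q α β x 3) _ p := dQ.mul dβ.sin
    rw [this.fderiv]
    simp
    ring
  rw [PiLp.inner_apply, Fin.sum_univ_four]
  simp only [hcomp, e0, e1, e2, e3]
  simp only [RCLike.inner_apply, conj_trivial]
  have s1 := Real.sin_sq_add_cos_sq (α p)
  have s2 := Real.sin_sq_add_cos_sq (β p)
  linear_combination (fderiv ℝ P p v * fderiv ℝ P p w +
    P p ^ 2 * (fderiv ℝ α p v * fderiv ℝ α p w)) * s1 + (fderiv ℝ Q p v * fderiv ℝ Q p w +
    Q p ^ 2 * (fderiv ℝ β p v * fderiv ℝ β p w)) * s2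

theorem periodic_of_gen {X : Type*} (Φ : ℝ × ℝ → X) (h1 : ∀ x y, Φ (x + 1, y) = Φ (x, y))
    (h2 : ∀ x y, Φ (x, y + 1) = Φ (x, y)) (p : ℝ × ℝ) (m n : ℤ) : Φ (p.1 + m, p.2 + n) = Φ p := by
  have a1 : Function.Periodic (fun x => Φ (x, p.2 + n)) 1 := fun x => h1 x _
  have a2 : Function.Periodic (fun y => Φ (p.1, y)) 1 := fun y => h2 _ y
  have b1 := a1.int_mul m p.1
  have b2 := a2.int_mul n p.2
  simp only [mul_one] at b1 b2
  rw [b1, b2]

/-- **Assembly.** If `g = dR² + R² (dS² + dT²)` on the torus, where `(S, T)` is equivariant with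
respect to a homomorphism into the lattice spanned by `(L, μ)` and `(0, 2π)`, `L ≥ 2π`, then `g`
is realised by a smooth isometric immersion into `ℝ⁴`. -/
theorem assemble (g : TorusMetric) (R S T : ℝ × ℝ → ℝ) (hR : ContDiff ℝ ∞ R)
    (hS : ContDiff ℝ ∞ S) (hT : ContDiff ℝ ∞ T) (L μ : ℝ) (hL : 2 * π ≤ L)
    (hR1 : ∀ x y, R (x + 1, y) = R (x, y)) (hR2 : ∀ x y, R (x, y + 1) = R (x, y))
    (j1 j2 l1 l2 : ℤ)
    (hS1 : ∀ x y, S (x + 1, y) = S (x, y) + j1 * L)
    (hS2 : ∀ x y, S (x, y + 1) = S (x, y) + j2 * L)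
    (hT1 : ∀ x y, T (x + 1, y) = T (x, y) + j1 * μ + l1 * (2 * π))
    (hT2 : ∀ x y, T (x, y + 1) = T (x, y) + j2 * μ + l2 * (2 * π))
    (hg : ∀ p v w, g.inner p v w = fderiv ℝ R p v * fderiv ℝ R p w +
      R p ^ 2 * (fderiv ℝ S p v * fderiv ℝ S p w + fderiv ℝ T p v * fderiv ℝ T p w)) :
    ∃ Φ, IsSmoothIsometricImmersion g Φ := by
  obtain ⟨A, B, a, b, hA, hB, ha, hb, hAB, hab, hun, hAL, hBL, ⟨ka, hka⟩, ⟨kb, hkb⟩⟩ :=
    exists_profile L hL μ
  have hne : (∞ : WithTop ℕ∞) ≠ 0 := by simp
  let P : ℝ × ℝ → ℝ := fun p => R p * A (S p)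
  let Q : ℝ × ℝ → ℝ := fun p => R p * B (S p)
  let α : ℝ × ℝ → ℝ := fun p => T p + a (S p)
  let β : ℝ × ℝ → ℝ := fun p => T p + b (S p)
  have hP : ContDiff ℝ ∞ P := hR.mul (hA.comp hS)
  have hQ : ContDiff ℝ ∞ Q := hR.mul (hB.comp hS)
  have hα : ContDiff ℝ ∞ α := hT.add (ha.comp hS)
  have hβ : ContDiff ℝ ∞ β := hT.add (hb.comp hS)
  -- iterated translation of the profile
  have hAj : ∀ (j : ℤ) s, A (s + j * L) = A s := fun j s =>
    (show Function.Periodic A L from hAL).int_mul j s
  have hBj : ∀ (j : ℤ) s, B (s + j * L) = B s := fun j s =>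
    (show Function.Periodic B L from hBL).int_mul j s
  have haj : ∀ (j : ℤ) s, a (s + j * L) + j * μ = a s + (j * ka : ℤ) * (2 * π) := by
    intro j s
    have hp : Function.Periodic (fun s => a s + (s / L) * (μ - ka * (2 * π))) L := by
      intro s
      have hL0 : L ≠ 0 := by have := pi_pos; linarith
      have h1 := hka s
      simp only
      rw [add_div, div_self hL0]
      linear_combination h1
    have h2 := hp.int_mul j s
    have hL0 : L ≠ 0 := by have := pi_pos; linarith
    rw [add_div, mul_div_assoc, div_self hL0] at h2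
    push_cast
    linear_combination h2
  have hbj : ∀ (j : ℤ) s, b (s + j * L) + j * μ = b s + (j * kb : ℤ) * (2 * π) := by
    intro j s
    have hp : Function.Periodic (fun s => b s + (s / L) * (μ - kb * (2 * π))) L := by
      intro s
      have hL0 : L ≠ 0 := by have := pi_pos; linarith
      have h1 := hkb s
      simp only
      rw [add_div, div_self hL0]
      linear_combination h1
    have h2 := hp.int_mul j s
    have hL0 : L ≠ 0 := by have := pi_pos; linarith
    rw [add_div, mul_div_assoc, div_self hL0] at h2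
    push_cast
    linear_combination h2
  have hstep : ∀ (q q' : ℝ × ℝ) (j l : ℤ), R q' = R q → S q' = S q + j * L →
      T q' = T q + j * μ + l * (2 * π) → twoCircle P Q α β q' = twoCircle P Q α β q := by
    intro q q' j l h1 h2 h3
    have e1 : P q' = P q := by simp only [P, h1, h2, hAj]
    have e2 : Q q' = Q q := by simp only [Q, h1, h2, hBj]
    have e3 : α q' = α q + (j * ka + l : ℤ) * (2 * π) := by
      simp only [α, h2, h3]
      have := haj j (S q)
      push_cast at this ⊢
      linear_combination this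
    have e4 : β q' = β q + (j * kb + l : ℤ) * (2 * π) := by
      simp only [β, h2, h3]
      have := hbj j (S q)
      push_cast at this ⊢
      linear_combination this
    unfold twoCircle
    rw [e1, e2, e3, e4, cos_add_int_mul_two_pi, sin_add_int_mul_two_pi, cos_add_int_mul_two_pi,
      sin_add_int_mul_two_pi]
  refine ⟨twoCircle P Q α β, twoCircle_contDiff hP hQ hα hβ, ?_, ?_⟩
  · exact periodic_of_gen _ (fun x y => hstep _ _ j1 l1 (hR1 x y) (hS1 x y) (hT1 x y))
      (fun x y => hstep _ _ j2 l2 (hR2 x y) (hS2 x y) (hT2 x y))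
  · intro p v w
    rw [twoCircle_inner hP hQ hα hβ, hg]
    have dR := (hR.differentiable hne p).hasFDerivAt
    have dS := (hS.differentiable hne p).hasFDerivAt
    have dT := (hT.differentiable hne p).hasFDerivAt
    have dA := (hA.differentiable hne (S p)).hasDerivAt
    have dB := (hB.differentiable hne (S p)).hasDerivAt
    have da := (ha.differentiable hne (S p)).hasDerivAt
    have db := (hb.differentiable hne (S p)).hasDerivAt
    have eP : ∀ u, fderiv ℝ P p u = A (S p) * fderiv ℝ R p u +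
        R p * deriv A (S p) * fderiv ℝ S p u := by
      intro u
      have : HasFDerivAt P _ p := dR.mul (dA.comp_hasFDerivAt p dS)
      rw [this.fderiv]; simp; ring
    have eQ : ∀ u, fderiv ℝ Q p u = B (S p) * fderiv ℝ R p u +
        R p * deriv B (S p) * fderiv ℝ S p u := by
      intro u
      have : HasFDerivAt Q _ p := dR.mul (dB.comp_hasFDerivAt p dS)
      rw [this.fderiv]; simp; ring
    have eα : ∀ u, fderiv ℝ α p u = fderiv ℝ T p u + deriv a (S p) * fderiv ℝ S p u := by
      intro u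
      have : HasFDerivAt α _ p := dT.add (da.comp_hasFDerivAt p dS)
      rw [this.fderiv]; simp
    have eβ : ∀ u, fderiv ℝ β p u = fderiv ℝ T p u + deriv b (S p) * fderiv ℝ S p u := by
      intro u
      have : HasFDerivAt β _ p := dT.add (db.comp_hasFDerivAt p dS)
      rw [this.fderiv]; simp
    have hABd : A (S p) * deriv A (S p) + B (S p) * deriv B (S p) = 0 := by
      have h1 : HasDerivAt (fun s => A s ^ 2 + B s ^ 2) _ (S p) := (dA.pow 2).add (dB.pow 2)
      have h2 : (fun s => A s ^ 2 + B s ^ 2) = fun _ => (1:ℝ) := funext hAB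
      have h3 := h1.deriv
      rw [h2, deriv_const] at h3
      simp at h3
      linarith
    have h1 := hAB (S p)
    have h2 := hab (S p)
    have h3 := hun (S p)
    simp only [eP, eQ, eα, eβ]
    simp only [P, Q]
    set A1 := A (S p)
    set B1 := B (S p)
    set A1' := deriv A (S p)
    set B1' := deriv B (S p)
    set a' := deriv a (S p)
    set b' := deriv b (S p)
    set r := R p
    set rv := fderiv ℝ R p v
    set rw' := fderiv ℝ R p w
    set sv := fderiv ℝ S p v
    set sw := fderiv ℝ S p w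
    set tv := fderiv ℝ T p v
    set tw := fderiv ℝ T p w
    linear_combination (rv * rw' + r ^ 2 * tv * tw) * h1 + (r ^ 2 * sv * sw) * h3 +
      (r ^ 2 * (tv * sw + sv * tw)) * h2 + (r * (rv * sw + sv * rw')) * hABd

end Vale.Agent.P205
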