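import Vale.Agent.H16.Torus.Geom4

set_option autoImplicit false

open Set Filter Topology
open scoped ContDiff

namespace Vale.Agent.P205

variable {D W : Type*} [NormedAddCommGroup D] [NormedSpace ℝ D] [CompleteSpace D]
  [NormedAddCommGroup W] [NormedSpace ℝ W] [CompleteSpace W]

/-- Solution branch from the inverse function theorem, with local uniqueness. -/
theorem exists_branch (N : ℝ × D × W → W) (hN : ContDiff ℝ ∞ N) (d0 : D)
    (h0 : N (0, d0, 0) = 0) (h1 : HasFDerivAt N (0 : ℝ × D × W →L[ℝ] W) (0, d0, 0)) :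
    ∃ (ε0 δ : ℝ) (y : ℝ → W), 0 < ε0 ∧ 0 < δ ∧ Continuous y ∧ y 0 = 0 ∧
      ∀ ε ∈ Icc 0 ε0, ‖y ε‖ < δ ∧ y ε = N (ε, d0, y ε) ∧
        (∀ y', ‖y'‖ < δ → y' = N (ε, d0, y') → y' = y ε) ∧
        ∃ Y : D → W, ContDiffAt ℝ ∞ Y d0 ∧
          ∀ᶠ q : D × W in 𝓝 (d0, y ε), q.2 = N (ε, q.1, q.2) → q.2 = Y q.1 := by
  let Ψ : ℝ × D × W → ℝ × D × W := fun x => (x.1, x.2.1, x.2.2 - N x)
  have hΨ : ContDiff ℝ ∞ Ψ :=
    contDiff_fst.prodMk (contDiff_snd.fst.prodMk (contDiff_snd.snd.sub hN))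
  have hΨ' : HasFDerivAt Ψ ((ContinuousLinearEquiv.refl ℝ (ℝ × D × W) :
      (ℝ × D × W) ≃L[ℝ] (ℝ × D × W)) : (ℝ × D × W) →L[ℝ] (ℝ × D × W)) (0, d0, 0) := by
    have a1 := hasFDerivAt_fst (𝕜 := ℝ) (p := ((0, d0, 0) : ℝ × D × W))
    have a2 := hasFDerivAt_snd (𝕜 := ℝ) (p := ((0, d0, 0) : ℝ × D × W))
    have h := a1.prodMk (a2.fst.prodMk (a2.snd.sub h1))
    rw [sub_zero] at h
    exact h
  have hne : (∞ : WithTop ℕ∞) ≠ 0 := by simp
  let e := hΨ.contDiffAt.toOpenPartialHomeomorph Ψ hΨ' hne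
  have hcoe : ∀ x, e x = Ψ x := fun x => rfl
  have hsrc : ((0, d0, 0) : ℝ × D × W) ∈ e.source :=
    hΨ.contDiffAt.mem_toOpenPartialHomeomorph_source hΨ' hne
  have hΨ0 : Ψ (0, d0, 0) = (0, d0, 0) := by simp [Ψ, h0]
  have htgt : ((0, d0, 0) : ℝ × D × W) ∈ e.target := by
    have := e.map_source hsrc
    rwa [hcoe, hΨ0] at this
  have hsymm0 : e.symm ((0, d0, 0) : ℝ × D × W) = (0, d0, 0) := by
    have := e.left_inv hsrc
    rwa [hcoe, hΨ0] at this
  -- good set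
  let G : Set (ℝ × D × W) := {x | fderiv ℝ Ψ x ∈ range ((↑) : ((ℝ × D × W) ≃L[ℝ] (ℝ × D × W)) →
    ((ℝ × D × W) →L[ℝ] (ℝ × D × W)))}
  have hG : IsOpen G :=
    (ContinuousLinearEquiv.isOpen).preimage (hΨ.continuous_fderiv hne)
  have hG0 : ((0, d0, 0) : ℝ × D × W) ∈ G := ⟨_, hΨ'.fderiv.symm⟩
  obtain ⟨ρ, hρ, hball⟩ := Metric.isOpen_iff.1 e.open_source _ hsrc
  let V : Set (ℝ × D × W) := e.target ∩ e.symm ⁻¹' (G ∩ {x | ‖x.2.2‖ < ρ})
  have hV : IsOpen V := e.isOpen_inter_preimage_symm (hG.inter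
    (isOpen_lt (by fun_prop) continuous_const))
  have hV0 : ((0, d0, 0) : ℝ × D × W) ∈ V := by
    refine ⟨htgt, ?_⟩
    rw [mem_preimage, hsymm0]
    exact ⟨hG0, by simpa using hρ⟩
  have hV' : IsOpen ((fun ε : ℝ => ((ε, d0, 0) : ℝ × D × W)) ⁻¹' V) := hV.preimage (by fun_prop)
  obtain ⟨r, hr, hrV⟩ := Metric.isOpen_iff.1 hV' 0 hV0
  have hε0 : 0 < min r ρ / 2 := by have := lt_min hr hρ; linarith
  set ε0 := min r ρ / 2 with hε0def
  have hmem : ∀ ε ∈ Icc 0 ε0, ((ε, d0, 0) : ℝ × D × W) ∈ V := by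
    intro ε hε
    apply hrV
    rw [Metric.mem_ball, Real.dist_eq, sub_zero, abs_of_nonneg hε.1]
    have := min_le_left r ρ
    linarith [hε.2]
  have hkey : ∀ ε ∈ Icc 0 ε0, ∀ y', ‖y'‖ < ρ → ((ε, d0, y') : ℝ × D × W) ∈ e.source := by
    intro ε hε y' hy'
    apply hball
    rw [Metric.mem_ball, Prod.dist_eq, Prod.dist_eq]
    have := min_le_right r ρ
    refine max_lt ?_ (max_lt ?_ ?_)
    · simp only
      rw [Real.dist_eq, sub_zero, abs_of_nonneg hε.1]; linarith [hε.2]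
    · simp only [dist_self]; exact hρ
    · simpa using hy'
  let y : ℝ → W := fun ε => (e.symm (clamp ε0 ε, d0, 0)).2.2
  have hy : ∀ ε ∈ Icc 0 ε0, y ε = (e.symm (ε, d0, 0)).2.2 := by
    intro ε hε
    simp only [y, clamp_eq hε]
  have hx : ∀ ε ∈ Icc 0 ε0, e.symm (ε, d0, 0) = (ε, d0, y ε) ∧ y ε = N (ε, d0, y ε) := by
    intro ε hε
    have hm := hmem ε hε
    have h2 := e.right_inv hm.1
    rw [hcoe] at h2
    have hyε := hy ε hε
    rcases hh : e.symm (ε, d0, 0) with ⟨x1, x2, x3⟩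
    rw [hh] at h2 hyε
    simp only [Ψ, Prod.mk.injEq] at h2
    obtain ⟨rfl, rfl, h3⟩ := h2
    simp only at hyε
    rw [← hyε] at h3 ⊢
    exact ⟨rfl, sub_eq_zero.1 h3⟩
  refine ⟨ε0, ρ, y, hε0, hρ, ?_, ?_, ?_⟩
  · have hc : ContinuousOn e.symm e.target := e.continuousOn_symm
    have h2 : Continuous (fun ε : ℝ => ((clamp ε0 ε, d0, 0) : ℝ × D × W)) := by
      have := continuous_clamp ε0
      fun_prop
    have h3 : Continuous (fun ε : ℝ => e.symm (clamp ε0 ε, d0, 0)) :=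
      hc.comp_continuous h2 fun ε => (hmem _ (clamp_mem hε0 ε)).1
    exact continuous_snd.comp (continuous_snd.comp h3)
  · rw [hy 0 ⟨le_rfl, hε0.le⟩, hsymm0]
  · intro ε hε
    obtain ⟨hx1, hx2⟩ := hx ε hε
    have hm := hmem ε hε
    have hxs : ((ε, d0, y ε) : ℝ × D × W) ∈ e.source := by
      rw [← hx1]; exact e.map_target hm.1
    have hnorm : ‖y ε‖ < ρ := by
      have := hm.2.2
      rw [mem_ofPred_eq, hx1] at this
      exact this
    refine ⟨hnorm, hx2, ?_, ?_⟩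
    · intro y' hy' hy'N
      have h2 := hkey ε hε y' hy'
      have h3 : e (ε, d0, y') = e (ε, d0, y ε) := by
        rw [hcoe, hcoe]
        simp only [Ψ]
        rw [← hy'N, ← hx2, sub_self, sub_self]
      have := e.injOn h2 hxs h3
      simpa using this
    · refine ⟨fun d => (e.symm (ε, d, 0)).2.2, ?_, ?_⟩
      · have hGx : e.symm (ε, d0, 0) ∈ G := hm.2.1
        obtain ⟨L, hL⟩ := hGx
        have h2 : ContDiffAt ℝ ∞ e.symm (ε, d0, 0) := by
          refine e.contDiffAt_symm (f₀' := L) hm.1 ?_ hΨ.contDiffAt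
          have h3 := (hΨ.differentiable hne (e.symm (ε, d0, 0))).hasFDerivAt
          rw [← hL] at h3
          exact h3
        have h3 : ContDiffAt ℝ ∞ (fun d : D => ((ε, d, 0) : ℝ × D × W)) d0 :=
          (contDiff_const.prodMk (contDiff_id.prodMk contDiff_const)).contDiffAt
        exact (ContDiffAt.comp d0 h2 h3).snd.snd
      · have hc : Continuous (fun q : D × W => ((ε, q.1, q.2) : ℝ × D × W)) := by fun_prop
        have h2 : ∀ᶠ q : D × W in 𝓝 (d0, y ε), ((ε, q.1, q.2) : ℝ × D × W) ∈ e.source :=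
          hc.continuousAt.eventually_mem (e.open_source.mem_nhds hxs)
        filter_upwards [h2] with q hq hqN
        have h3 := e.left_inv hq
        rw [hcoe] at h3
        simp only [Ψ] at h3
        rw [← hqN, sub_self] at h3
        rw [h3]

end Vale.Agent.P205
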