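import Vale.Agent.H16.Torus.Assemble

set_option autoImplicit false

open Real MeasureTheory intervalIntegral Set
open scoped ContDiff

namespace Vale.Agent.P205

theorem circle_symmetric (g : TorusMetric)
    (hE : ∀ x y y', g.E (x, y) = g.E (x, y')) (hF : ∀ x y y', g.F (x, y) = g.F (x, y'))
    (hG : ∀ x y y', g.G (x, y) = g.G (x, y')) : ∃ Φ, IsSmoothIsometricImmersion g Φ := by
  have hne : (∞ : WithTop ℕ∞) ≠ 0 := by simp
  let e : ℝ → ℝ := fun x => g.E (x, 0)
  let f : ℝ → ℝ := fun x => g.F (x, 0)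
  let k : ℝ → ℝ := fun x => g.G (x, 0)
  have he : ContDiff ℝ ∞ e := g.smooth_E.comp (by fun_prop)
  have hf : ContDiff ℝ ∞ f := g.smooth_F.comp (by fun_prop)
  have hk : ContDiff ℝ ∞ k := g.smooth_G.comp (by fun_prop)
  have hep : Function.Periodic e 1 := fun x => by
    have := g.periodic_E (x, 0) 1 0; simpa [e] using this
  have hfp : Function.Periodic f 1 := fun x => by
    have := g.periodic_F (x, 0) 1 0; simpa [f] using this
  have hkp : Function.Periodic k 1 := fun x => by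
    have := g.periodic_G (x, 0) 1 0; simpa [k] using this
  have hk0 : ∀ x, 0 < k x := fun x => by
    have h1 := g.pos_E (x, 0)
    have h2 := g.pos_det (x, 0)
    by_contra h
    push Not at h
    have : g.E (x, 0) * g.G (x, 0) ≤ 0 := mul_nonpos_of_nonneg_of_nonpos h1.le h
    nlinarith [sq_nonneg (g.F (x, 0))]
  have hdet : ∀ x, 0 < e x - f x ^ 2 / k x := fun x => by
    have h2 := g.pos_det (x, 0)
    rw [sub_pos, div_lt_iff₀ (hk0 x)]
    simp only [e, f, k]; linarith
  let W : ℝ → ℝ := fun x => e x - f x ^ 2 / k x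
  have hW : ContDiff ℝ ∞ W := he.sub ((hf.pow 2).div hk fun x => (hk0 x).ne')
  have hWp : Function.Periodic W 1 := fun x => by simp only [W, hep x, hfp x, hkp x]
  let r : ℝ → ℝ := fun x => sqrt (k x)
  have hr : ContDiff ℝ ∞ r := hk.sqrt fun x => (hk0 x).ne'
  have hrp : Function.Periodic r 1 := fun x => by simp only [r, hkp x]
  have hr0 : ∀ x, 0 < r x := fun x => sqrt_pos.2 (hk0 x)
  have hr2 : ∀ x, r x ^ 2 = k x := fun x => sq_sqrt (hk0 x).le
  have hr' : ContDiff ℝ ∞ (deriv r) := (contDiff_infty_iff_deriv.1 hr).2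
  have hr'p : Function.Periodic (deriv r) 1 := fun x => by
    have : deriv (fun y => r (y + 1)) x = deriv r (x + 1) := deriv_comp_add_const r 1 x
    rw [← this]; congr 1; funext y; exact hrp y
  obtain ⟨m, hm, hmW⟩ := exists_pos_lower W hW.continuous 1 one_pos hWp hdet
  obtain ⟨M, hM⟩ := exists_upper (fun x => (deriv r x) ^ 2) (hr'.continuous.pow 2) 1 one_pos
    (fun x => by simp only [hr'p x])
  obtain ⟨κ, hκ, hκr⟩ := exists_pos_lower (fun x => 1 / r x)
    (continuous_const.div hr.continuous fun x => (hr0 x).ne') 1 one_pos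
    (fun x => by simp only [hrp x]) (fun x => by have := hr0 x; positivity)
  obtain ⟨N, hN⟩ := exists_nat_gt (max 1 (max (2 * M / m) (1 / (sqrt (m / 2) * κ))))
  have hN1 : (1:ℝ) < N := lt_of_le_of_lt (le_max_left _ _) hN
  have hN2 : 2 * M / m < N := lt_of_le_of_lt ((le_max_left _ _).trans (le_max_right _ _)) hN
  have hN3 : 1 / (sqrt (m / 2) * κ) < N :=
    lt_of_le_of_lt ((le_max_right _ _).trans (le_max_right _ _)) hN
  have hsm : 0 < sqrt (m / 2) := sqrt_pos.2 (by positivity)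
  have hpi := pi_gt_three
  obtain ⟨c, hc⟩ : ∃ c : ℝ, c = 2 * π * N := ⟨_, rfl⟩
  have hc1 : 1 < c := by nlinarith
  have hcN : (N:ℝ) ≤ c := by nlinarith
  have hc0 : 0 < c := by linarith
  have hsmall : ∀ x, (deriv r x / c) ^ 2 ≤ m / 2 := fun x => by
    have h1 := hM x
    rw [div_pow, div_le_iff₀ (by positivity)]
    have h2 : 2 * M < N * m := by rwa [div_lt_iff₀ hm] at hN2
    have h3 : (N:ℝ) * m ≤ c ^ 2 * m := by
      have : (N:ℝ) ≤ c ^ 2 := by nlinarith
      nlinarith
    linarith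
  have hrad : ∀ x, m / 2 ≤ W x - (deriv r x / c) ^ 2 := fun x => by
    have := hmW x; have := hsmall x; linarith
  have hrad0 : ∀ x, 0 < W x - (deriv r x / c) ^ 2 := fun x => by
    have := hrad x; linarith [half_pos hm]
  let Z : ℝ → ℝ := fun x => sqrt (W x - (deriv r x / c) ^ 2) * c / r x
  have hZ : ContDiff ℝ ∞ Z := by
    refine ContDiff.div (ContDiff.mul (ContDiff.sqrt ?_ fun x => (hrad0 x).ne') contDiff_const) hr
      fun x => (hr0 x).ne'
    exact hW.sub ((hr'.div_const c).pow 2)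
  have hZp : Function.Periodic Z 1 := fun x => by simp only [Z, hWp x, hr'p x, hrp x]
  let q : ℝ → ℝ := fun x => f x / k x
  have hq : ContDiff ℝ ∞ q := hf.div hk fun x => (hk0 x).ne'
  have hqp : Function.Periodic q 1 := fun x => by simp only [q, hfp x, hkp x]
  let S0 : ℝ → ℝ := fun x => ∫ t in (0:ℝ)..x, Z t
  let T0 : ℝ → ℝ := fun x => ∫ t in (0:ℝ)..x, q t
  have hprim : ∀ (w : ℝ → ℝ), Continuous w → Function.Periodic w 1 → ∀ x,
      (∫ t in (0:ℝ)..x + 1, w t) = (∫ t in (0:ℝ)..x, w t) + ∫ t in (0:ℝ)..1, w t := by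
    intro w hw hp x
    have h1 : (∫ t in (0:ℝ)..x + 1, w t) = (∫ t in (0:ℝ)..x, w t) + ∫ t in x..x + 1, w t :=
      (integral_add_adjacent_intervals (hw.intervalIntegrable _ _) (hw.intervalIntegrable _ _)).symm
    rw [h1, hp.intervalIntegral_add_eq x 0, zero_add]
  have hL : 2 * π ≤ ∫ t in (0:ℝ)..1, Z t := by
    have h1 : ∀ x, 2 * π ≤ Z x := fun x => by
      have h2 : sqrt (m / 2) ≤ sqrt (W x - (deriv r x / c) ^ 2) := sqrt_le_sqrt (hrad x)
      have h3 : κ ≤ 1 / r x := hκr x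
      have h4 : 1 < N * (sqrt (m / 2) * κ) := by rwa [div_lt_iff₀ (by positivity)] at hN3
      have h5 : Z x = c * (sqrt (W x - (deriv r x / c) ^ 2) * (1 / r x)) := by
        simp only [Z]; ring
      have h6 : sqrt (m / 2) * κ ≤ sqrt (W x - (deriv r x / c) ^ 2) * (1 / r x) := by gcongr
      have h7 : (N:ℝ) * (sqrt (m / 2) * κ) ≤
        N * (sqrt (W x - (deriv r x / c) ^ 2) * (1 / r x)) := by gcongr
      rw [h5]
      generalize sqrt (W x - (deriv r x / c) ^ 2) * (1 / r x) = Y at h7 ⊢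
      rw [hc]
      nlinarith
    have h8 : (∫ t in (0:ℝ)..1, (2 * π : ℝ)) ≤ ∫ t in (0:ℝ)..1, Z t :=
      integral_mono_on zero_le_one (by simp) (hZ.continuous.intervalIntegrable _ _)
        fun x _ => h1 x
    simpa using h8
  let R : ℝ × ℝ → ℝ := fun p => r p.1 / c
  let S : ℝ × ℝ → ℝ := fun p => S0 p.1
  let T : ℝ × ℝ → ℝ := fun p => c * (p.2 + T0 p.1)
  have hS0 : ContDiff ℝ ∞ S0 := contDiff_primitive Z hZ
  have hT0 : ContDiff ℝ ∞ T0 := contDiff_primitive q hq
  have hR : ContDiff ℝ ∞ R := (hr.comp contDiff_fst).div_const c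
  have hS : ContDiff ℝ ∞ S := hS0.comp contDiff_fst
  have hT : ContDiff ℝ ∞ T := contDiff_const.mul (contDiff_snd.add (hT0.comp contDiff_fst))
  refine assemble g R S T hR hS hT (∫ t in (0:ℝ)..1, Z t) (c * ∫ t in (0:ℝ)..1, q t) hL
    (fun x y => by simp only [R, hrp x]) (fun x y => rfl) 1 0 0 N ?_ ?_ ?_ ?_ ?_
  · intro x y
    simp only [S, S0, hprim Z hZ.continuous hZp x]; push_cast; ring
  · intro x y
    simp only [S]; push_cast; ring
  · intro x y
    simp only [T, T0, hprim q hq.continuous hqp x]; push_cast; ring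
  · intro x y
    simp only [T, hc]; push_cast; ring
  · intro p v w
    have dr := (hr.differentiable hne p.1).hasDerivAt
    have d1 : HasFDerivAt (fun p : ℝ × ℝ => p.1) (ContinuousLinearMap.fst ℝ ℝ ℝ) p :=
      hasFDerivAt_fst
    have d2 : HasFDerivAt (fun p : ℝ × ℝ => p.2) (ContinuousLinearMap.snd ℝ ℝ ℝ) p :=
      hasFDerivAt_snd
    have dS0 := hasDerivAt_primitive Z hZ.continuous p.1
    have dT0 := hasDerivAt_primitive q hq.continuous p.1
    have eR : ∀ u, fderiv ℝ R p u = deriv r p.1 / c * u.1 := by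
      intro u
      have : HasFDerivAt R _ p := (dr.div_const c).comp_hasFDerivAt p d1
      rw [this.fderiv]; simp
    have eS : ∀ u, fderiv ℝ S p u = Z p.1 * u.1 := by
      intro u
      have : HasFDerivAt S _ p := dS0.comp_hasFDerivAt p d1
      rw [this.fderiv]; simp
    have eT : ∀ u, fderiv ℝ T p u = c * (u.2 + q p.1 * u.1) := by
      intro u
      have : HasFDerivAt T _ p := (d2.add (dT0.comp_hasFDerivAt p d1)).const_mul c
      rw [this.fderiv]; simp; ring
    simp only [eR, eS, eT, TorusMetric.inner]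
    have g1 : g.E p = e p.1 := by rw [← Prod.mk.eta (p := p)]; exact hE _ _ _
    have g2 : g.F p = f p.1 := by rw [← Prod.mk.eta (p := p)]; exact hF _ _ _
    have g3 : g.G p = k p.1 := by rw [← Prod.mk.eta (p := p)]; exact hG _ _ _
    rw [g1, g2, g3]
    have hk' := hk0 p.1
    have hr'' := hr0 p.1
    have hrr := hr2 p.1
    have hZ2 : (r p.1 / c) ^ 2 * Z p.1 ^ 2 = e p.1 - f p.1 ^ 2 / k p.1 - (deriv r p.1 / c) ^ 2 := by
      simp only [Z]
      have := sq_sqrt (hrad0 p.1).le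
      rw [div_pow (r p.1) c 2, div_pow _ (r p.1) 2, mul_pow, this]
      simp only [W]
      field_simp
    simp only [R, q]
    have hq2 : f p.1 = (f p.1 / k p.1) * k p.1 := by field_simp
    have hq3 : f p.1 ^ 2 / k p.1 = (f p.1 / k p.1) ^ 2 * k p.1 := by field_simp
    have hR2 : (r p.1 / c) ^ 2 * c ^ 2 = k p.1 := by
      rw [div_pow, hrr]; field_simp
    set F' := f p.1 / k p.1
    rw [hq3] at hZ2
    rw [hq2]
    linear_combination (-(v.1 * w.1)) * hZ2 - (v.2 + F' * v.1) * (w.2 + F' * w.1) * hR2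

end Vale.Agent.P205
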