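import Vale.Agent.H16.Torus.Geom5
import Vale.Agent.H16.Torus.Assemble

set_option autoImplicit false

open Real MeasureTheory Set intervalIntegral
open scoped ContDiff

namespace Vale.Agent.P205

theorem conformal_of_family
    (hfam : ∀ (l u w : ℝ) (v : ℝ × ℝ → ℝ), 0 < l → 0 < w → ContDiff ℝ ∞ v → LatPer l u w v →
      ∃ ε0, 0 < ε0 ∧ Nonempty (Family l u w v ε0))
    (g : TorusMetric) (lam : ℝ × ℝ → ℝ) (hlam : ∀ p, 0 < lam p) (a b c : ℝ)
    (hE : ∀ p, g.E p = lam p * a) (hF : ∀ p, g.F p = lam p * b) (hG : ∀ p, g.G p = lam p * c) :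
    ∃ Φ, IsSmoothIsometricImmersion g Φ := by
  have ha : 0 < a := by
    have h1 := g.pos_E 0
    rw [hE] at h1
    exact (mul_pos_iff_of_pos_left (hlam 0)).1 h1
  have hdet : 0 < a * c - b ^ 2 := by
    have h1 := g.pos_det 0
    rw [hE, hF, hG] at h1
    have h2 : lam 0 * a * (lam 0 * c) - (lam 0 * b) ^ 2 = lam 0 ^ 2 * (a * c - b ^ 2) := by ring
    rw [h2] at h1
    exact (mul_pos_iff_of_pos_left (by have := hlam 0; positivity)).1 h1
  have hlam_eq : lam = fun p => g.E p / a := by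
    funext p; rw [hE]; field_simp
  have hlams : ContDiff ℝ ∞ lam := by rw [hlam_eq]; exact g.smooth_E.div_const a
  have hlamp : ∀ (p : ℝ × ℝ) (m n : ℤ), lam (p.1 + m, p.2 + n) = lam p := by
    intro p m n
    rw [hlam_eq]; simp only [g.periodic_E]
  obtain ⟨l, hl, hl2⟩ : ∃ l : ℝ, 0 < l ∧ l ^ 2 = a := ⟨sqrt a, sqrt_pos.2 ha, sq_sqrt ha.le⟩
  obtain ⟨u, hu⟩ : ∃ u : ℝ, l * u = b := ⟨b / l, by field_simp⟩
  obtain ⟨w, hw, hw2⟩ : ∃ w : ℝ, 0 < w ∧ w ^ 2 = c - b ^ 2 / a := by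
    have h1 : 0 < c - b ^ 2 / a := by
      have : c - b ^ 2 / a = (a * c - b ^ 2) / a := by field_simp
      rw [this]; positivity
    exact ⟨sqrt _, sqrt_pos.2 h1, sq_sqrt h1.le⟩
  have huw : u ^ 2 + w ^ 2 = c := by
    rw [hw2, ← hu, ← hl2]
    field_simp
    ring
  -- the linear change of coordinates
  let A : ℝ × ℝ →L[ℝ] ℝ × ℝ :=
    ((l • ContinuousLinearMap.fst ℝ ℝ ℝ) + (u • ContinuousLinearMap.snd ℝ ℝ ℝ)).prod
      (w • ContinuousLinearMap.snd ℝ ℝ ℝ)
  have hA : ∀ q : ℝ × ℝ, A q = (l * q.1 + u * q.2, w * q.2) := fun q => by simp [A]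
  let v : ℝ × ℝ → ℝ := fun q => Real.log (lam ((q.1 - u * (q.2 / w)) / l, q.2 / w)) / 2
  have hv : ContDiff ℝ ∞ v := by
    refine ContDiff.div_const (ContDiff.log (hlams.comp ?_) fun q => (hlam _).ne') 2
    fun_prop
  have hvA : ∀ q, exp (2 * v (A q)) = lam q := by
    intro q
    simp only [v, hA]
    have e1 : w * q.2 / w = q.2 := by field_simp
    have e2 : (l * q.1 + u * q.2 - u * q.2) / l = q.1 := by field_simp; ring
    rw [e1, e2, Prod.mk.eta, mul_div_cancel₀ _ (two_ne_zero), exp_log (hlam q)]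
  have hpv : LatPer l u w v := by
    constructor
    · intro p
      simp only [v, Prod.fst_add, Prod.snd_add, add_zero]
      have e : (p.1 + l - u * (p.2 / w)) / l = (p.1 - u * (p.2 / w)) / l + 1 := by field_simp; ring
      rw [e]
      have := hlamp ((p.1 - u * (p.2 / w)) / l, p.2 / w) 1 0
      simp only [Int.cast_one, Int.cast_zero, add_zero] at this
      rw [this]
    · intro p
      simp only [v, Prod.fst_add, Prod.snd_add]
      have e1 : (p.2 + w) / w = p.2 / w + 1 := by field_simp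
      have e : (p.1 + u - u * (p.2 / w + 1)) / l = (p.1 - u * (p.2 / w)) / l := by congr 1; ring
      rw [e1, e]
      have := hlamp ((p.1 - u * (p.2 / w)) / l, p.2 / w) 0 1
      simp only [Int.cast_one, Int.cast_zero, add_zero] at this
      rw [this]
  obtain ⟨ε0, hε0, ⟨F⟩⟩ := hfam l u w v hl hw hv hpv
  obtain ⟨R, S, T, N, L, τ, hR, hS, hT, hL, hRp, hS1, hS2, hT1, hT2, hmet⟩ :=
    Family.final hl hw hv hpv hε0 F
  have hAc : ContDiff ℝ ∞ (A : ℝ × ℝ → ℝ × ℝ) := A.contDiff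
  have hA1 : ∀ x y, A (x + 1, y) = A (x, y) + (l, 0) := fun x y => by
    rw [hA, hA]; ext <;> simp; ring
  have hA2 : ∀ x y, A (x, y + 1) = A (x, y) + (u, w) := fun x y => by
    rw [hA, hA]; ext <;> simp <;> ring
  have hcomp : ∀ (f : ℝ × ℝ → ℝ), ContDiff ℝ ∞ f → ∀ p x, fderiv ℝ (fun q => f (A q)) p x =
      fderiv ℝ f (A p) (A x) := by
    intro f hf p x
    have : HasFDerivAt (fun q => f (A q)) _ p :=
      ((hf.differentiable infty_ne_zero (A p)).hasFDerivAt).comp p A.hasFDerivAt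
    rw [this.fderiv]; rfl
  refine assemble g (fun q => R (A q)) (fun q => S (A q)) (fun q => T (A q)) (hR.comp hAc)
    (hS.comp hAc) (hT.comp hAc) L (-τ) hL ?_ ?_ 0 (-1) N 0 ?_ ?_ ?_ ?_ ?_
  · intro x y; simp only [hA1, hRp.1]
  · intro x y; simp only [hA2, hRp.2]
  · intro x y; simp only [hA1, hS1]; push_cast; ring
  · intro x y; simp only [hA2, hS2]; push_cast; ring
  · intro x y; simp only [hA1, hT1]; push_cast; ring
  · intro x y; simp only [hA2, hT2]; push_cast; ring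
  · intro p x y
    rw [hcomp R hR, hcomp R hR, hcomp S hS, hcomp S hS, hcomp T hT, hcomp T hT, ← hmet, hvA]
    unfold TorusMetric.inner
    rw [hE, hF, hG, hA, hA, ← hl2, ← hu, ← huw]
    ring

end Vale.Agent.P205
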