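import Mathlib

set_option autoImplicit false

open scoped ContDiff

namespace Vale.Agent.P205

/-- A smooth Riemannian metric `E dx² + 2 F dx dy + G dy²` on the torus `T² = ℝ² / ℤ²`, given by its
smooth `ℤ²`-periodic coefficient functions on the universal cover `ℝ²`; positive definiteness is
`E > 0` and `E G - F² > 0`. -/
structure TorusMetric where
  E : ℝ × ℝ → ℝ
  F : ℝ × ℝ → ℝ
  G : ℝ × ℝ → ℝ
  smooth_E : ContDiff ℝ ∞ E
  smooth_F : ContDiff ℝ ∞ F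
  smooth_G : ContDiff ℝ ∞ G
  periodic_E : ∀ (p : ℝ × ℝ) (m n : ℤ), E (p.1 + m, p.2 + n) = E p
  periodic_F : ∀ (p : ℝ × ℝ) (m n : ℤ), F (p.1 + m, p.2 + n) = F p
  periodic_G : ∀ (p : ℝ × ℝ) (m n : ℤ), G (p.1 + m, p.2 + n) = G p
  pos_E : ∀ p, 0 < E p
  pos_det : ∀ p, 0 < E p * G p - F p ^ 2

/-- The inner product `g_p(v, w)` of two tangent vectors at `p`. -/
def TorusMetric.inner (g : TorusMetric) (p v w : ℝ × ℝ) : ℝ :=
  g.E p * (v.1 * w.1) + g.F p * (v.1 * w.2 + v.2 * w.1) + g.G p * (v.2 * w.2)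

/-- `Φ` is (the lift to `ℝ²` of) a `C^∞` isometric immersion of the Riemannian torus
`(ℝ² / ℤ², g)` into Euclidean `ℝ⁴`. -/
def IsSmoothIsometricImmersion (g : TorusMetric) (Φ : ℝ × ℝ → EuclideanSpace ℝ (Fin 4)) : Prop :=
  ContDiff ℝ ∞ Φ ∧
  (∀ (p : ℝ × ℝ) (m n : ℤ), Φ (p.1 + m, p.2 + n) = Φ p) ∧
  ∀ p v w : ℝ × ℝ, inner ℝ (fderiv ℝ Φ p v) (fderiv ℝ Φ p w) = g.inner p v w

end Vale.Agent.P205
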