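import Vale.Agent.H16.Torus.Geom3

set_option autoImplicit false

open Real MeasureTheory Set
open scoped ContDiff

namespace Vale.Agent.P205

/-- Developing map for a flat coframe `η¹ = a1 dx + a2 dy`, `η² = b1 dx + b2 dy` on the torus. -/
theorem develop_general {l u w : ℝ} (hl : 0 < l) (hw : 0 < w) {a1 a2 b1 b2 o1 o2 : ℝ × ℝ → ℝ}
    (ha1 : ContDiff ℝ ∞ a1) (ha2 : ContDiff ℝ ∞ a2) (hb1 : ContDiff ℝ ∞ b1)
    (hb2 : ContDiff ℝ ∞ b2) (ho1 : ContDiff ℝ ∞ o1) (ho2 : ContDiff ℝ ∞ o2)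
    (pa1 : LatPer l u w a1) (pa2 : LatPer l u w a2) (pb1 : LatPer l u w b1)
    (pb2 : LatPer l u w b2) (po1 : LatPer l u w o1) (po2 : LatPer l u w o2)
    (s1 : ∀ p, dX a2 p - dY a1 p = o1 p * b2 p - o2 p * b1 p)
    (s2 : ∀ p, dX b2 p - dY b1 p = -(o1 p * a2 p - o2 p * a1 p))
    (cl : ∀ p, dX o2 p = dY o1 p) (hd : ∀ p, 0 < a1 p * b2 p - a2 p * b1 p) :
    ∃ ϑ S T : ℝ × ℝ → ℝ, ContDiff ℝ ∞ ϑ ∧ ContDiff ℝ ∞ S ∧ ContDiff ℝ ∞ T ∧
      (∀ p, dX S p = cos (ϑ p) * a1 p - sin (ϑ p) * b1 p ∧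
        dY S p = cos (ϑ p) * a2 p - sin (ϑ p) * b2 p) ∧
      (∀ p, dX T p = sin (ϑ p) * a1 p + cos (ϑ p) * b1 p ∧
        dY T p = sin (ϑ p) * a2 p + cos (ϑ p) * b2 p) ∧
      (∀ p, S (p + (l, 0)) = S p + S (l, 0)) ∧ (∀ p, S (p + (u, w)) = S p + S (u, w)) ∧
      (∀ p, T (p + (l, 0)) = T p + T (l, 0)) ∧ (∀ p, T (p + (u, w)) = T p + T (u, w)) := by
  obtain ⟨ϑ, hϑ, hϑ0, hdϑ⟩ := exists_potential ho1 ho2 cl
  have hc : ContDiff ℝ ∞ (fun p => cos (ϑ p)) := contDiff_cos.comp hϑ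
  have hs : ContDiff ℝ ∞ (fun p => sin (ϑ p)) := contDiff_sin.comp hϑ
  have hcx : ∀ p : ℝ × ℝ, HasDerivAt (fun t => cos (ϑ (t, p.2))) _ p.1 := fun p => (hasDX hϑ p).cos
  have hsx : ∀ p : ℝ × ℝ, HasDerivAt (fun t => sin (ϑ (t, p.2))) _ p.1 := fun p => (hasDX hϑ p).sin
  have hcy : ∀ p : ℝ × ℝ, HasDerivAt (fun t => cos (ϑ (p.1, t))) _ p.2 := fun p => (hasDY hϑ p).cos
  have hsy : ∀ p : ℝ × ℝ, HasDerivAt (fun t => sin (ϑ (p.1, t))) _ p.2 := fun p => (hasDY hϑ p).sin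
  have sa1 : ContDiff ℝ ∞ (fun p => cos (ϑ p) * a1 p - sin (ϑ p) * b1 p) :=
    (hc.mul ha1).sub (hs.mul hb1)
  have sa2 : ContDiff ℝ ∞ (fun p => cos (ϑ p) * a2 p - sin (ϑ p) * b2 p) :=
    (hc.mul ha2).sub (hs.mul hb2)
  have sb1 : ContDiff ℝ ∞ (fun p => sin (ϑ p) * a1 p + cos (ϑ p) * b1 p) :=
    (hs.mul ha1).add (hc.mul hb1)
  have sb2 : ContDiff ℝ ∞ (fun p => sin (ϑ p) * a2 p + cos (ϑ p) * b2 p) :=
    (hs.mul ha2).add (hc.mul hb2)
  obtain ⟨S, hS, hS0, hdS⟩ := exists_potential sa1 sa2 (fun p => by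
    have d1 : dX (fun p => cos (ϑ p) * a2 p - sin (ϑ p) * b2 p) p = _ :=
      dX_eq sa2 (((hcx p).mul (hasDX ha2 p)).sub ((hsx p).mul (hasDX hb2 p)))
    have d2 : dY (fun p => cos (ϑ p) * a1 p - sin (ϑ p) * b1 p) p = _ :=
      dY_eq sa1 (((hcy p).mul (hasDY ha1 p)).sub ((hsy p).mul (hasDY hb1 p)))
    rw [d1, d2, (hdϑ p).1, (hdϑ p).2]
    have s1 := s1 p
    have s2 := s2 p
    simp only [Prod.mk.eta]
    linear_combination cos (ϑ p) * s1 - sin (ϑ p) * s2)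
  obtain ⟨T, hT, hT0, hdT⟩ := exists_potential sb1 sb2 (fun p => by
    have d1 : dX (fun p => sin (ϑ p) * a2 p + cos (ϑ p) * b2 p) p = _ :=
      dX_eq sb2 (((hsx p).mul (hasDX ha2 p)).add ((hcx p).mul (hasDX hb2 p)))
    have d2 : dY (fun p => sin (ϑ p) * a1 p + cos (ϑ p) * b1 p) p = _ :=
      dY_eq sb1 (((hsy p).mul (hasDY ha1 p)).add ((hcy p).mul (hasDY hb1 p)))
    rw [d1, d2, (hdϑ p).1, (hdϑ p).2]
    have s1 := s1 p
    have s2 := s2 p
    simp only [Prod.mk.eta]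
    linear_combination sin (ϑ p) * s1 + cos (ϑ p) * s2)
  have hdet : ∀ p, 0 < dX S p * dY T p - dY S p * dX T p := fun p => by
    rw [(hdS p).1, (hdS p).2, (hdT p).1, (hdT p).2]
    have e : (cos (ϑ p) * a1 p - sin (ϑ p) * b1 p) *
        (sin (ϑ p) * a2 p + cos (ϑ p) * b2 p) -
        (cos (ϑ p) * a2 p - sin (ϑ p) * b2 p) *
        (sin (ϑ p) * a1 p + cos (ϑ p) * b1 p) =
        a1 p * b2 p - a2 p * b1 p := by
      linear_combination (a1 p * b2 p - a2 p * b1 p) * sin_sq_add_cos_sq (ϑ p)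
    rw [e]
    exact hd p
  -- translations
  have trans : ∀ (f : ℝ × ℝ → ℝ) (c p : ℝ × ℝ), dX (fun q => f (q + c)) p = dX f (p + c) ∧
      dY (fun q => f (q + c)) p = dY f (p + c) := by
    intro f c p
    unfold dX dY
    rw [fderiv_comp_add_right]
    exact ⟨rfl, rfl⟩
  have hadd : ∀ (f : ℝ × ℝ → ℝ) (c : ℝ × ℝ), ContDiff ℝ ∞ f → ContDiff ℝ ∞ (fun q => f (q + c)) :=
    fun f c hf => hf.comp (contDiff_id.add contDiff_const)
  have step : ∀ c : ℝ × ℝ, (∀ p, o1 (p + c) = o1 p) → (∀ p, o2 (p + c) = o2 p) →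
      (∀ p, a1 (p + c) = a1 p) → (∀ p, a2 (p + c) = a2 p) →
      (∀ p, b1 (p + c) = b1 p) → (∀ p, b2 (p + c) = b2 p) →
      (∀ p, S (p + c) = cos (ϑ c) * S p - sin (ϑ c) * T p + S c) ∧
      (∀ p, T (p + c) = sin (ϑ c) * S p + cos (ϑ c) * T p + T c) := by
    intro c k1 k2 k3 k4 k5 k6
    have hϑc : ∀ p, ϑ (p + c) = ϑ p + ϑ c := by
      intro p
      have := eq_add_const_of_partials (hadd ϑ c hϑ) hϑ
        (fun p => by rw [(trans ϑ c p).1, (hdϑ _).1, (hdϑ _).1, k1])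
        (fun p => by rw [(trans ϑ c p).2, (hdϑ _).2, (hdϑ _).2, k2]) p
      simp only [zero_add, hϑ0, sub_zero] at this
      exact this
    constructor
    · intro p
      have hR : ContDiff ℝ ∞ (fun q => cos (ϑ c) * S q - sin (ϑ c) * T q) :=
        (contDiff_const.mul hS).sub (contDiff_const.mul hT)
      have := eq_add_const_of_partials (hadd S c hS) hR
        (fun p => by
          have d1 : dX (fun q => cos (ϑ c) * S q - sin (ϑ c) * T q) p = _ :=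
            dX_eq hR (((hasDX hS p).const_mul (cos (ϑ c))).sub ((hasDX hT p).const_mul (sin (ϑ c))))
          rw [(trans S c p).1, d1, (hdS _).1, (hdS _).1, (hdT _).1, hϑc, k3, k5, cos_add, sin_add]
          ring)
        (fun p => by
          have d1 : dY (fun q => cos (ϑ c) * S q - sin (ϑ c) * T q) p = _ :=
            dY_eq hR (((hasDY hS p).const_mul (cos (ϑ c))).sub ((hasDY hT p).const_mul (sin (ϑ c))))
          rw [(trans S c p).2, d1, (hdS _).2, (hdS _).2, (hdT _).2, hϑc, k4, k6, cos_add, sin_add]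
          ring) p
      simp only [zero_add, hS0, hT0, mul_zero, sub_zero] at this
      exact this
    · intro p
      have hR : ContDiff ℝ ∞ (fun q => sin (ϑ c) * S q + cos (ϑ c) * T q) :=
        (contDiff_const.mul hS).add (contDiff_const.mul hT)
      have := eq_add_const_of_partials (hadd T c hT) hR
        (fun p => by
          have d1 : dX (fun q => sin (ϑ c) * S q + cos (ϑ c) * T q) p = _ :=
            dX_eq hR (((hasDX hS p).const_mul (sin (ϑ c))).add ((hasDX hT p).const_mul (cos (ϑ c))))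
          rw [(trans T c p).1, d1, (hdT _).1, (hdS _).1, (hdT _).1, hϑc, k3, k5, cos_add, sin_add]
          ring)
        (fun p => by
          have d1 : dY (fun q => sin (ϑ c) * S q + cos (ϑ c) * T q) p = _ :=
            dY_eq hR (((hasDY hS p).const_mul (sin (ϑ c))).add ((hasDY hT p).const_mul (cos (ϑ c))))
          rw [(trans T c p).2, d1, (hdT _).2, (hdS _).2, (hdT _).2, hϑc, k4, k6, cos_add, sin_add]
          ring) p
      simp only [zero_add, hS0, hT0, mul_zero, add_zero, sub_zero] at this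
      exact this
  obtain ⟨u1, u2⟩ := step (l, 0) po1.1 po2.1 pa1.1 pa2.1 pb1.1 pb2.1
  obtain ⟨v1, v2⟩ := step (u, w) po1.2 po2.2 pa1.2 pa2.2 pb1.2 pb2.2
  have r1 : cos (ϑ (l, 0)) = 1 := no_rotation (l, 0) (u, w)
    (fun F hF a b => exists_max hl hw F hF a b) S T hS hT hdet _ _ _ _ _ _ u1 u2 v1 v2
  have r2 : cos (ϑ (u, w)) = 1 := no_rotation (u, w) (l, 0)
    (fun F hF a b => exists_max hl hw F hF b a) S T hS hT hdet _ _ _ _ _ _ v1 v2 u1 u2
  have r3 : sin (ϑ (l, 0)) = 0 := by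
    have := sin_sq_add_cos_sq (ϑ (l, 0))
    rw [r1] at this
    have h3 : sin (ϑ (l, 0)) ^ 2 = 0 := by linarith
    exact pow_eq_zero_iff (two_ne_zero) |>.1 h3
  have r4 : sin (ϑ (u, w)) = 0 := by
    have := sin_sq_add_cos_sq (ϑ (u, w))
    rw [r2] at this
    have h3 : sin (ϑ (u, w)) ^ 2 = 0 := by linarith
    exact pow_eq_zero_iff (two_ne_zero) |>.1 h3
  refine ⟨ϑ, S, T, hϑ, hS, hT, hdS, hdT, ?_, ?_, ?_, ?_⟩
  · intro p; rw [u1, r1, r3]; ring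
  · intro p; rw [v1, r2, r4]; ring
  · intro p; rw [u2, r1, r3]; ring
  · intro p; rw [v2, r2, r4]; ring

end Vale.Agent.P205
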