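import Vale.Agent.H16.Torus.Nonlin
import Vale.Agent.H16.Torus.Branch
import Vale.Agent.H16.Torus.Conformal

set_option autoImplicit false

open MeasureTheory Set Filter Topology
open scoped ContDiff ENNReal

namespace Vale.Agent.P205

theorem WA.conj_ev0 (a : WA) : (starRingEnd ℂ) (WA.ev0 a) = WA.ev0 (WA.inv a) := by
  rw [WA.ev0_apply, WA.ev0_apply, Complex.conj_tsum, ← (Equiv.neg (ℤ × ℤ)).tsum_eq]
  rfl

theorem WA.ev0_one : WA.ev0 WA.one = 1 := by
  rw [WA.ev0_apply]
  simp only [WA.one_apply]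
  rw [tsum_ite_eq]

theorem WA.norm_inv_le (a : WA) : ‖WA.inv a‖ ≤ ‖a‖ := by
  have := (WA.inv).le_of_opNorm_le (LinearMap.mkContinuous_norm_le _ zero_le_one _) a
  simpa using this

/-- value of a Fourier series at a point -/
noncomputable def evX (l u w : ℝ) (X : ℝ × ℝ) (a : WA) : ℂ := WA.ev0 (tau l u w X a)

section
variable (l u w : ℝ) (X : ℝ × ℝ)

theorem evX_conv (a b : WA) : evX l u w X (WA.conv a b) = evX l u w X a * evX l u w X b := by
  unfold evX; rw [tau_conv, WA.ev0_conv]
theorem evX_one : evX l u w X WA.one = 1 := by unfold evX; rw [tau_one, WA.ev0_one]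
theorem evX_add (a b : WA) : evX l u w X (a + b) = evX l u w X a + evX l u w X b := by
  unfold evX; rw [map_add, map_add]
theorem evX_sub (a b : WA) : evX l u w X (a - b) = evX l u w X a - evX l u w X b := by
  unfold evX; rw [map_sub, map_sub]
theorem evX_smul (r : ℝ) (a : WA) : evX l u w X (r • a) = r * evX l u w X a := by
  unfold evX; rw [map_smul, map_smul, Complex.real_smul]
theorem evX_real {a : WA} (h : WA.inv a = a) : evX l u w X a = ((evX l u w X a).re : ℂ) := by
  have : (starRingEnd ℂ) (evX l u w X a) = evX l u w X a := by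
    unfold evX; rw [WA.conj_ev0, inv_tau, h]
  exact (Complex.conj_eq_iff_re.1 this).symm
end

section
variable {l u w : ℝ}

theorem fderiv_orbit_apply {a : WA} (ha : ContDiff ℝ ∞ (fun X => tau l u w X a)) (X v : ℝ × ℝ)
    (n : ℤ × ℤ) : (fderiv ℝ (fun X => tau l u w X a) X v) n =
      chi l u w n X * (phase l u w n v * Complex.I * a n) := by
  have h1 := (ha.differentiable infty_ne_zero X).hasFDerivAt
  have h2 : HasDerivAt (fun t : ℝ => X + t • v) v 0 := by
    simpa using ((hasDerivAt_id (0:ℝ)).smul_const v).const_add X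
  have h3 := h1.comp_hasDerivAt_of_eq (0:ℝ) h2 (by simp)
  have h4 := ((WA.coord n).hasFDerivAt (x := tau l u w (X + (0:ℝ) • v) a)).comp_hasDerivAt (0:ℝ) h3
  have h5 : HasDerivAt (fun t : ℝ => chi l u w n X *
      (Complex.exp ((phase l u w n v * t : ℝ) * Complex.I) * a n))
      (chi l u w n X * (phase l u w n v * Complex.I * a n)) 0 := by
    have h6 : HasDerivAt (fun t : ℝ => (((phase l u w n v * t : ℝ)) : ℂ) * Complex.I)
        (phase l u w n v * Complex.I) 0 := by
      have h7 : HasDerivAt (fun t : ℝ => phase l u w n v * t) (phase l u w n v) 0 := by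
        simpa using (hasDerivAt_id (0:ℝ)).const_mul (phase l u w n v)
      exact h7.ofReal_comp.mul_const Complex.I
    have h8 := ((h6.cexp).mul_const (a n)).const_mul (chi l u w n X)
    simpa using h8
  have h9 : (fun t : ℝ => chi l u w n X *
      (Complex.exp ((phase l u w n v * t : ℝ) * Complex.I) * a n)) =
      fun t : ℝ => WA.coord n (tau l u w (X + t • v) a) := by
    funext t
    rw [WA.coord_apply, tau_apply, chi_add_right, mul_assoc]
    congr 2
    unfold chi phase
    congr 2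
    simp only [Prod.smul_fst, Prod.smul_snd, smul_eq_mul]
    push_cast
    ring
  rw [h9] at h5
  exact h4.unique h5

theorem fderiv_orbit1 {a b : WA} (ha : ContDiff ℝ ∞ (fun X => tau l u w X a))
    (hb : ∀ n, b n = Complex.I * xi1 l n * a n) (X : ℝ × ℝ) :
    fderiv ℝ (fun X => tau l u w X a) X (1, 0) = tau l u w X b := by
  refine WA.ext fun n => ?_
  rw [fderiv_orbit_apply ha, tau_apply, hb]
  unfold phase
  push_cast
  ring

theorem fderiv_orbit2 {a b : WA} (ha : ContDiff ℝ ∞ (fun X => tau l u w X a))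
    (hb : ∀ n, b n = Complex.I * xi2 l u w n * a n) (X : ℝ × ℝ) :
    fderiv ℝ (fun X => tau l u w X a) X (0, 1) = tau l u w X b := by
  refine WA.ext fun n => ?_
  rw [fderiv_orbit_apply ha, tau_apply, hb]
  unfold phase
  push_cast
  ring

/-- the real-valued function attached to a coefficient sequence -/
noncomputable def rv (l u w : ℝ) (a : WA) (X : ℝ × ℝ) : ℝ := (evX l u w X a).re

noncomputable def reEv : WA →L[ℝ] ℝ := Complex.reCLM.comp WA.ev0

theorem rv_eq (l u w : ℝ) (a : WA) : rv l u w a = fun X => reEv (tau l u w X a) := rfl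

theorem smooth_rv {a : WA} (ha : ContDiff ℝ ∞ (fun X => tau l u w X a)) :
    ContDiff ℝ ∞ (rv l u w a) := by
  rw [rv_eq]
  exact reEv.contDiff.comp ha

theorem dX_rv {a b : WA} (ha : ContDiff ℝ ∞ (fun X => tau l u w X a))
    (hb : ∀ n, b n = Complex.I * xi1 l n * a n) : dX (rv l u w a) = rv l u w b := by
  funext X
  unfold dX
  have h1 := (ha.differentiable infty_ne_zero X).hasFDerivAt
  have h2 := (reEv.hasFDerivAt (x := tau l u w X a)).comp X h1
  rw [rv_eq]
  have h3 : fderiv ℝ (fun X => reEv (tau l u w X a)) X = _ := h2.fderiv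
  rw [h3, ContinuousLinearMap.comp_apply, fderiv_orbit1 ha hb]
  rfl

theorem dY_rv {a b : WA} (ha : ContDiff ℝ ∞ (fun X => tau l u w X a))
    (hb : ∀ n, b n = Complex.I * xi2 l u w n * a n) : dY (rv l u w a) = rv l u w b := by
  funext X
  unfold dY
  have h1 := (ha.differentiable infty_ne_zero X).hasFDerivAt
  have h2 := (reEv.hasFDerivAt (x := tau l u w X a)).comp X h1
  rw [rv_eq]
  have h3 : fderiv ℝ (fun X => reEv (tau l u w X a)) X = _ := h2.fderiv
  rw [h3, ContinuousLinearMap.comp_apply, fderiv_orbit2 ha hb]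
  rfl

theorem latPer_rv (hl : 0 < l) (hw : 0 < w) (a : WA) : LatPer l u w (rv l u w a) :=
  ⟨fun p => by unfold rv evX; rw [tau_lat1 hl], fun p => by unfold rv evX; rw [tau_lat2 hl hw]⟩

theorem continuous_rv_joint {y : ℝ → WA} (hy : Continuous y) :
    Continuous (fun q : ℝ × (ℝ × ℝ) => rv l u w (y q.1) q.2) :=
  reEv.continuous.comp (continuous_tau_joint l u w hy)

theorem actD_zero (P : DD) : Mults.actD (tau l u w 0) P = P := by
  unfold Mults.actD
  simp only [tau_zero, Prod.mk.eta]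

/-- smoothness of orbits of solutions -/
theorem smooth_orbit (M : Mults l u w) {P0 : DD}
    (hP : ContDiff ℝ ∞ (fun X => Mults.actD (tau l u w X) P0)) {ε : ℝ} {y : WA}
    (hy : y = M.NN (ε, P0, y)) {Y : DD → WA} (hY : ContDiffAt ℝ ∞ Y P0)
    (hloc : ∀ᶠ q : DD × WA in 𝓝 (P0, y), q.2 = M.NN (ε, q.1, q.2) → q.2 = Y q.1) :
    ContDiff ℝ ∞ (fun X => tau l u w X y) := by
  rw [contDiff_iff_contDiffAt]
  intro X0
  have hc : Continuous (fun X : ℝ × ℝ =>
      ((Mults.actD (tau l u w (X - X0)) P0, tau l u w (X - X0) y) : DD × WA)) := by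
    have h1 := hP.continuous
    have h2 := continuous_tau l u w y
    have h3 : Continuous (fun X : ℝ × ℝ => X - X0) := by fun_prop
    exact (h1.comp h3).prodMk (h2.comp h3)
  have h0 : ((Mults.actD (tau l u w (X0 - X0)) P0, tau l u w (X0 - X0) y) : DD × WA) = (P0, y) := by
    rw [sub_self, actD_zero, tau_zero]
  have hev : ∀ᶠ X in 𝓝 X0, tau l u w X y =
      tau l u w X0 (Y (Mults.actD (tau l u w (X - X0)) P0)) := by
    have ht : Tendsto (fun X : ℝ × ℝ =>
        ((Mults.actD (tau l u w (X - X0)) P0, tau l u w (X - X0) y) : DD × WA)) (𝓝 X0)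
        (𝓝 (P0, y)) := by
      rw [← h0]; exact hc.tendsto X0
    filter_upwards [ht.eventually hloc] with X hX
    have h1 : tau l u w (X - X0) y =
        M.NN (ε, Mults.actD (tau l u w (X - X0)) P0, tau l u w (X - X0) y) := by
      rw [Mults.NN_sym M (sym_tau M (X - X0)), ← hy]
    rw [← hX h1, ← tau_add]
    congr 2
    abel
  refine ContDiffAt.congr_of_eventuallyEq ?_ hev
  have h4 : ContDiffAt ℝ ∞ (fun X : ℝ × ℝ => Mults.actD (tau l u w (X - X0)) P0) X0 :=
    (hP.comp (contDiff_id.sub contDiff_const)).contDiffAt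
  have h5 : ContDiffAt ℝ ∞ Y (Mults.actD (tau l u w (X0 - X0)) P0) := by
    rw [sub_self, actD_zero]; exact hY
  exact (tau l u w X0).contDiff.contDiffAt.comp X0 (h5.comp X0 h4)

theorem Rapid.smooth_tau {a : WA} (h : Rapid l u w a) : ContDiff ℝ ∞ (fun X => tau l u w X a) :=
  h.contDiff

theorem Rapid.inv1 {a : WA} (h : Rapid l u w a) (ha : WA.inv a = a) : WA.inv h.d1 = h.d1 := by
  refine WA.ext fun n => ?_
  have h1 : (starRingEnd ℂ) (a (-n)) = a n := by
    conv_rhs => rw [← ha]
    rfl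
  rw [WA.inv_apply, h.d1_apply, h.d1_apply, xi1_neg, map_mul, map_mul, h1, Complex.conj_I,
    Complex.conj_ofReal]
  push_cast
  ring

theorem Rapid.inv2 {a : WA} (h : Rapid l u w a) (ha : WA.inv a = a) : WA.inv h.d2 = h.d2 := by
  refine WA.ext fun n => ?_
  have h1 : (starRingEnd ℂ) (a (-n)) = a n := by
    conv_rhs => rw [← ha]
    rfl
  rw [WA.inv_apply, h.d2_apply, h.d2_apply, xi2_neg, map_mul, map_mul, h1, Complex.conj_I,
    Complex.conj_ofReal]
  push_cast
  ring

namespace Mults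
variable (M : Mults l u w)

theorem r1 (y : WA) (n : ℤ × ℤ) : M.K1 y n = Complex.I * xi1 l n * M.ze y n := by
  unfold ze
  rw [M.a1, WA.add_apply, M.a0, WA.one_apply]
  by_cases h : n = 0
  · rw [h, xi1_zero]; simp
  · rw [if_neg h]; push_cast; ring

theorem r2 (y : WA) (n : ℤ × ℤ) : M.K2 y n = Complex.I * xi2 l u w n * M.ze y n := by
  unfold ze
  rw [M.a2, WA.add_apply, M.a0, WA.one_apply]
  by_cases h : n = 0
  · rw [h, xi2_zero]; simp
  · rw [if_neg h]; push_cast; ring

theorem r11 (y : WA) (n : ℤ × ℤ) : M.K11 y n = Complex.I * xi1 l n * M.K1 y n := by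
  rw [M.a11, M.a1]
  push_cast
  linear_combination (-(xi1 l n : ℂ) ^ 2 * (rinv l u w n : ℂ) * y n) * (-Complex.I_sq)

theorem r12 (y : WA) (n : ℤ × ℤ) : M.K12 y n = Complex.I * xi2 l u w n * M.K1 y n := by
  rw [M.a12, M.a1]
  push_cast
  linear_combination (-(xi1 l n : ℂ) * xi2 l u w n * (rinv l u w n : ℂ) * y n) * (-Complex.I_sq)

theorem r22 (y : WA) (n : ℤ × ℤ) : M.K22 y n = Complex.I * xi2 l u w n * M.K2 y n := by
  rw [M.a22, M.a2]
  push_cast
  linear_combination (-(xi2 l u w n : ℂ) ^ 2 * (rinv l u w n : ℂ) * y n) * (-Complex.I_sq)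

theorem lap (hl : 0 < l) (hw : 0 < w) {y : WA} (h0 : y 0 = 0) : M.K11 y + M.K22 y = y := by
  refine WA.ext fun n => ?_
  rw [WA.add_apply, M.a11, M.a22]
  by_cases h : n = 0
  · rw [h, h0]; simp
  · have := xsq_rinv (u := u) hl hw n h
    unfold xsq at this
    have h2 : ((xi1 l n ^ 2 * rinv l u w n : ℝ) : ℂ) + ((xi2 l u w n ^ 2 * rinv l u w n : ℝ) : ℂ) = 1 := by
      rw [← Complex.ofReal_add, ← add_mul, this, Complex.ofReal_one]
    rw [← add_mul, h2, one_mul]

theorem evX_Pr (a : WA) (X : ℝ × ℝ) : evX l u w X (M.Pr a) = evX l u w X a - a 0 := by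
  unfold evX
  rw [WA.ev0_apply, WA.ev0_apply,
    (WA.ev_summable (tau l u w X a)).tsum_eq_add_tsum_ite (0 : ℤ × ℤ)]
  simp only [tau_apply, chi_zero_left, one_mul, M.aP]
  have : ∀ n : ℤ × ℤ, chi l u w n X * ((if n = 0 then 0 else 1) * a n) =
      if n = 0 then 0 else chi l u w n X * a n := by
    intro n; split_ifs <;> simp
  simp only [this]
  ring

end Mults

end

end Vale.Agent.P205
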