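import Vale.Agent.H16.Torus.Orbit

set_option autoImplicit false

open MeasureTheory Set
open scoped ContDiff ENNReal

namespace Vale.Agent.P205

/-- squared length of the dual lattice vector -/
noncomputable def xsq (l u w : ℝ) (n : ℤ × ℤ) : ℝ := xi1 l n ^ 2 + xi2 l u w n ^ 2

theorem xsq_lower {l u w : ℝ} (hl : 0 < l) (hw : 0 < w) :
    ∃ κ, 0 < κ ∧ ∀ n : ℤ × ℤ, n ≠ 0 → κ ≤ xsq l u w n := by
  have hpi := Real.pi_pos
  refine ⟨min ((2 * Real.pi / l) ^ 2) ((2 * Real.pi / w) ^ 2), lt_min (by positivity) (by positivity),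
    fun n hn => ?_⟩
  have hsq : ∀ k : ℤ, k ≠ 0 → (1:ℝ) ≤ (k:ℝ) ^ 2 := by
    intro k hk
    have : (1:ℤ) ≤ k ^ 2 := by
      have := Int.one_le_abs hk
      rw [← sq_abs]; nlinarith
    exact_mod_cast this
  unfold xsq
  by_cases h1 : n.1 = 0
  · have h2 : n.2 ≠ 0 := fun h => hn (Prod.ext h1 h)
    refine (min_le_right _ _).trans ?_
    have e : xi2 l u w n ^ 2 = (2 * Real.pi / w) ^ 2 * (n.2:ℝ) ^ 2 := by
      unfold xi2; rw [h1]; push_cast; ring
    rw [e]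
    have := hsq _ h2
    nlinarith [sq_nonneg (xi1 l n), mul_le_mul_of_nonneg_left this (sq_nonneg (2 * Real.pi / w))]
  · refine (min_le_left _ _).trans ?_
    have e : xi1 l n ^ 2 = (2 * Real.pi / l) ^ 2 * (n.1:ℝ) ^ 2 := by
      unfold xi1; ring
    rw [e]
    have := hsq _ h1
    nlinarith [sq_nonneg (xi2 l u w n), mul_le_mul_of_nonneg_left this (sq_nonneg (2 * Real.pi / l))]

/-- reciprocal squared length, zero at zero -/
noncomputable def rinv (l u w : ℝ) (n : ℤ × ℤ) : ℝ := if n = 0 then 0 else 1 / xsq l u w n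

theorem xsq_nonneg (l u w : ℝ) (n : ℤ × ℤ) : 0 ≤ xsq l u w n := by unfold xsq; positivity
theorem rinv_nonneg (l u w : ℝ) (n : ℤ × ℤ) : 0 ≤ rinv l u w n := by
  unfold rinv
  have := xsq_nonneg l u w n
  split_ifs <;> positivity

theorem xsq_neg (l u w : ℝ) (n : ℤ × ℤ) : xsq l u w (-n) = xsq l u w n := by
  unfold xsq; rw [xi1_neg, xi2_neg]; ring
theorem rinv_neg (l u w : ℝ) (n : ℤ × ℤ) : rinv l u w (-n) = rinv l u w n := by
  unfold rinv; rw [xsq_neg]; simp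

theorem xsq_rinv {l u w : ℝ} (hl : 0 < l) (hw : 0 < w) (n : ℤ × ℤ) (hn : n ≠ 0) :
    xsq l u w n * rinv l u w n = 1 := by
  obtain ⟨κ, h1, h2⟩ := xsq_lower (u := u) hl hw
  unfold rinv
  rw [if_neg hn]
  have h3 : xsq l u w n ≠ 0 := by have := h2 n hn; linarith
  field_simp

theorem xsq_rinv_le {l u w : ℝ} (hl : 0 < l) (hw : 0 < w) (n : ℤ × ℤ) :
    xsq l u w n * rinv l u w n ≤ 1 := by
  by_cases hn : n = 0
  · unfold rinv; rw [if_pos hn]; simp
  · exact (xsq_rinv hl hw n hn).le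

theorem rinv_zero (l u w : ℝ) : rinv l u w 0 = 0 := by simp [rinv]

/-- The bundle of multiplier operators. -/
structure Mults (l u w : ℝ) where
  K0 : WA →L[ℝ] WA
  K1 : WA →L[ℝ] WA
  K2 : WA →L[ℝ] WA
  K11 : WA →L[ℝ] WA
  K12 : WA →L[ℝ] WA
  K22 : WA →L[ℝ] WA
  Pr : WA →L[ℝ] WA
  a0 : ∀ a n, K0 a n = ((-rinv l u w n : ℝ) : ℂ) * a n
  a1 : ∀ a n, K1 a n = (-Complex.I * xi1 l n * rinv l u w n) * a n
  a2 : ∀ a n, K2 a n = (-Complex.I * xi2 l u w n * rinv l u w n) * a n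
  a11 : ∀ a n, K11 a n = ((xi1 l n ^ 2 * rinv l u w n : ℝ) : ℂ) * a n
  a12 : ∀ a n, K12 a n = ((xi1 l n * xi2 l u w n * rinv l u w n : ℝ) : ℂ) * a n
  a22 : ∀ a n, K22 a n = ((xi2 l u w n ^ 2 * rinv l u w n : ℝ) : ℂ) * a n
  aP : ∀ a n, Pr a n = (if n = 0 then 0 else 1 : ℂ) * a n

theorem exists_mults {l u w : ℝ} (hl : 0 < l) (hw : 0 < w) : Nonempty (Mults l u w) := by
  obtain ⟨κ, h1, h2⟩ := xsq_lower (u := u) hl hw
  have hr : ∀ n, rinv l u w n ≤ 1 / κ := by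
    intro n
    unfold rinv
    split_ifs with h
    · positivity
    · exact one_div_le_one_div_of_le h1 (h2 n h)
  have hx := fun n => xsq_rinv_le (u := u) hl hw n
  have hr0 := rinv_nonneg l u w
  have b0 : ∀ n, ‖((-rinv l u w n : ℝ) : ℂ)‖ ≤ 1 / κ := by
    intro n
    rw [Complex.norm_real, Real.norm_eq_abs, abs_neg, abs_of_nonneg (hr0 n)]
    exact hr n
  have b1 : ∀ n, ‖(-Complex.I * xi1 l n * rinv l u w n : ℂ)‖ ≤ 1 / κ + 1 := by
    intro n
    rw [norm_mul, norm_mul, norm_neg, Complex.norm_I, one_mul, Complex.norm_real, Complex.norm_real,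
      Real.norm_eq_abs, Real.norm_eq_abs, abs_of_nonneg (hr0 n)]
    have e1 := hx n
    have e2 := hr n
    have e3 := hr0 n
    unfold xsq at e1
    have e4 : |xi1 l n| ≤ 1 + xi1 l n ^ 2 := by
      rw [← sq_abs]; nlinarith [sq_nonneg (|xi1 l n| - 1), abs_nonneg (xi1 l n)]
    nlinarith [mul_le_mul_of_nonneg_right e4 e3, mul_nonneg (sq_nonneg (xi2 l u w n)) e3]
  have b2 : ∀ n, ‖(-Complex.I * xi2 l u w n * rinv l u w n : ℂ)‖ ≤ 1 / κ + 1 := by
    intro n
    rw [norm_mul, norm_mul, norm_neg, Complex.norm_I, one_mul, Complex.norm_real, Complex.norm_real,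
      Real.norm_eq_abs, Real.norm_eq_abs, abs_of_nonneg (hr0 n)]
    have e1 := hx n
    have e2 := hr n
    have e3 := hr0 n
    unfold xsq at e1
    have e4 : |xi2 l u w n| ≤ 1 + xi2 l u w n ^ 2 := by
      rw [← sq_abs]; nlinarith [sq_nonneg (|xi2 l u w n| - 1), abs_nonneg (xi2 l u w n)]
    nlinarith [mul_le_mul_of_nonneg_right e4 e3, mul_nonneg (sq_nonneg (xi1 l n)) e3]
  have b11 : ∀ n, ‖((xi1 l n ^ 2 * rinv l u w n : ℝ) : ℂ)‖ ≤ 1 := by
    intro n
    rw [Complex.norm_real, Real.norm_eq_abs, abs_of_nonneg (mul_nonneg (sq_nonneg _) (hr0 n))]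
    have e1 := hx n
    unfold xsq at e1
    nlinarith [mul_nonneg (sq_nonneg (xi2 l u w n)) (hr0 n)]
  have b22 : ∀ n, ‖((xi2 l u w n ^ 2 * rinv l u w n : ℝ) : ℂ)‖ ≤ 1 := by
    intro n
    rw [Complex.norm_real, Real.norm_eq_abs, abs_of_nonneg (mul_nonneg (sq_nonneg _) (hr0 n))]
    have e1 := hx n
    unfold xsq at e1
    nlinarith [mul_nonneg (sq_nonneg (xi1 l n)) (hr0 n)]
  have b12 : ∀ n, ‖((xi1 l n * xi2 l u w n * rinv l u w n : ℝ) : ℂ)‖ ≤ 1 := by
    intro n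
    rw [Complex.norm_real, Real.norm_eq_abs, abs_mul, abs_mul, abs_of_nonneg (hr0 n)]
    have e1 := hx n
    unfold xsq at e1
    rw [← sq_abs, ← sq_abs (xi2 l u w n)] at e1
    nlinarith [mul_nonneg (sq_nonneg (|xi1 l n| - |xi2 l u w n|)) (hr0 n)]
  have bP : ∀ n : ℤ × ℤ, ‖(if n = 0 then 0 else 1 : ℂ)‖ ≤ 1 := by
    intro n; split_ifs <;> simp
  exact ⟨{
    K0 := WA.mulOp _ _ b0
    K1 := WA.mulOp _ _ b1
    K2 := WA.mulOp _ _ b2
    K11 := WA.mulOp _ _ b11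
    K12 := WA.mulOp _ _ b12
    K22 := WA.mulOp _ _ b22
    Pr := WA.mulOp _ _ bP
    a0 := fun _ _ => rfl
    a1 := fun _ _ => rfl
    a2 := fun _ _ => rfl
    a11 := fun _ _ => rfl
    a12 := fun _ _ => rfl
    a22 := fun _ _ => rfl
    aP := fun _ _ => rfl }⟩

/-- symmetry of the Banach algebra compatible with multipliers -/
structure Sym {l u w : ℝ} (M : Mults l u w) (S : WA →L[ℝ] WA) : Prop where
  sconv : ∀ a b, S (WA.conv a b) = WA.conv (S a) (S b)
  sone : S WA.one = WA.one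
  s0 : ∀ a, S (M.K0 a) = M.K0 (S a)
  s1 : ∀ a, S (M.K1 a) = M.K1 (S a)
  s2 : ∀ a, S (M.K2 a) = M.K2 (S a)
  s11 : ∀ a, S (M.K11 a) = M.K11 (S a)
  s12 : ∀ a, S (M.K12 a) = M.K12 (S a)
  s22 : ∀ a, S (M.K22 a) = M.K22 (S a)
  sP : ∀ a, S (M.Pr a) = M.Pr (S a)

theorem sym_tau {l u w : ℝ} (M : Mults l u w) (X : ℝ × ℝ) : Sym M (tau l u w X) where
  sconv := tau_conv l u w X
  sone := tau_one l u w X
  s0 a := WA.ext fun n => by simp only [tau_apply, M.a0]; ring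
  s1 a := WA.ext fun n => by simp only [tau_apply, M.a1]; ring
  s2 a := WA.ext fun n => by simp only [tau_apply, M.a2]; ring
  s11 a := WA.ext fun n => by simp only [tau_apply, M.a11]; ring
  s12 a := WA.ext fun n => by simp only [tau_apply, M.a12]; ring
  s22 a := WA.ext fun n => by simp only [tau_apply, M.a22]; ring
  sP a := WA.ext fun n => by simp only [tau_apply, M.aP]; ring

theorem sym_inv {l u w : ℝ} (M : Mults l u w) : Sym M WA.inv where
  sconv := WA.inv_conv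
  sone := WA.inv_one
  s0 a := WA.ext fun n => by
    simp only [WA.inv_apply, M.a0, map_mul, Complex.conj_ofReal, rinv_neg]
  s1 a := WA.ext fun n => by
    simp only [WA.inv_apply, M.a1, map_mul, map_neg, Complex.conj_I, Complex.conj_ofReal, rinv_neg,
      xi1_neg, Complex.ofReal_neg]; ring
  s2 a := WA.ext fun n => by
    simp only [WA.inv_apply, M.a2, map_mul, map_neg, Complex.conj_I, Complex.conj_ofReal, rinv_neg,
      xi2_neg, Complex.ofReal_neg]; ring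
  s11 a := WA.ext fun n => by
    simp only [WA.inv_apply, M.a11, map_mul, Complex.conj_ofReal, rinv_neg, xi1_neg]; congr 2; ring
  s12 a := WA.ext fun n => by
    simp only [WA.inv_apply, M.a12, map_mul, Complex.conj_ofReal, rinv_neg, xi1_neg, xi2_neg]
    congr 2; ring
  s22 a := WA.ext fun n => by
    simp only [WA.inv_apply, M.a22, map_mul, Complex.conj_ofReal, rinv_neg, xi2_neg]; congr 2; ring
  sP a := WA.ext fun n => by
    simp only [WA.inv_apply, M.aP, map_mul, neg_eq_zero]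
    split_ifs <;> simp

end Vale.Agent.P205
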