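import Vale.Agent.H16.Torus.Hilb
import Vale.Agent.H16.Torus.Mult
import Vale.Agent.H16.Torus.FamilyEx

set_option autoImplicit false

open MeasureTheory Set Filter Topology
open scoped ContDiff ENNReal

namespace Vale.Agent.P205

/-- frequencies on the standard torus -/
noncomputable abbrev x1 (n : ℤ × ℤ) : ℝ := xi1 1 n
noncomputable abbrev x2 (n : ℤ × ℤ) : ℝ := xi2 1 0 1 n
noncomputable abbrev xq (n : ℤ × ℤ) : ℝ := xsq 1 0 1 n

/-- reciprocal length of the frequency, `0` at the origin -/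
noncomputable def rr (n : ℤ × ℤ) : ℝ := if n = 0 then 0 else 1 / Real.sqrt (xq n)

theorem xq_def (n : ℤ × ℤ) : xq n = x1 n ^ 2 + x2 n ^ 2 := rfl

theorem xq_pos {n : ℤ × ℤ} (hn : n ≠ 0) : 0 < xq n := by
  obtain ⟨κ, h1, h2⟩ := xsq_lower (l := 1) (u := 0) (w := 1) one_pos one_pos
  exact h1.trans_le (h2 n hn)

theorem rr_nonneg (n : ℤ × ℤ) : 0 ≤ rr n := by unfold rr; split_ifs <;> positivity

theorem rr_sq {n : ℤ × ℤ} (hn : n ≠ 0) : rr n ^ 2 * xq n = 1 := by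
  have := xq_pos hn
  unfold rr
  rw [if_neg hn, div_pow, one_pow, Real.sq_sqrt this.le]
  field_simp

theorem rr_zero : rr 0 = 0 := by simp [rr]

theorem rr_le : ∃ C, ∀ n, rr n ≤ C := by
  obtain ⟨κ, h1, h2⟩ := xsq_lower (l := 1) (u := 0) (w := 1) one_pos one_pos
  refine ⟨1 / Real.sqrt κ, fun n => ?_⟩
  unfold rr
  split_ifs with h
  · positivity
  · exact one_div_le_one_div_of_le (Real.sqrt_pos.2 h1) (Real.sqrt_le_sqrt (h2 n h))

theorem sq_sum_rr (n : ℤ × ℤ) :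
    (x1 n * rr n) ^ 2 + (x2 n * rr n) ^ 2 + (if n = 0 then 1 else 0) = 1 := by
  by_cases h : n = 0
  · rw [h, rr_zero]; simp
  · have := rr_sq h
    rw [xq_def] at this
    rw [if_neg h]
    linear_combination this

theorem bR1 (n : ℤ × ℤ) : ‖(Complex.I * x1 n * rr n : ℂ)‖ ≤ 1 := by
  rw [norm_mul, norm_mul, Complex.norm_I, one_mul, Complex.norm_real, Complex.norm_real,
    Real.norm_eq_abs, Real.norm_eq_abs, ← abs_mul]
  refine abs_le_one_iff_mul_self_le_one.2 ?_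
  have h := sq_sum_rr n
  have : (0:ℝ) ≤ if n = 0 then 1 else 0 := by split_ifs <;> norm_num
  nlinarith [sq_nonneg (x2 n * rr n)]

theorem bR2 (n : ℤ × ℤ) : ‖(Complex.I * x2 n * rr n : ℂ)‖ ≤ 1 := by
  rw [norm_mul, norm_mul, Complex.norm_I, one_mul, Complex.norm_real, Complex.norm_real,
    Real.norm_eq_abs, Real.norm_eq_abs, ← abs_mul]
  refine abs_le_one_iff_mul_self_le_one.2 ?_
  have h := sq_sum_rr n
  have : (0:ℝ) ≤ if n = 0 then 1 else 0 := by split_ifs <;> norm_num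
  nlinarith [sq_nonneg (x1 n * rr n)]

theorem bPi (n : ℤ × ℤ) : ‖(if n = 0 then 1 else 0 : ℂ)‖ ≤ 1 := by split_ifs <;> simp

theorem bT (X : ℝ × ℝ) (n : ℤ × ℤ) : ‖chi 1 0 1 n X‖ ≤ 1 := (norm_chi _ _ _ _ _).le

/-- Riesz transforms, mean-value projection, translations, on `ℓ²` -/
noncomputable def R1 : H2 →L[ℝ] H2 := H2.wop _ (Equiv.refl _) 1 bR1
noncomputable def R2 : H2 →L[ℝ] H2 := H2.wop _ (Equiv.refl _) 1 bR2
noncomputable def Pi0 : H2 →L[ℝ] H2 := H2.wop _ (Equiv.refl _) 1 bPi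
noncomputable def T2 (X : ℝ × ℝ) : H2 →L[ℝ] H2 := H2.wop _ (Equiv.refl _) 1 (bT X)

theorem R1_apply (f : H2) (n : ℤ × ℤ) : R1 f n = Complex.I * x1 n * rr n * f n := rfl
theorem R2_apply (f : H2) (n : ℤ × ℤ) : R2 f n = Complex.I * x2 n * rr n * f n := rfl
theorem Pi0_apply (f : H2) (n : ℤ × ℤ) : Pi0 f n = (if n = 0 then 1 else 0) * f n := rfl
theorem T2_apply (X : ℝ × ℝ) (f : H2) (n : ℤ × ℤ) : T2 X f n = chi 1 0 1 n X * f n := rfl

theorem T2_R1 (X : ℝ × ℝ) (f : H2) : T2 X (R1 f) = R1 (T2 X f) :=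
  H2.ext fun n => by simp only [T2_apply, R1_apply]; ring
theorem T2_R2 (X : ℝ × ℝ) (f : H2) : T2 X (R2 f) = R2 (T2 X f) :=
  H2.ext fun n => by simp only [T2_apply, R2_apply]; ring
theorem T2_Pi0 (X : ℝ × ℝ) (f : H2) : T2 X (Pi0 f) = Pi0 (T2 X f) :=
  H2.ext fun n => by simp only [T2_apply, Pi0_apply]; ring
theorem T2_add (X Y : ℝ × ℝ) (f : H2) : T2 (X + Y) f = T2 X (T2 Y f) :=
  H2.ext fun n => by simp only [T2_apply, chi_add_right]; ring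
theorem T2_zero (f : H2) : T2 0 f = f := H2.ext fun n => by simp only [T2_apply, chi_zero_right, one_mul]
theorem T2_Mop (X : ℝ × ℝ) (a : WA) (f : H2) : T2 X (Mop a f) = Mop (tau 1 0 1 X a) (T2 X f) := by
  refine H2.ext fun n => ?_
  rw [T2_apply, Mop_apply, Mop_apply, ← tsum_mul_left]
  congr 1
  funext m
  have h : chi 1 0 1 n X = chi 1 0 1 m X * chi 1 0 1 (n - m) X := by
    rw [← chi_add_left]; congr 1; abel
  rw [tau_apply, T2_apply, h]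
  ring

/-- translation as an equivalence -/
noncomputable def T2e (X : ℝ × ℝ) : H2 ≃L[ℝ] H2 :=
  ContinuousLinearEquiv.equivOfInverse (T2 X) (T2 (-X))
    (fun f => by rw [← T2_add, neg_add_cancel, T2_zero])
    (fun f => by rw [← T2_add, add_neg_cancel, T2_zero])

theorem T2e_apply (X : ℝ × ℝ) (f : H2) : T2e X f = T2 X f := rfl
theorem T2e_symm_apply (X : ℝ × ℝ) (f : H2) : (T2e X).symm f = T2 (-X) f := rfl

theorem inner_R1 (f g : H2) : inner ℝ (R1 f) g = -inner ℝ f (R1 g) := by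
  have h1 : ∀ n : ℤ × ℤ, ‖(-(Complex.I * x1 n * rr n) : ℂ)‖ ≤ 1 := fun n => by
    rw [norm_neg]; exact bR1 n
  have := H2.inner_wop _ (Equiv.refl _) 1 bR1 (fun n => -(Complex.I * x1 n * rr n)) 1 h1
    (fun n => by simp) f g
  rw [← inner_neg_right]
  refine this.trans ?_
  congr 1
  refine H2.ext fun n => ?_
  rw [H2.neg_apply, R1_apply, H2.wop_apply]
  simp

theorem inner_R2 (f g : H2) : inner ℝ (R2 f) g = -inner ℝ f (R2 g) := by
  have h1 : ∀ n : ℤ × ℤ, ‖(-(Complex.I * x2 n * rr n) : ℂ)‖ ≤ 1 := fun n => by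
    rw [norm_neg]; exact bR2 n
  have := H2.inner_wop _ (Equiv.refl _) 1 bR2 (fun n => -(Complex.I * x2 n * rr n)) 1 h1
    (fun n => by simp) f g
  rw [← inner_neg_right]
  refine this.trans ?_
  congr 1
  refine H2.ext fun n => ?_
  rw [H2.neg_apply, R2_apply, H2.wop_apply]
  simp

theorem inner_Pi0 (f g : H2) : inner ℝ (Pi0 f) g = inner ℝ (Pi0 f) (Pi0 g) := by
  have := H2.inner_wop _ (Equiv.refl _) 1 bPi (fun n => if n = 0 then 1 else 0) 1 bPi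
    (fun n => by by_cases h : n = 0 <;> simp [h]) (Pi0 f) g
  have e : Pi0 (Pi0 f) = Pi0 f := H2.ext fun n => by
    simp only [Pi0_apply]; split_ifs <;> simp
  change inner ℝ (Pi0 (Pi0 f)) g = inner ℝ (Pi0 f) (Pi0 g) at this
  rw [e] at this
  exact this

theorem pythagoras (y : H2) : ‖y‖ ^ 2 = ‖R1 y‖ ^ 2 + ‖R2 y‖ ^ 2 + ‖Pi0 y‖ ^ 2 := by
  rw [H2.norm_sq, H2.norm_sq, H2.norm_sq, H2.norm_sq,
    ← (H2.ssq (R1 y)).tsum_add (H2.ssq (R2 y)),
    ← ((H2.ssq (R1 y)).add (H2.ssq (R2 y))).tsum_add (H2.ssq (Pi0 y))]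
  congr 1
  funext n
  rw [R1_apply, R2_apply, Pi0_apply]
  have h := sq_sum_rr n
  have e1 : ‖(Complex.I * x1 n * rr n * y n : ℂ)‖ ^ 2 = (x1 n * rr n) ^ 2 * ‖y n‖ ^ 2 := by
    rw [norm_mul, norm_mul, norm_mul, Complex.norm_I, one_mul, Complex.norm_real,
      Complex.norm_real, Real.norm_eq_abs, Real.norm_eq_abs, ← abs_mul, mul_pow, sq_abs]
  have e2 : ‖(Complex.I * x2 n * rr n * y n : ℂ)‖ ^ 2 = (x2 n * rr n) ^ 2 * ‖y n‖ ^ 2 := by
    rw [norm_mul, norm_mul, norm_mul, Complex.norm_I, one_mul, Complex.norm_real,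
      Complex.norm_real, Real.norm_eq_abs, Real.norm_eq_abs, ← abs_mul, mul_pow, sq_abs]
  have e3 : ‖((if n = 0 then 1 else 0) * y n : ℂ)‖ ^ 2 = (if n = 0 then 1 else 0) * ‖y n‖ ^ 2 := by
    split_ifs <;> simp
  rw [e1, e2, e3]
  linear_combination (-‖y n‖ ^ 2) * h

/-- the elliptic operator -/
noncomputable def Lop (a b c : WA) : H2 →L[ℝ] H2 :=
  Pi0 - (R1.comp ((Mop a).comp R1) + R1.comp ((Mop b).comp R2) + R2.comp ((Mop b).comp R1) +
    R2.comp ((Mop c).comp R2))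

theorem Lop_apply (a b c : WA) (y : H2) : Lop a b c y = Pi0 y -
    (R1 (Mop a (R1 y)) + R1 (Mop b (R2 y)) + R2 (Mop b (R1 y)) + R2 (Mop c (R2 y))) := rfl

theorem T2_Lop (X : ℝ × ℝ) (a b c : WA) (y : H2) : T2 X (Lop a b c y) =
    Lop (tau 1 0 1 X a) (tau 1 0 1 X b) (tau 1 0 1 X c) (T2 X y) := by
  rw [Lop_apply, Lop_apply]
  simp only [map_sub, map_add, T2_R1, T2_R2, T2_Pi0, T2_Mop]

theorem inner_Lop (a b c : WA) (y : H2) : inner ℝ (Lop a b c y) y = ‖Pi0 y‖ ^ 2 +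
    (inner ℝ (Mop a (R1 y)) (R1 y) + inner ℝ (Mop b (R2 y)) (R1 y) +
      inner ℝ (Mop b (R1 y)) (R2 y) + inner ℝ (Mop c (R2 y)) (R2 y)) := by
  rw [Lop_apply, inner_sub_left, inner_add_left, inner_add_left, inner_add_left, inner_R1,
    inner_R1, inner_R2, inner_R2, inner_Pi0, real_inner_self_eq_norm_sq]
  ring

theorem coer_aux {K w1 w2 z1 z2 c : ℝ} (hK1 : 1 ≤ K) (hw1 : 0 ≤ w1) (hw2 : 0 ≤ w2)
    (hz1 : 0 ≤ z1) (hz2 : 0 ≤ z2) (n1 : w1 ≤ K * z1) (n2 : w2 ≤ K * z2 + K ^ 3 * z1) :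
    1 / (4 * K ^ 6) * (w1 ^ 2 + w2 ^ 2 + c ^ 2) ≤ c ^ 2 + (z1 ^ 2 + z2 ^ 2) := by
  have m1 : w1 ^ 2 ≤ K ^ 6 * z1 ^ 2 := by
    calc w1 ^ 2 ≤ (K * z1) ^ 2 := pow_le_pow_left₀ hw1 n1 2
      _ = K ^ 2 * z1 ^ 2 := by ring
      _ ≤ K ^ 6 * z1 ^ 2 :=
        mul_le_mul_of_nonneg_right (pow_le_pow_right₀ hK1 (by norm_num)) (by positivity)
  have m2 : w2 ^ 2 ≤ 2 * (K ^ 6 * z2 ^ 2) + 2 * (K ^ 6 * z1 ^ 2) := by
    have k1 : K ^ 2 * z2 ^ 2 ≤ K ^ 6 * z2 ^ 2 :=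
      mul_le_mul_of_nonneg_right (pow_le_pow_right₀ hK1 (by norm_num)) (by positivity)
    have k2 : w2 ^ 2 ≤ (K * z2 + K ^ 3 * z1) ^ 2 := pow_le_pow_left₀ hw2 n2 2
    have k3 : (K * z2 + K ^ 3 * z1) ^ 2 ≤ 2 * (K ^ 2 * z2 ^ 2) + 2 * (K ^ 6 * z1 ^ 2) := by
      have := sq_nonneg (K * z2 - K ^ 3 * z1)
      have e1 : (K * z2 + K ^ 3 * z1) ^ 2 + (K * z2 - K ^ 3 * z1) ^ 2 =
        2 * (K ^ 2 * z2 ^ 2) + 2 * (K ^ 6 * z1 ^ 2) := by ring
      linarith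
    linarith
  have hK6 : 1 ≤ K ^ 6 := one_le_pow₀ hK1
  rw [div_mul_eq_mul_div, one_mul, div_le_iff₀ (by positivity)]
  have a1 : (0:ℝ) ≤ z1 ^ 2 := sq_nonneg _
  have a2 : (0:ℝ) ≤ z2 ^ 2 := sq_nonneg _
  have a3 : (0:ℝ) ≤ c ^ 2 := sq_nonneg _
  have b1 : 0 ≤ K ^ 6 * z1 ^ 2 := mul_nonneg (by linarith) a1
  have b2 : 0 ≤ K ^ 6 * z2 ^ 2 := mul_nonneg (by linarith) a2
  have b3 : 0 ≤ (K ^ 6 - 1) * c ^ 2 := mul_nonneg (by linarith) a3
  linarith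

theorem coercive_Lop {p q r : WA} (hp : WA.inv p = p) (hq : WA.inv q = q) (hr : WA.inv r = r)
    (hpr : WA.conv p r = WA.one) : ∃ κ, 0 < κ ∧ ∀ y : H2,
      κ * ‖y‖ ^ 2 ≤ inner ℝ (Lop (WA.conv q q + WA.conv r r) (-WA.conv q p) (WA.conv p p) y) y := by
  set K : ℝ := 1 + ‖p‖ + ‖q‖ + ‖r‖ with hK
  have hK1 : 1 ≤ K := by
    have := norm_nonneg p; have := norm_nonneg q; have := norm_nonneg r
    linarith
  have bM : ∀ (a : WA), ‖a‖ ≤ K → ∀ f : H2, ‖Mop a f‖ ≤ K * ‖f‖ := by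
    intro a ha f
    refine ((Mop a).le_opNorm f).trans ?_
    exact mul_le_mul_of_nonneg_right ((norm_Mop0_le a).trans ha) (norm_nonneg _)
  have bp := bM p (by have := norm_nonneg p; have := norm_nonneg q; have := norm_nonneg r; linarith)
  have bq := bM q (by have := norm_nonneg p; have := norm_nonneg q; have := norm_nonneg r; linarith)
  have br := bM r (by have := norm_nonneg p; have := norm_nonneg q; have := norm_nonneg r; linarith)
  have hprM : ∀ f : H2, Mop p (Mop r f) = f := fun f => by rw [← Mop_conv, hpr, Mop_one]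
  refine ⟨1 / (4 * K ^ 6), by positivity, fun y => ?_⟩
  rw [inner_Lop, pythagoras y]
  set w1 := R1 y
  set w2 := R2 y
  set z1 := Mop r w1 with hz1
  set z2 := Mop p w2 - Mop q w1 with hz2
  -- the quadratic form is a sum of squares
  have hform : inner ℝ (Mop (WA.conv q q + WA.conv r r) w1) w1 +
      inner ℝ (Mop (-WA.conv q p) w2) w1 + inner ℝ (Mop (-WA.conv q p) w1) w2 +
      inner ℝ (Mop (WA.conv p p) w2) w2 = ‖z1‖ ^ 2 + ‖z2‖ ^ 2 := by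
    have e1 : Mop (WA.conv q q + WA.conv r r) w1 = Mop q (Mop q w1) + Mop r (Mop r w1) := by
      rw [map_add, add_apply, Mop_conv, Mop_conv]
    have e2 : Mop (-WA.conv q p) w2 = -Mop q (Mop p w2) := by
      rw [map_neg, neg_apply, Mop_conv]
    have e3 : Mop (-WA.conv q p) w1 = -Mop p (Mop q w1) := by
      rw [map_neg, neg_apply, Mop_conv, Mop_comm]
    rw [e1, e2, e3, Mop_conv, inner_add_left, inner_neg_left, inner_neg_left,
      inner_Mop hq (Mop q w1) w1, inner_Mop hr (Mop r w1) w1, inner_Mop hq (Mop p w2) w1,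
      inner_Mop hp (Mop q w1) w2, inner_Mop hp (Mop p w2) w2, hz1, hz2, norm_sub_sq_real,
      real_inner_self_eq_norm_sq, real_inner_self_eq_norm_sq, real_inner_self_eq_norm_sq,
      real_inner_comm (Mop p w2) (Mop q w1)]
    ring
  rw [hform]
  have hw1 : w1 = Mop p z1 := (hprM w1).symm
  have hw2 : w2 = Mop r (z2 + Mop q w1) := by
    rw [hz2, sub_add_cancel, Mop_comm, hprM]
  have n1 : ‖w1‖ ≤ K * ‖z1‖ := by
    conv_lhs => rw [hw1]
    exact bp _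
  have n2 : ‖w2‖ ≤ K * ‖z2‖ + K ^ 3 * ‖z1‖ := by
    conv_lhs => rw [hw2]
    refine (br _).trans ?_
    have h1 := norm_add_le z2 (Mop q w1)
    have h2 := bq w1
    have hKp : 0 ≤ K := by linarith
    have h3 : ‖z2 + Mop q w1‖ ≤ ‖z2‖ + K * (K * ‖z1‖) :=
      h1.trans (add_le_add le_rfl (h2.trans (mul_le_mul_of_nonneg_left n1 hKp)))
    calc K * ‖z2 + Mop q w1‖ ≤ K * (‖z2‖ + K * (K * ‖z1‖)) := mul_le_mul_of_nonneg_left h3 hKp
      _ = _ := by ring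
  exact coer_aux hK1 (norm_nonneg _) (norm_nonneg _) (norm_nonneg _) (norm_nonneg _) n1 n2

end Vale.Agent.P205
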