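import Vale.Agent.H16.Torus.Elliptic

set_option autoImplicit false

open MeasureTheory Set Filter Topology
open scoped ContDiff ENNReal

namespace Vale.Agent.P205

theorem exists_equiv {L : H2 →L[ℝ] H2} {κ : ℝ} (hκ : 0 < κ)
    (h : ∀ y, κ * ‖y‖ ^ 2 ≤ inner ℝ (L y) y) : ∃ e : H2 ≃L[ℝ] H2, ∀ y, e y = L y := by
  let B : H2 →L[ℝ] H2 →L[ℝ] ℝ := LinearMap.mkContinuous₂
    (LinearMap.mk₂ ℝ (fun v w => inner ℝ (L v) w)
      (fun a b c => by rw [map_add, inner_add_left])
      (fun r a b => by rw [map_smul, real_inner_smul_left, smul_eq_mul])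
      (fun a b c => by rw [inner_add_right])
      (fun r a b => by rw [real_inner_smul_right, smul_eq_mul])) ‖L‖ (fun a b => by
        simp only [LinearMap.mk₂_apply]
        refine (norm_inner_le_norm _ _).trans ?_
        exact mul_le_mul_of_nonneg_right (L.le_opNorm a) (norm_nonneg _))
  have hB : ∀ v w, B v w = inner ℝ (L v) w := fun v w => rfl
  have hco : IsCoercive B := ⟨κ, hκ, fun u => by
    rw [hB, mul_assoc, ← sq]; exact h u⟩
  refine ⟨hco.continuousLinearEquivOfBilin, fun y => ?_⟩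
  refine ext_inner_right ℝ fun w => ?_
  rw [hco.continuousLinearEquivOfBilin_apply, hB]

theorem fderivH_apply {y : H2} (hy : ContDiff ℝ ∞ (fun X => T2 X y)) (X v : ℝ × ℝ)
    (n : ℤ × ℤ) : (fderiv ℝ (fun X => T2 X y) X v) n =
      chi 1 0 1 n X * (phase 1 0 1 n v * Complex.I * y n) := by
  have h1 := (hy.differentiable infty_ne_zero X).hasFDerivAt
  have h2 : HasDerivAt (fun t : ℝ => X + t • v) v 0 := by
    simpa using ((hasDerivAt_id (0:ℝ)).smul_const v).const_add X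
  have h3 := h1.comp_hasDerivAt_of_eq (0:ℝ) h2 (by simp)
  have h4 := ((H2.coord n).hasFDerivAt (x := T2 (X + (0:ℝ) • v) y)).comp_hasDerivAt (0:ℝ) h3
  have h5 : HasDerivAt (fun t : ℝ => chi 1 0 1 n X *
      (Complex.exp ((phase 1 0 1 n v * t : ℝ) * Complex.I) * y n))
      (chi 1 0 1 n X * (phase 1 0 1 n v * Complex.I * y n)) 0 := by
    have h6 : HasDerivAt (fun t : ℝ => (((phase 1 0 1 n v * t : ℝ)) : ℂ) * Complex.I)
        (phase 1 0 1 n v * Complex.I) 0 := by
      have h7 : HasDerivAt (fun t : ℝ => phase 1 0 1 n v * t) (phase 1 0 1 n v) 0 := by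
        simpa using (hasDerivAt_id (0:ℝ)).const_mul (phase 1 0 1 n v)
      exact h7.ofReal_comp.mul_const Complex.I
    have h8 := ((h6.cexp).mul_const (y n)).const_mul (chi 1 0 1 n X)
    simpa using h8
  have h9 : (fun t : ℝ => chi 1 0 1 n X *
      (Complex.exp ((phase 1 0 1 n v * t : ℝ) * Complex.I) * y n)) =
      fun t : ℝ => H2.coord n (T2 (X + t • v) y) := by
    funext t
    rw [H2.coord_apply, T2_apply, chi_add_right, mul_assoc]
    congr 2
    unfold chi phase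
    congr 2
    simp only [Prod.smul_fst, Prod.smul_snd, smul_eq_mul]
    push_cast
    ring
  rw [h9] at h5
  exact h4.unique h5

theorem smooth_fderivH {y : H2} (hy : ContDiff ℝ ∞ (fun X => T2 X y)) (v : ℝ × ℝ) :
    ContDiff ℝ ∞ (fun X => T2 X (fderiv ℝ (fun X => T2 X y) 0 v)) := by
  have : (fun X => T2 X (fderiv ℝ (fun X => T2 X y) 0 v)) =
      fun X => fderiv ℝ (fun X => T2 X y) X v := by
    funext X
    refine H2.ext fun n => ?_
    rw [T2_apply, fderivH_apply hy, fderivH_apply hy, chi_zero_right, one_mul]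
  rw [this]
  exact (hy.fderiv_right (m := ∞) le_rfl).clm_apply contDiff_const

theorem decay2 (k : ℕ) : ∀ {y : H2}, ContDiff ℝ ∞ (fun X => T2 X y) →
    ∃ C, ∀ n : ℤ × ℤ, ((1 + |x1 n|) * (1 + |x2 n|)) ^ k * ‖y n‖ ≤ C := by
  induction k with
  | zero =>
    intro y _
    exact ⟨‖y‖, fun n => by rw [pow_zero, one_mul]; exact H2.apply_le y n⟩
  | succ k ih =>
    intro y hy
    have s1 := smooth_fderivH hy (1, 0)
    have s2 := smooth_fderivH hy (0, 1)
    have s3 := smooth_fderivH s2 (1, 0)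
    obtain ⟨C0, h0⟩ := ih hy
    obtain ⟨C1, h1⟩ := ih s1
    obtain ⟨C2, h2⟩ := ih s2
    obtain ⟨C3, h3⟩ := ih s3
    refine ⟨C0 + C1 + C2 + C3, fun n => ?_⟩
    have e1 : ‖(fderiv ℝ (fun X => T2 X y) 0 (1, 0)) n‖ = |x1 n| * ‖y n‖ := by
      rw [fderivH_apply hy, chi_zero_right, one_mul, norm_mul, norm_mul, Complex.norm_I, mul_one,
        Complex.norm_real, Real.norm_eq_abs]
      unfold phase
      simp
    have e2 : ‖(fderiv ℝ (fun X => T2 X y) 0 (0, 1)) n‖ = |x2 n| * ‖y n‖ := by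
      rw [fderivH_apply hy, chi_zero_right, one_mul, norm_mul, norm_mul, Complex.norm_I, mul_one,
        Complex.norm_real, Real.norm_eq_abs]
      unfold phase
      simp
    have e3 : ‖(fderiv ℝ (fun X => T2 X (fderiv ℝ (fun X => T2 X y) 0 (0, 1))) 0 (1, 0)) n‖ =
        |x1 n| * (|x2 n| * ‖y n‖) := by
      rw [fderivH_apply s2, chi_zero_right, one_mul, norm_mul, norm_mul, Complex.norm_I, mul_one,
        Complex.norm_real, Real.norm_eq_abs, e2]
      unfold phase
      simp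
    have k0 := h0 n
    have k1 := h1 n
    have k2 := h2 n
    have k3 := h3 n
    rw [e1] at k1
    rw [e2] at k2
    rw [e3] at k3
    have : ((1 + |x1 n|) * (1 + |x2 n|)) ^ (k + 1) * ‖y n‖ =
        ((1 + |x1 n|) * (1 + |x2 n|)) ^ k * ‖y n‖ +
        ((1 + |x1 n|) * (1 + |x2 n|)) ^ k * (|x1 n| * ‖y n‖) +
        ((1 + |x1 n|) * (1 + |x2 n|)) ^ k * (|x2 n| * ‖y n‖) +
        ((1 + |x1 n|) * (1 + |x2 n|)) ^ k * (|x1 n| * (|x2 n| * ‖y n‖)) := by
      rw [pow_succ]; ring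
    rw [this]
    linarith

theorem x1_eq (n : ℤ × ℤ) : x1 n = 2 * Real.pi * n.1 := by unfold x1 xi1; ring
theorem x2_eq (n : ℤ × ℤ) : x2 n = 2 * Real.pi * n.2 := by unfold x2 xi2; simp

theorem summable2 (k : ℕ) {y : H2} (hy : ContDiff ℝ ∞ (fun X => T2 X y)) :
    Summable (fun n : ℤ × ℤ => ((1 + |x1 n|) * (1 + |x2 n|)) ^ k * ‖y n‖) := by
  obtain ⟨C, hC⟩ := decay2 (k + 2) hy
  have h1 : Summable (fun n : ℤ × ℤ => C * (1 / (1 + |2 * Real.pi * (n.1:ℝ)|) ^ 2 *
      (1 / (1 + |2 * Real.pi * (n.2:ℝ)|) ^ 2))) :=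
    (summable_wt.mul_of_nonneg summable_wt (fun _ => by positivity) fun _ => by positivity).mul_left C
  refine Summable.of_nonneg_of_le (fun m => by positivity) (fun n => ?_) h1
  have h2 := hC n
  rw [← x1_eq, ← x2_eq]
  have hx : 0 < 1 + |x1 n| := by positivity
  have hy : 0 < 1 + |x2 n| := by positivity
  have h3 : C * (1 / (1 + |x1 n|) ^ 2 * (1 / (1 + |x2 n|) ^ 2)) =
      C / ((1 + |x1 n|) * (1 + |x2 n|)) ^ 2 := by
    field_simp
  rw [h3, le_div_iff₀ (by positivity)]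
  refine le_trans (le_of_eq ?_) h2
  ring

/-- the unit vector at the origin -/
noncomputable def dlt : H2 := H2.mk (fun n => if n = 0 then 1 else 0) (by
  refine summable_of_ne_finset_zero (s := {0}) fun n hn => ?_
  simp only [Finset.mem_singleton] at hn
  simp [hn])

theorem dlt_apply (n : ℤ × ℤ) : dlt n = if n = 0 then 1 else 0 := rfl

theorem Mop_dlt (a : WA) (n : ℤ × ℤ) : Mop a dlt n = a n := by
  rw [Mop_apply, tsum_eq_single n]
  · rw [sub_self, dlt_apply, if_pos rfl, mul_one]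
  · intro m hm
    rw [dlt_apply, if_neg (sub_ne_zero.2 (Ne.symm hm)), mul_zero]

theorem T2_dlt (X : ℝ × ℝ) : T2 X dlt = dlt := H2.ext fun n => by
  rw [T2_apply, dlt_apply]
  split_ifs with h
  · rw [h, chi_zero_left, one_mul]
  · simp

theorem Mop_eq_conv {a w : WA} {f : H2} (h : ∀ n, f n = w n) (n : ℤ × ℤ) :
    Mop a f n = WA.conv a w n := by
  rw [Mop_apply, WA.conv_apply]
  congr 1; funext m
  rw [h]

/-- Solvability and regularity for `div (A ∇u + B) = 0` on the standard torus. -/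
theorem exists_elliptic {a b c B1 B2 : WA} (ha : ContDiff ℝ ∞ (fun X => tau 1 0 1 X a))
    (hb : ContDiff ℝ ∞ (fun X => tau 1 0 1 X b)) (hc : ContDiff ℝ ∞ (fun X => tau 1 0 1 X c))
    (hB1 : ContDiff ℝ ∞ (fun X => tau 1 0 1 X B1)) (hB2 : ContDiff ℝ ∞ (fun X => tau 1 0 1 X B2))
    {κ : ℝ} (hκ : 0 < κ) (hco : ∀ y : H2, κ * ‖y‖ ^ 2 ≤ inner ℝ (Lop a b c y) y) :
    ∃ (uh : WA) (hR : Rapid 1 0 1 uh), ∀ n : ℤ × ℤ,
      Complex.I * x1 n * (WA.conv a hR.d1 + WA.conv b hR.d2 + B1) n +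
      Complex.I * x2 n * (WA.conv b hR.d1 + WA.conv c hR.d2 + B2) n = 0 := by
  obtain ⟨e, he⟩ := exists_equiv hκ hco
  set f : H2 := R1 (Mop B1 dlt) + R2 (Mop B2 dlt) with hf
  set y : H2 := e.symm f with hy
  have hLy : Lop a b c y = f := by rw [← he, hy, ContinuousLinearEquiv.apply_symm_apply]
  -- smoothness of the orbit
  have hfX : ContDiff ℝ ∞ (fun X => T2 X f) := by
    have : (fun X => T2 X f) = fun X => R1 (Mop (tau 1 0 1 X B1) dlt) +
        R2 (Mop (tau 1 0 1 X B2) dlt) := by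
      funext X
      rw [hf, map_add, T2_R1, T2_R2, T2_Mop, T2_Mop, T2_dlt]
    rw [this]
    exact (R1.contDiff.comp ((Mop.contDiff.comp hB1).clm_apply contDiff_const)).add
      (R2.contDiff.comp ((Mop.contDiff.comp hB2).clm_apply contDiff_const))
  have hLX : ContDiff ℝ ∞ (fun X => Lop (tau 1 0 1 X a) (tau 1 0 1 X b) (tau 1 0 1 X c)) := by
    unfold Lop
    have ma := Mop.contDiff.comp ha
    have mb := Mop.contDiff.comp hb
    have mc := Mop.contDiff.comp hc
    exact contDiff_const.sub ((((contDiff_const.clm_comp (ma.clm_comp contDiff_const)).add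
      (contDiff_const.clm_comp (mb.clm_comp contDiff_const))).add
      (contDiff_const.clm_comp (mb.clm_comp contDiff_const))).add
      (contDiff_const.clm_comp (mc.clm_comp contDiff_const)))
  let eX : ℝ × ℝ → (H2 ≃L[ℝ] H2) := fun X => (T2e X).symm.trans (e.trans (T2e X))
  have heX : ∀ X, (eX X : H2 →L[ℝ] H2) = Lop (tau 1 0 1 X a) (tau 1 0 1 X b) (tau 1 0 1 X c) := by
    intro X
    refine ContinuousLinearMap.ext fun z => ?_
    change T2 X (e (T2 (-X) z)) = _
    rw [he, T2_Lop, ← T2_add, add_neg_cancel, T2_zero]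
  have hyX : ∀ X, T2 X y = ContinuousLinearMap.inverse
      (Lop (tau 1 0 1 X a) (tau 1 0 1 X b) (tau 1 0 1 X c)) (T2 X f) := by
    intro X
    rw [← heX, ContinuousLinearMap.inverse_equiv]
    change _ = (eX X).symm (T2 X f)
    rw [ContinuousLinearEquiv.eq_symm_apply]
    change (eX X : H2 →L[ℝ] H2) (T2 X y) = _
    rw [heX, ← T2_Lop, hLy]
  have hyS : ContDiff ℝ ∞ (fun X => T2 X y) := by
    have : (fun X => T2 X y) = fun X => ContinuousLinearMap.inverse
      (Lop (tau 1 0 1 X a) (tau 1 0 1 X b) (tau 1 0 1 X c)) (T2 X f) := funext hyX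
    rw [this, contDiff_iff_contDiffAt]
    intro X0
    have h1 : ContDiffAt ℝ ∞ ContinuousLinearMap.inverse
        (Lop (tau 1 0 1 X0 a) (tau 1 0 1 X0 b) (tau 1 0 1 X0 c)) := by
      rw [← heX]; exact contDiffAt_map_inverse (eX X0)
    exact (h1.comp X0 hLX.contDiffAt).clm_apply hfX.contDiffAt
  -- the solution
  obtain ⟨C, hC⟩ := rr_le
  have hC0 : 0 ≤ C := (rr_nonneg 0).trans (hC 0)
  have hle : ∀ n : ℤ × ℤ, 1 + |x1 n| + |x2 n| ≤ (1 + |x1 n|) * (1 + |x2 n|) := by
    intro n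
    nlinarith [mul_nonneg (abs_nonneg (x1 n)) (abs_nonneg (x2 n))]
  have hsum : ∀ k : ℕ, Summable (fun n : ℤ × ℤ =>
      (1 + |x1 n| + |x2 n|) ^ k * ‖(rr n : ℂ) * y n‖) := by
    intro k
    refine Summable.of_nonneg_of_le (fun n => by positivity) (fun n => ?_)
      ((summable2 k hyS).mul_left C)
    rw [norm_mul, Complex.norm_real, Real.norm_eq_abs, abs_of_nonneg (rr_nonneg n)]
    calc (1 + |x1 n| + |x2 n|) ^ k * (rr n * ‖y n‖)
        ≤ ((1 + |x1 n|) * (1 + |x2 n|)) ^ k * (C * ‖y n‖) := by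
          gcongr
          · exact mul_nonneg (rr_nonneg n) (norm_nonneg _)
          · exact hle n
          · exact hC n
      _ = _ := by ring
  have hs0 : Summable (fun n : ℤ × ℤ => ‖(rr n : ℂ) * y n‖) := by simpa using hsum 0
  let uh : WA := WA.mk (fun n => (rr n : ℂ) * y n) hs0
  have hR : Rapid 1 0 1 uh := fun k => hsum k
  refine ⟨uh, hR, fun n => ?_⟩
  have w1 : ∀ n, R1 y n = hR.d1 n := fun n => by
    rw [R1_apply, hR.d1_apply, WA.mk_apply]; ring
  have w2 : ∀ n, R2 y n = hR.d2 n := fun n => by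
    rw [R2_apply, hR.d2_apply, WA.mk_apply]; ring
  have hn : Lop a b c y n = f n := by rw [hLy]
  rw [Lop_apply, hf, H2.sub_apply, H2.add_apply, H2.add_apply, H2.add_apply, H2.add_apply,
    R1_apply, R1_apply, R2_apply, R2_apply, R1_apply, R2_apply, Pi0_apply, Mop_eq_conv w1,
    Mop_eq_conv w2, Mop_eq_conv w1, Mop_eq_conv w2, Mop_dlt, Mop_dlt] at hn
  by_cases h0 : n = 0
  · rw [h0]
    have e1 : x1 0 = 0 := xi1_zero 1
    have e2 : x2 0 = 0 := xi2_zero 1 0 1
    rw [e1, e2]; simp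
  · rw [if_neg h0, zero_mul] at hn
    have hr : (rr n : ℂ) ≠ 0 := by
      have := rr_sq h0
      intro h
      have h' : rr n = 0 := by exact_mod_cast h
      rw [h'] at this
      simp at this
    have h5 : (rr n : ℂ) * (Complex.I * x1 n * (WA.conv a hR.d1 + WA.conv b hR.d2 + B1) n +
      Complex.I * x2 n * (WA.conv b hR.d1 + WA.conv c hR.d2 + B2) n) = 0 := by
      simp only [WA.add_apply]
      linear_combination -hn
    exact (mul_eq_zero.1 h5).resolve_left hr

end Vale.Agent.P205
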