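import Vale.Agent.H16.Torus.FamilyEx

set_option autoImplicit false

open MeasureTheory Set Filter Topology
open scoped ContDiff ENNReal

namespace Vale.Agent.P205

/-- expansion of the flatness expression -/
theorem flatExpr_eq {ζ p1 p2 : ℝ × ℝ → ℝ} (hζ : ContDiff ℝ ∞ ζ) (hp1 : ContDiff ℝ ∞ p1)
    (hp2 : ContDiff ℝ ∞ p2) (ε : ℝ) (p : ℝ × ℝ) :
    flatExpr ε ζ p1 p2 p =
      (1 - ε ^ 2 * ((ζ p * p1 p + dX ζ p) ^ 2 + (ζ p * p2 p + dY ζ p) ^ 2)) *
      (ζ p * (dX (dX ζ) p + dY (dY ζ) p) - (dX ζ p ^ 2 + dY ζ p ^ 2)) -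
    ε ^ 2 * (ζ p ^ 2 * ((dX ζ p * p1 p + ζ p * dX p1 p + dX (dX ζ) p) *
        (dY ζ p * p2 p + ζ p * dY p2 p + dY (dY ζ) p) -
        (dY ζ p * p1 p + ζ p * dY p1 p + dY (dX ζ) p) *
          (dX ζ p * p2 p + ζ p * dX p2 p + dX (dY ζ) p)) -
      ζ p * (((ζ p * p1 p + dX ζ p) * (dX ζ p * p1 p + ζ p * dX p1 p + dX (dX ζ) p) +
          (ζ p * p2 p + dY ζ p) * (dX ζ p * p2 p + ζ p * dX p2 p + dX (dY ζ) p)) * dX ζ p +
        ((ζ p * p1 p + dX ζ p) * (dY ζ p * p1 p + ζ p * dY p1 p + dY (dX ζ) p) +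
          (ζ p * p2 p + dY ζ p) * (dY ζ p * p2 p + ζ p * dY p2 p + dY (dY ζ) p)) * dY ζ p)) := by
  have s1 : ContDiff ℝ ∞ (th1 ζ p1) := (hζ.mul hp1).add (smooth_dX hζ)
  have s2 : ContDiff ℝ ∞ (th2 ζ p2) := (hζ.mul hp2).add (smooth_dY hζ)
  have e1 : dX (th1 ζ p1) p = dX ζ p * p1 p + ζ p * dX p1 p + dX (dX ζ) p :=
    dX_eq s1 (((hasDX hζ p).mul (hasDX hp1 p)).add (hasDX (smooth_dX hζ) p))
  have e2 : dY (th1 ζ p1) p = dY ζ p * p1 p + ζ p * dY p1 p + dY (dX ζ) p :=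
    dY_eq s1 (((hasDY hζ p).mul (hasDY hp1 p)).add (hasDY (smooth_dX hζ) p))
  have e3 : dX (th2 ζ p2) p = dX ζ p * p2 p + ζ p * dX p2 p + dX (dY ζ) p :=
    dX_eq s2 (((hasDX hζ p).mul (hasDX hp2 p)).add (hasDX (smooth_dY hζ) p))
  have e4 : dY (th2 ζ p2) p = dY ζ p * p2 p + ζ p * dY p2 p + dY (dY ζ) p :=
    dY_eq s2 (((hasDY hζ p).mul (hasDY hp2 p)).add (hasDY (smooth_dY hζ) p))
  unfold flatExpr tsq
  rw [e1, e2, e3, e4]
  unfold th1 th2
  rfl

theorem smooth_ze {l u w : ℝ} (M : Mults l u w) {y : WA}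
    (hy : ContDiff ℝ ∞ (fun X => tau l u w X y)) :
    ContDiff ℝ ∞ (fun X => tau l u w X (M.ze y)) := by
  have : (fun X => tau l u w X (M.ze y)) = fun X => WA.one + M.K0 (tau l u w X y) := by
    funext X
    unfold Mults.ze
    rw [map_add, tau_one, (sym_tau M X).s0]
  rw [this]
  exact contDiff_const.add (M.K0.contDiff.comp hy)

theorem exists_family (l u w : ℝ) (v : ℝ × ℝ → ℝ) (hl : 0 < l) (hw : 0 < w)
    (hv : ContDiff ℝ ∞ v) (hp : LatPer l u w v) :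
    ∃ ε0, 0 < ε0 ∧ Nonempty (Family l u w v ε0) := by
  obtain ⟨a, ha, hainv, hav⟩ := exists_rapid hl hw hv hp
  obtain ⟨M⟩ := exists_mults (u := u) hl hw
  -- data
  let P0 : DD := (ha.d1, ha.d2, ha.rapid1.d1, ha.rapid1.d2, ha.rapid2.d2)
  have hPs : ContDiff ℝ ∞ (fun X => Mults.actD (tau l u w X) P0) := by
    unfold Mults.actD
    exact ha.rapid1.contDiff.prodMk (ha.rapid2.contDiff.prodMk (ha.rapid1.rapid1.contDiff.prodMk
      (ha.rapid1.rapid2.contDiff.prodMk ha.rapid2.rapid2.contDiff)))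
  have hPinv : Mults.actD WA.inv P0 = P0 := by
    unfold Mults.actD
    simp only [P0]
    rw [ha.inv1 hainv, ha.inv2 hainv, ha.rapid1.inv1 (ha.inv1 hainv),
      ha.rapid1.inv2 (ha.inv1 hainv), ha.rapid2.inv2 (ha.inv2 hainv)]
  obtain ⟨ε0, δ, y, hε0, hδ, hyc, hy0, hy⟩ := exists_branch M.NN M.contDiff_NN P0 (M.NN_zero P0)
    (M.hasFDerivAt_NN P0)
  have hyinv : ∀ ε ∈ Icc 0 ε0, WA.inv (y ε) = y ε := by
    intro ε hε
    obtain ⟨h1, h2, h3, -⟩ := hy ε hε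
    refine h3 _ ((WA.norm_inv_le _).trans_lt h1) ?_
    have := Mults.NN_sym M (sym_inv M) ε P0 (y ε)
    rw [hPinv, ← h2] at this
    exact this.symm
  have hys : ∀ ε ∈ Icc 0 ε0, ContDiff ℝ ∞ (fun X => tau l u w X (y ε)) := by
    intro ε hε
    obtain ⟨-, h2, -, Y, hY, hloc⟩ := hy ε hε
    exact smooth_orbit M hPs h2 hY hloc
  have hK : ∀ (K : WA →L[ℝ] WA) (hK : ∀ X b, tau l u w X (K b) = K (tau l u w X b)),
      ∀ ε ∈ Icc 0 ε0, ContDiff ℝ ∞ (fun X => tau l u w X (K (y ε))) := by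
    intro K hK ε hε
    simp only [hK]
    exact K.contDiff.comp (hys ε hε)
  have hs1 := hK M.K1 fun X => (sym_tau M X).s1
  have hs2 := hK M.K2 fun X => (sym_tau M X).s2
  have dx : ∀ ε ∈ Icc 0 ε0, dX (rv l u w (M.ze (y ε))) = rv l u w (M.K1 (y ε)) := fun ε hε =>
    dX_rv (smooth_ze M (hys ε hε)) (M.r1 _)
  have dy : ∀ ε ∈ Icc 0 ε0, dY (rv l u w (M.ze (y ε))) = rv l u w (M.K2 (y ε)) := fun ε hε =>
    dY_rv (smooth_ze M (hys ε hε)) (M.r2 _)
  have dxx : ∀ ε ∈ Icc 0 ε0, dX (dX (rv l u w (M.ze (y ε)))) = rv l u w (M.K11 (y ε)) := fun ε hε => by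
    rw [dx ε hε]; exact dX_rv (hs1 ε hε) (M.r11 _)
  have dxy : ∀ ε ∈ Icc 0 ε0, dY (dX (rv l u w (M.ze (y ε)))) = rv l u w (M.K12 (y ε)) := fun ε hε => by
    rw [dx ε hε]; exact dY_rv (hs1 ε hε) (M.r12 _)
  have dyy : ∀ ε ∈ Icc 0 ε0, dY (dY (rv l u w (M.ze (y ε)))) = rv l u w (M.K22 (y ε)) := fun ε hε => by
    rw [dy ε hε]; exact dY_rv (hs2 ε hε) (M.r22 _)
  -- data functions
  have hv0 : v = rv l u w a := by
    funext X
    unfold rv evX
    rw [hav, Complex.ofReal_re]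
  have hv1 : dX v = rv l u w ha.d1 := by rw [hv0]; exact dX_rv ha.contDiff ha.d1_apply
  have hv2 : dY v = rv l u w ha.d2 := by rw [hv0]; exact dY_rv ha.contDiff ha.d2_apply
  have hv11 : dX (dX v) = rv l u w ha.rapid1.d1 := by
    rw [hv1]; exact dX_rv ha.rapid1.contDiff ha.rapid1.d1_apply
  have hv12 : dY (dX v) = rv l u w ha.rapid1.d2 := by
    rw [hv1]; exact dY_rv ha.rapid1.contDiff ha.rapid1.d2_apply
  have hv21 : dX (dY v) = rv l u w ha.rapid1.d2 := by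
    rw [← hv12]; funext X; exact dX_dY_comm hv X
  have hv22 : dY (dY v) = rv l u w ha.rapid2.d2 := by
    rw [hv2]; exact dY_rv ha.rapid2.contDiff ha.rapid2.d2_apply
  refine ⟨ε0, hε0, ⟨{
    Z := fun ε => rv l u w (M.ze (y ε))
    Z1 := fun ε => rv l u w (M.K1 (y ε))
    Z2 := fun ε => rv l u w (M.K2 (y ε))
    Z11 := fun ε => rv l u w (M.K11 (y ε))
    Z12 := fun ε => rv l u w (M.K12 (y ε))
    Z22 := fun ε => rv l u w (M.K22 (y ε))
    cZ := continuous_rv_joint (continuous_const.add (M.K0.continuous.comp hyc))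
    cZ1 := continuous_rv_joint (M.K1.continuous.comp hyc)
    cZ2 := continuous_rv_joint (M.K2.continuous.comp hyc)
    cZ11 := continuous_rv_joint (M.K11.continuous.comp hyc)
    cZ12 := continuous_rv_joint (M.K12.continuous.comp hyc)
    cZ22 := continuous_rv_joint (M.K22.continuous.comp hyc)
    zero := fun p => by
      unfold rv Mults.ze
      rw [hy0, map_zero, add_zero, evX_one, Complex.one_re]
    smooth := fun ε hε => smooth_rv (smooth_ze M (hys ε hε))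
    per := fun ε _ => latPer_rv hl hw _
    dx := fun ε hε p => congrFun (dx ε hε) p
    dy := fun ε hε p => congrFun (dy ε hε) p
    dxx := fun ε hε p => congrFun (dxx ε hε) p
    dxy := fun ε hε p => congrFun (dxy ε hε) p
    dyy := fun ε hε p => congrFun (dyy ε hε) p
    pde := ?_ }⟩⟩
  intro ε hε
  obtain ⟨-, hNN, -, -⟩ := hy ε hε
  set Y := y ε with hYdef
  have hYinv := hyinv ε hε
  have hY0 : Y 0 = 0 := by
    rw [hNN]
    unfold Mults.NN
    rw [M.aP]; simp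
  set NT : WA := M.N1 Y + ε ^ 2 • M.N2 P0 Y with hNT
  have hNN' : Y = M.Pr NT := hNN
  refine ⟨(-(NT 0)).re, fun X => ?_⟩
  have hlap := M.lap hl hw hY0
  -- reality of all ingredients
  have hS := sym_inv M
  have R : ∀ b : WA, WA.inv b = b → evX l u w X b = ((rv l u w b X : ℝ) : ℂ) := fun b hb =>
    evX_real l u w X hb
  have Rz : evX l u w X (M.ze Y) = ((rv l u w (M.ze Y) X : ℝ) : ℂ) := R _ (by
    unfold Mults.ze; rw [map_add, hS.sone, hS.s0, hYinv])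
  have R1 := R (M.K1 Y) (by rw [hS.s1, hYinv])
  have R2 := R (M.K2 Y) (by rw [hS.s2, hYinv])
  have R11 := R (M.K11 Y) (by rw [hS.s11, hYinv])
  have R12 := R (M.K12 Y) (by rw [hS.s12, hYinv])
  have R22 := R (M.K22 Y) (by rw [hS.s22, hYinv])
  have Q1 := R ha.d1 (ha.inv1 hainv)
  have Q2 := R ha.d2 (ha.inv2 hainv)
  have Q11 := R ha.rapid1.d1 (ha.rapid1.inv1 (ha.inv1 hainv))
  have Q12 := R ha.rapid1.d2 (ha.rapid1.inv2 (ha.inv1 hainv))
  have Q22 := R ha.rapid2.d2 (ha.rapid2.inv2 (ha.inv2 hainv))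
  have hzK : evX l u w X (M.K0 Y) = ((rv l u w (M.ze Y) X : ℝ) : ℂ) - 1 := by
    rw [← Rz]
    unfold Mults.ze
    rw [evX_add, evX_one]; ring
  have key1 : evX l u w X Y = evX l u w X NT - NT 0 := by
    conv_lhs => rw [hNN']
    exact M.evX_Pr NT X
  have key2 : evX l u w X Y = ((rv l u w (M.K11 Y) X : ℝ) : ℂ) + ((rv l u w (M.K22 Y) X : ℝ) : ℂ) := by
    conv_lhs => rw [← hlap]
    rw [evX_add, R11, R22]
  have key3 : evX l u w X NT = evX l u w X (M.N1 Y + ε ^ 2 • M.N2 P0 Y) := by rw [hNT]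
  unfold Mults.N1 Mults.N2 Mults.aa Mults.bb Mults.aax Mults.aay Mults.bbx Mults.bby at key3
  simp only [evX_add, evX_sub, evX_smul, evX_conv, P0] at key3
  rw [hzK, Rz, R1, R2, R11, R12, R22, Q1, Q2, Q11, Q12, Q22] at key3
  rw [flatExpr_eq (smooth_rv (smooth_ze M (hys ε hε))) (smooth_dX hv) (smooth_dY hv)]
  have c12 : dX (dY (rv l u w (M.ze Y))) X = rv l u w (M.K12 Y) X := by
    rw [dX_dY_comm (smooth_rv (smooth_ze M (hys ε hε)))]
    exact congrFun (dxy ε hε) X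
  have c1 := congrFun (dx ε hε) X
  have c2 := congrFun (dy ε hε) X
  have c11 := congrFun (dxx ε hε) X
  have c21 := congrFun (dxy ε hε) X
  have c22 := congrFun (dyy ε hε) X
  rw [← hYdef] at c1 c2 c11 c21 c22
  rw [c11, c22, c21, c12, c1, c2, hv11, hv12, hv21, hv22, hv1, hv2]
  generalize rv l u w (M.ze Y) X = z at *
  generalize rv l u w (M.K1 Y) X = z1 at *
  generalize rv l u w (M.K2 Y) X = z2 at *
  generalize rv l u w (M.K11 Y) X = z11 at *
  generalize rv l u w (M.K12 Y) X = z12 at *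
  generalize rv l u w (M.K22 Y) X = z22 at *
  generalize rv l u w ha.d1 X = b1 at *
  generalize rv l u w ha.d2 X = b2 at *
  generalize rv l u w ha.rapid1.d1 X = b11 at *
  generalize rv l u w ha.rapid1.d2 X = b12 at *
  generalize rv l u w ha.rapid2.d2 X = b22 at *
  rw [key2, key3] at key1
  rw [← Complex.ofReal_re ((1 - ε ^ 2 * ((z * b1 + z1) ^ 2 + (z * b2 + z2) ^ 2)) *
        (z * (z11 + z22) - (z1 ^ 2 + z2 ^ 2)) -
      ε ^ 2 *
        (z ^ 2 * ((z1 * b1 + z * b11 + z11) * (z2 * b2 + z * b22 + z22) -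
            (z2 * b1 + z * b12 + z12) * (z1 * b2 + z * b12 + z12)) -
          z * (((z * b1 + z1) * (z1 * b1 + z * b11 + z11) +
              (z * b2 + z2) * (z1 * b2 + z * b12 + z12)) * z1 +
            ((z * b1 + z1) * (z2 * b1 + z * b12 + z12) +
              (z * b2 + z2) * (z2 * b2 + z * b22 + z22)) * z2)))]
  congr 1
  push_cast at key1 ⊢
  linear_combination key1

end Vale.Agent.P205
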