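import Vale.Agent.H16.Torus.Geom2

set_option autoImplicit false

open Real MeasureTheory Set intervalIntegral
open scoped ContDiff

namespace Vale.Agent.P205

/-- fundamental domain -/
def fundDom (l u w : ℝ) : Set (ℝ × ℝ) :=
  (fun q : ℝ × ℝ => (l * q.1 + u * q.2, w * q.2)) '' (Icc 0 1 ×ˢ Icc 0 1)

theorem isCompact_fundDom (l u w : ℝ) : IsCompact (fundDom l u w) :=
  (isCompact_Icc.prod isCompact_Icc).image (by fun_prop)

theorem exists_mem_fundDom {l u w : ℝ} (hl : 0 < l) (hw : 0 < w) (p : ℝ × ℝ) :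
    ∃ q ∈ fundDom l u w, ∀ {X : Type} (f : ℝ × ℝ → X), (∀ p, f (p + (l, 0)) = f p) →
      (∀ p, f (p + (u, w)) = f p) → f p = f q := by
  set τ := p.2 / w with hτ
  set σ := (p.1 - u * τ) / l with hσ
  refine ⟨(l * Int.fract σ + u * Int.fract τ, w * Int.fract τ),
    ⟨(Int.fract σ, Int.fract τ), ⟨⟨Int.fract_nonneg _, (Int.fract_lt_one _).le⟩,
      ⟨Int.fract_nonneg _, (Int.fract_lt_one _).le⟩⟩, rfl⟩, ?_⟩
  intro X f h1 h2
  have hp1 : Function.Periodic f ((l, 0) : ℝ × ℝ) := h1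
  have hp2 : Function.Periodic f ((u, w) : ℝ × ℝ) := h2
  have e : (l * Int.fract σ + u * Int.fract τ, w * Int.fract τ) =
      p - ⌊σ⌋ • ((l, 0) : ℝ × ℝ) - ⌊τ⌋ • ((u, w) : ℝ × ℝ) := by
    have e1 : Int.fract σ = σ - ⌊σ⌋ := rfl
    have e2 : Int.fract τ = τ - ⌊τ⌋ := rfl
    rw [e1, e2]
    have e3 : w * τ = p.2 := by rw [hτ]; field_simp
    have e4 : l * σ = p.1 - u * τ := by rw [hσ]; field_simp
    ext
    · simp only [Prod.fst_sub, Prod.smul_mk, zsmul_eq_mul]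
      linear_combination e4
    · simp only [Prod.snd_sub, Prod.smul_mk, zsmul_eq_mul]
      linear_combination e3
  rw [e, hp2.sub_zsmul_eq, hp1.sub_zsmul_eq]

theorem exists_max {l u w : ℝ} (hl : 0 < l) (hw : 0 < w) (f : ℝ × ℝ → ℝ) (hf : Continuous f)
    (h1 : ∀ p, f (p + (l, 0)) = f p) (h2 : ∀ p, f (p + (u, w)) = f p) :
    ∃ p0, ∀ p, f p ≤ f p0 := by
  obtain ⟨p0, _, hp0⟩ := (isCompact_fundDom l u w).exists_isMaxOn
    ⟨_, ⟨(0, 0), ⟨⟨le_rfl, zero_le_one⟩, ⟨le_rfl, zero_le_one⟩⟩, rfl⟩⟩ hf.continuousOn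
  refine ⟨p0, fun p => ?_⟩
  obtain ⟨q, hq, hpq⟩ := exists_mem_fundDom (u := u) hl hw p
  rw [hpq f h1 h2]
  exact hp0 hq

/-- A developing map of a torus has no rotational holonomy. -/
theorem no_rotation (lam lam' : ℝ × ℝ)
    (hmax : ∀ F : ℝ × ℝ → ℝ, Continuous F → (∀ p, F (p + lam) = F p) → (∀ p, F (p + lam') = F p) →
      ∃ p0, ∀ p, F p ≤ F p0)
    (S T : ℝ × ℝ → ℝ) (hS : ContDiff ℝ ∞ S) (hT : ContDiff ℝ ∞ T)
    (hdet : ∀ p, 0 < dX S p * dY T p - dY S p * dX T p)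
    (c c' b1 b2 b1' b2' : ℝ)
    (e1 : ∀ p, S (p + lam) = cos c * S p - sin c * T p + b1)
    (e2 : ∀ p, T (p + lam) = sin c * S p + cos c * T p + b2)
    (e1' : ∀ p, S (p + lam') = cos c' * S p - sin c' * T p + b1')
    (e2' : ∀ p, T (p + lam') = sin c' * S p + cos c' * T p + b2') : cos c = 1 := by
  by_contra hc
  have hc' : 2 - 2 * cos c ≠ 0 := fun h => hc (by linarith)
  have hsc := sin_sq_add_cos_sq c
  have hsc' := sin_sq_add_cos_sq c'
  -- fixed point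
  obtain ⟨P1, P2, f1, f2⟩ : ∃ P1 P2 : ℝ, cos c * P1 - sin c * P2 + b1 = P1 ∧
      sin c * P1 + cos c * P2 + b2 = P2 := by
    refine ⟨((1 - cos c) * b1 - sin c * b2) / (2 - 2 * cos c),
      (sin c * b1 + (1 - cos c) * b2) / (2 - 2 * cos c), ?_, ?_⟩
    · field_simp
      linear_combination (-b1) * hsc
    · field_simp
      linear_combination (-b2) * hsc
  -- commutation
  have hcomm : ∀ p, p + lam + lam' = p + lam' + lam := fun p => by abel
  have k1 : cos c' * b1 - sin c' * b2 + b1' = cos c * b1' - sin c * b2' + b1 := by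
    have h1 := e1' (0 + lam)
    have h2 := e1 (0 + lam')
    rw [e1 0, e2 0, hcomm] at h1
    rw [e1' 0, e2' 0] at h2
    rw [h1] at h2
    linear_combination h2
  have k2 : sin c' * b1 + cos c' * b2 + b2' = sin c * b1' + cos c * b2' + b2 := by
    have h1 := e2' (0 + lam)
    have h2 := e2 (0 + lam')
    rw [e1 0, e2 0, hcomm] at h1
    rw [e1' 0, e2' 0] at h2
    rw [h1] at h2
    linear_combination h2
  -- P is fixed by the second rotation too
  have g12 : cos c' * P1 - sin c' * P2 + b1' = P1 ∧ sin c' * P1 + cos c' * P2 + b2' = P2 := by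
    -- the defect (d1, d2) is fixed by the rotation by c, hence zero
    set d1 := cos c' * P1 - sin c' * P2 + b1' - P1 with hd1
    set d2 := sin c' * P1 + cos c' * P2 + b2' - P2 with hd2
    have q1 : cos c * d1 - sin c * d2 = d1 := by
      rw [hd1, hd2]
      linear_combination (-k1) + (cos c' - 1) * f1 - sin c' * f2
    have q2 : sin c * d1 + cos c * d2 = d2 := by
      rw [hd1, hd2]
      linear_combination (-k2) + (sin c') * f1 + (cos c' - 1) * f2
    have r1 : (2 - 2 * cos c) * d1 = 0 := by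
      linear_combination (-(1 - cos c)) * q1 + (sin c) * q2 + (-d1) * hsc
    have r2 : (2 - 2 * cos c) * d2 = 0 := by
      linear_combination (-(1 - cos c)) * q2 - (sin c) * q1 + (-d2) * hsc
    have z1 := (mul_eq_zero.1 r1).resolve_left hc'
    have z2 := (mul_eq_zero.1 r2).resolve_left hc'
    constructor
    · linarith
    · linarith
  obtain ⟨g1, g2⟩ := g12
  let F : ℝ × ℝ → ℝ := fun p => (S p - P1) ^ 2 + (T p - P2) ^ 2
  have hF : ContDiff ℝ ∞ F := ((hS.sub contDiff_const).pow 2).add ((hT.sub contDiff_const).pow 2)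
  have hF1 : ∀ p, F (p + lam) = F p := fun p => by
    simp only [F, e1, e2]
    have a1 : cos c * S p - sin c * T p + b1 - P1 = cos c * (S p - P1) - sin c * (T p - P2) := by
      linear_combination f1
    have a2 : sin c * S p + cos c * T p + b2 - P2 = sin c * (S p - P1) + cos c * (T p - P2) := by
      linear_combination f2
    rw [a1, a2]
    linear_combination ((S p - P1) ^ 2 + (T p - P2) ^ 2) * hsc
  have hF2 : ∀ p, F (p + lam') = F p := fun p => by
    simp only [F, e1', e2']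
    have a1 : cos c' * S p - sin c' * T p + b1' - P1 =
        cos c' * (S p - P1) - sin c' * (T p - P2) := by linear_combination g1
    have a2 : sin c' * S p + cos c' * T p + b2' - P2 =
        sin c' * (S p - P1) + cos c' * (T p - P2) := by linear_combination g2
    rw [a1, a2]
    linear_combination ((S p - P1) ^ 2 + (T p - P2) ^ 2) * hsc'
  obtain ⟨p0, hp0⟩ := hmax F hF.continuous hF1 hF2
  have hloc : IsLocalMax F p0 := Filter.Eventually.of_forall hp0
  have hfd := hloc.fderiv_eq_zero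
  have dFx : ∀ p, dX F p = 2 * ((S p - P1) * dX S p + (T p - P2) * dX T p) := fun p => by
    have : dX F p = _ := dX_eq hF ((((hasDX hS p).sub_const P1).pow 2).add
      (((hasDX hT p).sub_const P2).pow 2))
    rw [this]; simp; ring
  have dFy : ∀ p, dY F p = 2 * ((S p - P1) * dY S p + (T p - P2) * dY T p) := fun p => by
    have : dY F p = _ := dY_eq hF ((((hasDY hS p).sub_const P1).pow 2).add
      (((hasDY hT p).sub_const P2).pow 2))
    rw [this]; simp; ring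
  have g3 : dX F p0 = 0 := by unfold dX; rw [hfd]; rfl
  have g4 : dY F p0 = 0 := by unfold dY; rw [hfd]; rfl
  rw [dFx] at g3
  rw [dFy] at g4
  have hd := hdet p0
  have s1 : S p0 - P1 = 0 := by
    have : (dX S p0 * dY T p0 - dY S p0 * dX T p0) * (S p0 - P1) = 0 := by
      linear_combination (dY T p0 / 2) * g3 - (dX T p0 / 2) * g4
    exact (mul_eq_zero.1 this).resolve_left hd.ne'
  have s2 : T p0 - P2 = 0 := by
    have : (dX S p0 * dY T p0 - dY S p0 * dX T p0) * (T p0 - P2) = 0 := by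
      linear_combination (-dY S p0 / 2) * g3 + (dX S p0 / 2) * g4
    exact (mul_eq_zero.1 this).resolve_left hd.ne'
  have hF0 : F p0 = 0 := by simp only [F, s1, s2]; ring
  have hSc : S = fun _ => P1 := by
    funext p
    have h1 := hp0 p
    rw [hF0] at h1
    have h2 : (S p - P1) ^ 2 ≤ 0 := by
      have : 0 ≤ (T p - P2) ^ 2 := sq_nonneg _
      simp only [F] at h1
      linarith
    have h3 : (S p - P1) ^ 2 = 0 := le_antisymm h2 (sq_nonneg _)
    have h4 := pow_eq_zero_iff (two_ne_zero) |>.1 h3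
    linarith
  have hx : dX S p0 = 0 := by unfold dX; rw [hSc]; simp
  have hy : dY S p0 = 0 := by unfold dY; rw [hSc]; simp
  rw [hx, hy] at hd
  simp at hd

/-- The developing map for the flat metric `ζ⁻² (I - ε² θ ⊗ θ)` on the torus. -/
theorem develop {l u w ε : ℝ} (hl : 0 < l) (hw : 0 < w) {ζ p1 p2 : ℝ × ℝ → ℝ}
    (H : GeomData ε ζ p1 p2) (hζ : LatPer l u w ζ) (h1 : LatPer l u w p1) (h2 : LatPer l u w p2)
    (m : ℝ) (hpde : ∀ p, flatExpr ε ζ p1 p2 p = m) :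
    ∃ ϑ S T : ℝ × ℝ → ℝ, ContDiff ℝ ∞ ϑ ∧ ContDiff ℝ ∞ S ∧ ContDiff ℝ ∞ T ∧
      ϑ 0 = 0 ∧ S 0 = 0 ∧ T 0 = 0 ∧
      (∀ p, dX ϑ p = om1 ε ζ p1 p2 p ∧ dY ϑ p = om2 ε ζ p1 p2 p) ∧
      (∀ p, dX S p = cos (ϑ p) * et11 ε ζ p1 p2 p - sin (ϑ p) * et12 ε ζ p1 p2 p ∧
        dY S p = cos (ϑ p) * et12 ε ζ p1 p2 p - sin (ϑ p) * et22 ε ζ p1 p2 p) ∧
      (∀ p, dX T p = sin (ϑ p) * et11 ε ζ p1 p2 p + cos (ϑ p) * et12 ε ζ p1 p2 p ∧
        dY T p = sin (ϑ p) * et12 ε ζ p1 p2 p + cos (ϑ p) * et22 ε ζ p1 p2 p) ∧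
      (∀ p, S (p + (l, 0)) = S p + S (l, 0)) ∧ (∀ p, S (p + (u, w)) = S p + S (u, w)) ∧
      (∀ p, T (p + (l, 0)) = T p + T (l, 0)) ∧ (∀ p, T (p + (u, w)) = T p + T (u, w)) := by
  have hm : m = 0 := by
    refine gauss_bonnet hl hw H.smooth_om1 H.smooth_om2 (per_om1 hζ h1 h2) (per_om2 hζ h1 h2)
      (fun p => 1 / (ss ε ζ p1 p2 p ^ 3 * ζ p ^ 2)) ?_ ?_ m ?_
    · exact continuous_const.div ((H.smooth_ss.continuous.pow 3).mul (H.hζ.continuous.pow 2))
        fun p => by have := H.ss_pos p; have := H.pos p; positivity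
    · intro p; have := H.ss_pos p; have := H.pos p; positivity
    · intro p
      rw [H.curvature, hpde]; ring
  have hflat : ∀ p, dX (om2 ε ζ p1 p2) p = dY (om1 ε ζ p1 p2) p := fun p => by
    have := H.curvature p
    rw [hpde, hm] at this
    simp at this
    linarith
  obtain ⟨ϑ, hϑ, hϑ0, hdϑ⟩ := exists_potential H.smooth_om1 H.smooth_om2 hflat
  have hc : ContDiff ℝ ∞ (fun p => cos (ϑ p)) := contDiff_cos.comp hϑ
  have hs : ContDiff ℝ ∞ (fun p => sin (ϑ p)) := contDiff_sin.comp hϑ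
  have hcx : ∀ p : ℝ × ℝ, HasDerivAt (fun t => cos (ϑ (t, p.2))) _ p.1 := fun p => (hasDX hϑ p).cos
  have hsx : ∀ p : ℝ × ℝ, HasDerivAt (fun t => sin (ϑ (t, p.2))) _ p.1 := fun p => (hasDX hϑ p).sin
  have hcy : ∀ p : ℝ × ℝ, HasDerivAt (fun t => cos (ϑ (p.1, t))) _ p.2 := fun p => (hasDY hϑ p).cos
  have hsy : ∀ p : ℝ × ℝ, HasDerivAt (fun t => sin (ϑ (p.1, t))) _ p.2 := fun p => (hasDY hϑ p).sin
  have sa1 : ContDiff ℝ ∞ (fun p => cos (ϑ p) * et11 ε ζ p1 p2 p - sin (ϑ p) * et12 ε ζ p1 p2 p) :=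
    (hc.mul H.smooth_et11).sub (hs.mul H.smooth_et12)
  have sa2 : ContDiff ℝ ∞ (fun p => cos (ϑ p) * et12 ε ζ p1 p2 p - sin (ϑ p) * et22 ε ζ p1 p2 p) :=
    (hc.mul H.smooth_et12).sub (hs.mul H.smooth_et22)
  have sb1 : ContDiff ℝ ∞ (fun p => sin (ϑ p) * et11 ε ζ p1 p2 p + cos (ϑ p) * et12 ε ζ p1 p2 p) :=
    (hs.mul H.smooth_et11).add (hc.mul H.smooth_et12)
  have sb2 : ContDiff ℝ ∞ (fun p => sin (ϑ p) * et12 ε ζ p1 p2 p + cos (ϑ p) * et22 ε ζ p1 p2 p) :=
    (hs.mul H.smooth_et12).add (hc.mul H.smooth_et22)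
  obtain ⟨S, hS, hS0, hdS⟩ := exists_potential sa1 sa2 (fun p => by
    have d1 : dX (fun p => cos (ϑ p) * et12 ε ζ p1 p2 p - sin (ϑ p) * et22 ε ζ p1 p2 p) p = _ :=
      dX_eq sa2 (((hcx p).mul (hasDX H.smooth_et12 p)).sub ((hsx p).mul (hasDX H.smooth_et22 p)))
    have d2 : dY (fun p => cos (ϑ p) * et11 ε ζ p1 p2 p - sin (ϑ p) * et12 ε ζ p1 p2 p) p = _ :=
      dY_eq sa1 (((hcy p).mul (hasDY H.smooth_et11 p)).sub ((hsy p).mul (hasDY H.smooth_et12 p)))
    rw [d1, d2, (hdϑ p).1, (hdϑ p).2]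
    have s1 := H.structure1 p
    have s2 := H.structure2 p
    simp only [Prod.mk.eta]
    linear_combination cos (ϑ p) * s1 - sin (ϑ p) * s2)
  obtain ⟨T, hT, hT0, hdT⟩ := exists_potential sb1 sb2 (fun p => by
    have d1 : dX (fun p => sin (ϑ p) * et12 ε ζ p1 p2 p + cos (ϑ p) * et22 ε ζ p1 p2 p) p = _ :=
      dX_eq sb2 (((hsx p).mul (hasDX H.smooth_et12 p)).add ((hcx p).mul (hasDX H.smooth_et22 p)))
    have d2 : dY (fun p => sin (ϑ p) * et11 ε ζ p1 p2 p + cos (ϑ p) * et12 ε ζ p1 p2 p) p = _ :=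
      dY_eq sb1 (((hsy p).mul (hasDY H.smooth_et11 p)).add ((hcy p).mul (hasDY H.smooth_et12 p)))
    rw [d1, d2, (hdϑ p).1, (hdϑ p).2]
    have s1 := H.structure1 p
    have s2 := H.structure2 p
    simp only [Prod.mk.eta]
    linear_combination sin (ϑ p) * s1 + cos (ϑ p) * s2)
  have hdet : ∀ p, 0 < dX S p * dY T p - dY S p * dX T p := fun p => by
    rw [(hdS p).1, (hdS p).2, (hdT p).1, (hdT p).2]
    have e : (cos (ϑ p) * et11 ε ζ p1 p2 p - sin (ϑ p) * et12 ε ζ p1 p2 p) *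
        (sin (ϑ p) * et12 ε ζ p1 p2 p + cos (ϑ p) * et22 ε ζ p1 p2 p) -
        (cos (ϑ p) * et12 ε ζ p1 p2 p - sin (ϑ p) * et22 ε ζ p1 p2 p) *
        (sin (ϑ p) * et11 ε ζ p1 p2 p + cos (ϑ p) * et12 ε ζ p1 p2 p) =
        et11 ε ζ p1 p2 p * et22 ε ζ p1 p2 p - et12 ε ζ p1 p2 p ^ 2 := by
      linear_combination (et11 ε ζ p1 p2 p * et22 ε ζ p1 p2 p - et12 ε ζ p1 p2 p ^ 2) *
        sin_sq_add_cos_sq (ϑ p)
    rw [e]
    have e2 : et11 ε ζ p1 p2 p * et22 ε ζ p1 p2 p - et12 ε ζ p1 p2 p ^ 2 =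
        (1 - mu ε ζ p1 p2 p * tsq ζ p1 p2 p) / ζ p ^ 2 := by
      unfold et11 et12 et22 tsq
      have := (H.pos p).ne'
      field_simp
      ring
    rw [e2, H.mu_tsq]
    have := H.ss_pos p
    have := H.pos p
    have e3 : 1 - (1 - ss ε ζ p1 p2 p) = ss ε ζ p1 p2 p := by ring
    rw [e3]
    positivity
  -- translations
  have trans : ∀ (f : ℝ × ℝ → ℝ) (c p : ℝ × ℝ), dX (fun q => f (q + c)) p = dX f (p + c) ∧
      dY (fun q => f (q + c)) p = dY f (p + c) := by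
    intro f c p
    unfold dX dY
    rw [fderiv_comp_add_right]
    exact ⟨rfl, rfl⟩
  have hadd : ∀ (f : ℝ × ℝ → ℝ) (c : ℝ × ℝ), ContDiff ℝ ∞ f → ContDiff ℝ ∞ (fun q => f (q + c)) :=
    fun f c hf => hf.comp (contDiff_id.add contDiff_const)
  have step : ∀ c : ℝ × ℝ, (∀ p, om1 ε ζ p1 p2 (p + c) = om1 ε ζ p1 p2 p) →
      (∀ p, om2 ε ζ p1 p2 (p + c) = om2 ε ζ p1 p2 p) →
      (∀ p, et11 ε ζ p1 p2 (p + c) = et11 ε ζ p1 p2 p) →
      (∀ p, et12 ε ζ p1 p2 (p + c) = et12 ε ζ p1 p2 p) →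
      (∀ p, et22 ε ζ p1 p2 (p + c) = et22 ε ζ p1 p2 p) →
      (∀ p, S (p + c) = cos (ϑ c) * S p - sin (ϑ c) * T p + S c) ∧
      (∀ p, T (p + c) = sin (ϑ c) * S p + cos (ϑ c) * T p + T c) := by
    intro c k1 k2 k3 k4 k5
    have hϑc : ∀ p, ϑ (p + c) = ϑ p + ϑ c := by
      intro p
      have := eq_add_const_of_partials (hadd ϑ c hϑ) hϑ
        (fun p => by rw [(trans ϑ c p).1, (hdϑ _).1, (hdϑ _).1, k1])
        (fun p => by rw [(trans ϑ c p).2, (hdϑ _).2, (hdϑ _).2, k2]) p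
      simp only [zero_add, hϑ0, sub_zero] at this
      exact this
    constructor
    · intro p
      have hR : ContDiff ℝ ∞ (fun q => cos (ϑ c) * S q - sin (ϑ c) * T q) :=
        (contDiff_const.mul hS).sub (contDiff_const.mul hT)
      have := eq_add_const_of_partials (hadd S c hS) hR
        (fun p => by
          have d1 : dX (fun q => cos (ϑ c) * S q - sin (ϑ c) * T q) p = _ :=
            dX_eq hR (((hasDX hS p).const_mul (cos (ϑ c))).sub ((hasDX hT p).const_mul (sin (ϑ c))))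
          rw [(trans S c p).1, d1, (hdS _).1, (hdS _).1, (hdT _).1, hϑc, k3, k4, cos_add, sin_add]
          ring)
        (fun p => by
          have d1 : dY (fun q => cos (ϑ c) * S q - sin (ϑ c) * T q) p = _ :=
            dY_eq hR (((hasDY hS p).const_mul (cos (ϑ c))).sub ((hasDY hT p).const_mul (sin (ϑ c))))
          rw [(trans S c p).2, d1, (hdS _).2, (hdS _).2, (hdT _).2, hϑc, k4, k5, cos_add, sin_add]
          ring) p
      simp only [zero_add, hS0, hT0, mul_zero, sub_zero] at this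
      exact this
    · intro p
      have hR : ContDiff ℝ ∞ (fun q => sin (ϑ c) * S q + cos (ϑ c) * T q) :=
        (contDiff_const.mul hS).add (contDiff_const.mul hT)
      have := eq_add_const_of_partials (hadd T c hT) hR
        (fun p => by
          have d1 : dX (fun q => sin (ϑ c) * S q + cos (ϑ c) * T q) p = _ :=
            dX_eq hR (((hasDX hS p).const_mul (sin (ϑ c))).add ((hasDX hT p).const_mul (cos (ϑ c))))
          rw [(trans T c p).1, d1, (hdT _).1, (hdS _).1, (hdT _).1, hϑc, k3, k4, cos_add, sin_add]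
          ring)
        (fun p => by
          have d1 : dY (fun q => sin (ϑ c) * S q + cos (ϑ c) * T q) p = _ :=
            dY_eq hR (((hasDY hS p).const_mul (sin (ϑ c))).add ((hasDY hT p).const_mul (cos (ϑ c))))
          rw [(trans T c p).2, d1, (hdT _).2, (hdS _).2, (hdT _).2, hϑc, k4, k5, cos_add, sin_add]
          ring) p
      simp only [zero_add, hS0, hT0, mul_zero, add_zero, sub_zero] at this
      exact this
  have o1 := per_om1 (ε := ε) hζ h1 h2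
  have o2 := per_om2 (ε := ε) hζ h1 h2
  have t1 := per_et11 (ε := ε) hζ h1 h2
  have t2 := per_et12 (ε := ε) hζ h1 h2
  have t3 := per_et22 (ε := ε) hζ h1 h2
  obtain ⟨u1, u2⟩ := step (l, 0) o1.1 o2.1 t1.1 t2.1 t3.1
  obtain ⟨v1, v2⟩ := step (u, w) o1.2 o2.2 t1.2 t2.2 t3.2
  have r1 : cos (ϑ (l, 0)) = 1 := no_rotation (l, 0) (u, w)
    (fun F hF a b => exists_max hl hw F hF a b) S T hS hT hdet _ _ _ _ _ _ u1 u2 v1 v2
  have r2 : cos (ϑ (u, w)) = 1 := no_rotation (u, w) (l, 0)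
    (fun F hF a b => exists_max hl hw F hF b a) S T hS hT hdet _ _ _ _ _ _ v1 v2 u1 u2
  have r3 : sin (ϑ (l, 0)) = 0 := by
    have := sin_sq_add_cos_sq (ϑ (l, 0))
    rw [r1] at this
    have h3 : sin (ϑ (l, 0)) ^ 2 = 0 := by linarith
    exact pow_eq_zero_iff (two_ne_zero) |>.1 h3
  have r4 : sin (ϑ (u, w)) = 0 := by
    have := sin_sq_add_cos_sq (ϑ (u, w))
    rw [r2] at this
    have h3 : sin (ϑ (u, w)) ^ 2 = 0 := by linarith
    exact pow_eq_zero_iff (two_ne_zero) |>.1 h3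
  refine ⟨ϑ, S, T, hϑ, hS, hT, hϑ0, hS0, hT0, hdϑ, hdS, hdT, ?_, ?_, ?_, ?_⟩
  · intro p; rw [u1, r1, r3]; ring
  · intro p; rw [v1, r2, r4]; ring
  · intro p; rw [u2, r1, r3]; ring
  · intro p; rw [v2, r2, r4]; ring

end Vale.Agent.P205
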