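import Vale.Agent.H16.Torus.Orbit
import Vale.Agent.H16.Torus.Geom3

set_option autoImplicit false

open MeasureTheory Set intervalIntegral
open scoped ContDiff ENNReal

namespace Vale.Agent.P205

/-- the exponential `e(x) = exp (2π i x)` -/
noncomputable def ee (x : ℝ) : ℂ := Complex.exp ((2 * Real.pi * x : ℝ) * Complex.I)

theorem norm_ee (x : ℝ) : ‖ee x‖ = 1 := Complex.norm_exp_ofReal_mul_I _
theorem ee_add (x y : ℝ) : ee (x + y) = ee x * ee y := by
  unfold ee; rw [← Complex.exp_add]; congr 1; push_cast; ring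
theorem ee_zero : ee 0 = 1 := by simp [ee]
theorem ee_int (n : ℤ) : ee n = 1 := by
  unfold ee
  have : (((2 * Real.pi * (n:ℝ) : ℝ)) : ℂ) * Complex.I = n * (2 * Real.pi * Complex.I) := by
    push_cast; ring
  rw [this, Complex.exp_int_mul_two_pi_mul_I]
theorem conj_ee (x : ℝ) : (starRingEnd ℂ) (ee x) = ee (-x) := by
  unfold ee
  rw [← Complex.exp_conj, map_mul, Complex.conj_I, Complex.conj_ofReal]; congr 1; push_cast; ring
theorem continuous_ee : Continuous ee := by unfold ee; fun_prop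
theorem hasDerivAt_ee (c s : ℝ) :
    HasDerivAt (fun s : ℝ => ee (c * s)) ((2 * Real.pi * c * Complex.I) * ee (c * s)) s := by
  unfold ee
  have h1 : HasDerivAt (fun s : ℝ => (((2 * Real.pi * (c * s) : ℝ)) : ℂ) * Complex.I)
      (2 * Real.pi * c * Complex.I) s := by
    have h2 : HasDerivAt (fun s : ℝ => 2 * Real.pi * (c * s)) (2 * Real.pi * c) s := by
      have := ((hasDerivAt_id s).const_mul c).const_mul (2 * Real.pi)
      simpa [mul_assoc] using this
    have h3 := h2.ofReal_comp.mul_const Complex.I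
    push_cast at h3 ⊢
    exact h3
  have h4 := h1.cexp
  rw [mul_comm (Complex.exp _)] at h4
  exact h4

/-- Fourier coefficients -/
noncomputable def fc (f : ℝ → ℂ) (m : ℤ) : ℂ := ∫ s in (0:ℝ)..1, f s * ee (-m * s)

theorem fc_deriv {f f' : ℝ → ℂ} (hf : ∀ s, HasDerivAt f (f' s) s) (hf' : Continuous f')
    (hper : f 1 = f 0) (m : ℤ) : fc f' m = 2 * Real.pi * m * Complex.I * fc f m := by
  have hfc : Continuous f := continuous_iff_continuousAt.2 fun s => (hf s).continuousAt
  have hd : ∀ s : ℝ, HasDerivAt (fun s => f s * ee (-m * s))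
      (f' s * ee (-m * s) + f s * ((2 * Real.pi * ((-m : ℝ)) * Complex.I) * ee (-m * s))) s := by
    intro s
    exact (hf s).mul (hasDerivAt_ee (-m) s)
  have hce : Continuous (fun s : ℝ => ee (-m * s)) := continuous_ee.comp (by fun_prop)
  have h := integral_eq_sub_of_hasDerivAt (a := 0) (b := 1) (fun s _ => hd s)
    (Continuous.intervalIntegrable (by fun_prop) 0 1)
  have e1 : ee (-m * 1) = 1 := by
    have := ee_int (-m)
    push_cast at this
    rw [mul_one]; exact this
  have e2 : ee (-m * 0) = 1 := by rw [mul_zero, ee_zero]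
  rw [e1, e2, hper, sub_self, integral_add (Continuous.intervalIntegrable (by fun_prop) 0 1)
    (Continuous.intervalIntegrable (by fun_prop) 0 1)] at h
  have h2 : ∫ s in (0:ℝ)..1, f s * ((2 * Real.pi * ((-m : ℝ)) * Complex.I) * ee (-m * s)) =
      (2 * Real.pi * ((-m : ℝ)) * Complex.I) * fc f m := by
    unfold fc
    rw [← intervalIntegral.integral_const_mul]
    congr 1
    funext s
    push_cast
    ring
  rw [h2] at h
  change fc f' m + _ = 0 at h
  push_cast at h
  linear_combination h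

theorem fc_inversion {f : ℝ → ℂ} (hf : Continuous f) (hper : ∀ s, f (s + 1) = f s)
    (hs : Summable (fun m => ‖fc f m‖)) (s : ℝ) : HasSum (fun m => fc f m * ee (m * s)) (f s) := by
  have : Fact ((0:ℝ) < 1) := ⟨one_pos⟩
  have hp : Function.Periodic f 1 := hper
  let F : C(AddCircle (1:ℝ), ℂ) := ⟨hp.lift, by
    exact continuous_quot_lift _ hf⟩
  have hF : ∀ x : ℝ, F (x : AddCircle (1:ℝ)) = f x := fun x => rfl
  have hfo : ∀ (m : ℤ) (x : ℝ), (fourier m (x : AddCircle (1:ℝ)) : ℂ) = ee (m * x) := by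
    intro m x
    rw [fourier_coe_apply]
    unfold ee
    congr 1
    push_cast
    ring
  have hco : ∀ m, fourierCoeff F m = fc f m := by
    intro m
    rw [fourierCoeff_eq_intervalIntegral F m 0]
    unfold fc
    simp only [div_one, one_smul, zero_add]
    congr 1
    funext x
    rw [hfo, hF, smul_eq_mul, mul_comm]
    push_cast
    rfl
  have hsum : Summable (fourierCoeff F) := by
    have : fourierCoeff F = fc f := funext hco
    rw [this]
    exact Summable.of_norm hs
  have := has_pointwise_sum_fourier_series_of_summable hsum (s : AddCircle (1:ℝ))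
  simp only [hco, hfo, hF, smul_eq_mul] at this
  exact this

/-! ### two variables -/

/-- double Fourier coefficient -/
noncomputable def A2 (V : ℝ × ℝ → ℝ) (n : ℤ × ℤ) : ℂ :=
  fc (fun t => fc (fun s => (V (s, t) : ℂ)) n.1) n.2

theorem continuous_fc_param {V : ℝ × ℝ → ℝ} (hV : Continuous V) (m : ℤ) :
    Continuous (fun t : ℝ => fc (fun s => (V (s, t) : ℂ)) m) := by
  unfold fc
  refine continuous_parametric_intervalIntegral_of_continuous'
    (f := fun (t s : ℝ) => (V (s, t) : ℂ) * ee (-m * s)) ?_ 0 1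
  have := continuous_ee
  unfold Function.uncurry
  fun_prop

theorem A2_swap {V : ℝ × ℝ → ℝ} (hV : Continuous V) (n : ℤ × ℤ) :
    A2 V n = fc (fun s => fc (fun t => (V (s, t) : ℂ)) n.2) n.1 := by
  unfold A2 fc
  simp only [← intervalIntegral.integral_mul_const]
  rw [intervalIntegral_intervalIntegral_swap]
  · congr 1
    funext s
    congr 1
    funext t
    ring
  · have hce := continuous_ee
    have hc : Continuous (Function.uncurry fun (x y : ℝ) =>
        (V (y, x) : ℂ) * ee (-n.1 * y) * ee (-n.2 * x)) := by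
      unfold Function.uncurry
      fun_prop
    exact (hc.continuousOn.integrableOn_compact (K := uIcc 0 1 ×ˢ uIcc 0 1)
      (isCompact_uIcc.prod isCompact_uIcc)).mono_set
      (prod_mono uIoc_subset_uIcc uIoc_subset_uIcc)

theorem A2_dX {V : ℝ × ℝ → ℝ} (hV : ContDiff ℝ ∞ V) (hp : LatPer 1 0 1 V) (n : ℤ × ℤ) :
    A2 (dX V) n = 2 * Real.pi * n.1 * Complex.I * A2 V n := by
  have h : ∀ t : ℝ, fc (fun s => (dX V (s, t) : ℂ)) n.1 =
      2 * Real.pi * n.1 * Complex.I * fc (fun s => (V (s, t) : ℂ)) n.1 := by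
    intro t
    refine fc_deriv (fun s => (hasDX hV (s, t)).ofReal_comp) ?_ ?_ n.1
    · have := (smooth_dX hV).continuous
      fun_prop
    · have := hp.1 (0, t)
      simp only [Prod.mk_add_mk, zero_add, add_zero] at this
      rw [this]
  unfold A2
  simp only [h]
  unfold fc
  rw [← intervalIntegral.integral_const_mul]
  congr 1
  funext t
  ring

theorem A2_dY {V : ℝ × ℝ → ℝ} (hV : ContDiff ℝ ∞ V) (hp : LatPer 1 0 1 V) (n : ℤ × ℤ) :
    A2 (dY V) n = 2 * Real.pi * n.2 * Complex.I * A2 V n := by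
  have h : ∀ s : ℝ, fc (fun t => (dY V (s, t) : ℂ)) n.2 =
      2 * Real.pi * n.2 * Complex.I * fc (fun t => (V (s, t) : ℂ)) n.2 := by
    intro s
    refine fc_deriv (fun t => (hasDY hV (s, t)).ofReal_comp) ?_ ?_ n.2
    · have := (smooth_dY hV).continuous
      fun_prop
    · have := hp.2 (s, 0)
      simp only [Prod.mk_add_mk, zero_add, add_zero] at this
      rw [this]
  rw [A2_swap (smooth_dY hV).continuous, A2_swap hV.continuous]
  simp only [h]
  unfold fc
  rw [← intervalIntegral.integral_const_mul]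
  congr 1
  funext t
  ring

theorem norm_fc_le {f : ℝ → ℂ} {C : ℝ} (h : ∀ s, ‖f s‖ ≤ C) (m : ℤ) : ‖fc f m‖ ≤ C := by
  unfold fc
  have := intervalIntegral.norm_integral_le_of_norm_le_const (a := 0) (b := 1) (C := C)
    (f := fun s => f s * ee (-m * s)) (fun s _ => by rw [norm_mul, norm_ee, mul_one]; exact h s)
  simpa using this

theorem exists_bound {V : ℝ × ℝ → ℝ} (hV : Continuous V) (hp : LatPer 1 0 1 V) :
    ∃ C, ∀ p, |V p| ≤ C := by
  obtain ⟨C, hC⟩ := (isCompact_fundDom 1 0 1).exists_bound_of_continuousOn hV.continuousOn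
  refine ⟨C, fun p => ?_⟩
  obtain ⟨q, hq, hpq⟩ := exists_mem_fundDom (u := 0) one_pos one_pos p
  rw [hpq V hp.1 hp.2]
  exact hC q hq

theorem A2_decay (k : ℕ) : ∀ {V : ℝ × ℝ → ℝ}, ContDiff ℝ ∞ V → LatPer 1 0 1 V →
    ∃ C, ∀ n : ℤ × ℤ, ((1 + |2 * Real.pi * n.1|) * (1 + |2 * Real.pi * n.2|)) ^ k * ‖A2 V n‖ ≤ C := by
  induction k with
  | zero =>
    intro V hV hp
    obtain ⟨C, hC⟩ := exists_bound hV.continuous hp
    refine ⟨C, fun n => ?_⟩
    rw [pow_zero, one_mul]
    refine norm_fc_le (fun t => norm_fc_le (fun s => ?_) _) _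
    rw [Complex.norm_real]
    exact hC _
  | succ k ih =>
    intro V hV hp
    obtain ⟨C0, h0⟩ := ih hV hp
    obtain ⟨C1, h1⟩ := ih (smooth_dX hV) hp.dX
    obtain ⟨C2, h2⟩ := ih (smooth_dY hV) hp.dY
    obtain ⟨C3, h3⟩ := ih (smooth_dX (smooth_dY hV)) hp.dY.dX
    refine ⟨C0 + C1 + C2 + C3, fun n => ?_⟩
    have e1 : ‖A2 (dX V) n‖ = |2 * Real.pi * n.1| * ‖A2 V n‖ := by
      rw [A2_dX hV hp, norm_mul, norm_mul, Complex.norm_I, mul_one]
      congr 1
      rw [← Real.norm_eq_abs, ← Complex.norm_real]; push_cast; rfl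
    have e2 : ‖A2 (dY V) n‖ = |2 * Real.pi * n.2| * ‖A2 V n‖ := by
      rw [A2_dY hV hp, norm_mul, norm_mul, Complex.norm_I, mul_one]
      congr 1
      rw [← Real.norm_eq_abs, ← Complex.norm_real]; push_cast; rfl
    have e3 : ‖A2 (dX (dY V)) n‖ = |2 * Real.pi * n.1| * (|2 * Real.pi * n.2| * ‖A2 V n‖) := by
      rw [A2_dX (smooth_dY hV) hp.dY, norm_mul, norm_mul, Complex.norm_I, mul_one, e2]
      congr 1
      rw [← Real.norm_eq_abs, ← Complex.norm_real]; push_cast; rfl
    have k0 := h0 n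
    have k1 := h1 n
    have k2 := h2 n
    have k3 := h3 n
    rw [e1] at k1
    rw [e2] at k2
    rw [e3] at k3
    rw [pow_succ]
    nlinarith [k0, k1, k2, k3]

theorem summable_wt : Summable (fun m : ℤ => 1 / (1 + |2 * Real.pi * (m:ℝ)|) ^ 2) := by
  have h1 : Summable (fun m : ℤ => 1 / (m:ℝ) ^ 2 + if m = 0 then (1:ℝ) else 0) := by
    refine (Real.summable_one_div_int_pow.2 (by norm_num)).add ?_
    refine summable_of_ne_finset_zero (s := {0}) fun n hn => ?_
    simp only [Finset.mem_singleton] at hn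
    simp [hn]
  refine Summable.of_nonneg_of_le (fun m => by positivity) (fun m => ?_) h1
  by_cases hm : m = 0
  · subst hm; simp
  · rw [if_neg hm, add_zero]
    have hm' : (m:ℝ) ≠ 0 := by exact_mod_cast hm
    have h2 : 0 < (m:ℝ) ^ 2 := by positivity
    refine one_div_le_one_div_of_le h2 ?_
    have h3 : |(m:ℝ)| ≤ 1 + |2 * Real.pi * (m:ℝ)| := by
      rw [abs_mul, abs_of_pos Real.two_pi_pos]
      have := Real.pi_gt_three
      nlinarith [abs_nonneg (m:ℝ)]
    rw [← sq_abs (m:ℝ)]
    gcongr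

theorem A2_summable (k : ℕ) {V : ℝ × ℝ → ℝ} (hV : ContDiff ℝ ∞ V) (hp : LatPer 1 0 1 V) :
    Summable (fun n : ℤ × ℤ =>
      ((1 + |2 * Real.pi * n.1|) * (1 + |2 * Real.pi * n.2|)) ^ k * ‖A2 V n‖) := by
  obtain ⟨C, hC⟩ := A2_decay (k + 2) hV hp
  have h1 : Summable (fun n : ℤ × ℤ => C * (1 / (1 + |2 * Real.pi * (n.1:ℝ)|) ^ 2 *
      (1 / (1 + |2 * Real.pi * (n.2:ℝ)|) ^ 2))) :=
    (summable_wt.mul_of_nonneg summable_wt (fun _ => by positivity) fun _ => by positivity).mul_left C
  refine Summable.of_nonneg_of_le (fun m => by positivity) (fun n => ?_) h1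
  have h2 := hC n
  have hx : 0 < 1 + |2 * Real.pi * (n.1:ℝ)| := by positivity
  have hy : 0 < 1 + |2 * Real.pi * (n.2:ℝ)| := by positivity
  have h3 : C * (1 / (1 + |2 * Real.pi * (n.1:ℝ)|) ^ 2 *
      (1 / (1 + |2 * Real.pi * (n.2:ℝ)|) ^ 2)) =
      C / ((1 + |2 * Real.pi * n.1|) * (1 + |2 * Real.pi * n.2|)) ^ 2 := by
    field_simp
  rw [h3, le_div_iff₀ (by positivity)]
  refine le_trans (le_of_eq ?_) h2
  ring

theorem A2_inversion {V : ℝ × ℝ → ℝ} (hV : ContDiff ℝ ∞ V) (hp : LatPer 1 0 1 V) (s t : ℝ) :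
    ∑' n : ℤ × ℤ, ee (n.1 * s + n.2 * t) * A2 V n = V (s, t) := by
  have hs : Summable (fun n : ℤ × ℤ => ‖A2 V n‖) := by
    simpa using A2_summable 0 hV hp
  have hc : ∀ (m : ℤ) (t : ℝ), HasSum (fun k : ℤ => A2 V (m, k) * ee (k * t))
      (fc (fun s => (V (s, t) : ℂ)) m) := by
    intro m t
    refine fc_inversion (f := fun t => fc (fun s => (V (s, t) : ℂ)) m)
      (continuous_fc_param hV.continuous m) (fun t => ?_) (hs.prod_factor m) t
    have := fun s : ℝ => hp.2 (s, t)
    simp only [Prod.mk_add_mk, add_zero] at this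
    simp only [this]
  have hb : ∀ (m : ℤ) (t : ℝ), ‖fc (fun s => (V (s, t) : ℂ)) m‖ ≤ ∑' k : ℤ, ‖A2 V (m, k)‖ := by
    intro m t
    rw [← (hc m t).tsum_eq]
    refine (norm_tsum_le_tsum_norm ?_).trans ?_
    · simpa [norm_mul, norm_ee] using hs.prod_factor m
    · simp [norm_mul, norm_ee]
  have hV1 : HasSum (fun m : ℤ => fc (fun s => (V (s, t) : ℂ)) m * ee (m * s)) (V (s, t)) := by
    refine fc_inversion (f := fun s => (V (s, t) : ℂ)) ?_ (fun s => ?_) ?_ s
    · have := hV.continuous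
      fun_prop
    · have := hp.1 (s, t)
      simp only [Prod.mk_add_mk, add_zero] at this
      rw [this]
    · exact Summable.of_nonneg_of_le (fun _ => norm_nonneg _) (fun m => hb m t) hs.prod
  have hs2 : Summable (fun n : ℤ × ℤ => ee (n.1 * s + n.2 * t) * A2 V n) := by
    refine Summable.of_norm ?_
    simpa [norm_mul, norm_ee] using hs
  rw [hs2.tsum_prod, ← hV1.tsum_eq]
  congr 1
  funext m
  rw [← (hc m t).tsum_eq, ← tsum_mul_right]
  congr 1
  funext k
  rw [ee_add]
  ring

theorem conj_fc (f : ℝ → ℂ) (m : ℤ) :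
    (starRingEnd ℂ) (fc f m) = fc (fun s => (starRingEnd ℂ) (f s)) (-m) := by
  unfold fc
  rw [← intervalIntegral_conj]
  congr 1
  funext s
  rw [map_mul, conj_ee]
  congr 2
  push_cast
  ring

theorem conj_A2 (V : ℝ × ℝ → ℝ) (n : ℤ × ℤ) : (starRingEnd ℂ) (A2 V (-n)) = A2 V n := by
  unfold A2
  rw [conj_fc]
  simp only [conj_fc, Complex.conj_ofReal, Prod.fst_neg, Prod.snd_neg, neg_neg]

/-- Every smooth lattice-periodic function is the sum of a rapidly decreasing Fourier series. -/
theorem exists_rapid {l u w : ℝ} (hl : 0 < l) (hw : 0 < w) {v : ℝ × ℝ → ℝ}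
    (hv : ContDiff ℝ ∞ v) (hp : LatPer l u w v) :
    ∃ a : WA, Rapid l u w a ∧ WA.inv a = a ∧ ∀ X, WA.ev0 (tau l u w X a) = v X := by
  let V : ℝ × ℝ → ℝ := fun q => v (q.1 * l + q.2 * u, q.2 * w)
  have hV : ContDiff ℝ ∞ V := hv.comp (by fun_prop)
  have hpV : LatPer 1 0 1 V := by
    constructor
    · intro p
      have := hp.1 (p.1 * l + p.2 * u, p.2 * w)
      simp only [V, Prod.fst_add, Prod.snd_add] at this ⊢
      rw [← this]
      congr 1
      ext
      · simp; ring
      · simp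
    · intro p
      have := hp.2 (p.1 * l + p.2 * u, p.2 * w)
      simp only [V, Prod.fst_add, Prod.snd_add] at this ⊢
      rw [← this]
      congr 1
      ext
      · simp; ring
      · simp; ring
  have hs : Summable (fun n : ℤ × ℤ => ‖A2 V n‖) := by
    simpa using A2_summable 0 hV hpV
  refine ⟨WA.mk (fun n => A2 V n) hs, ?_, ?_, ?_⟩
  · intro k
    set K : ℝ := 1 + 1 / l + |u| / (l * w) + 1 / w with hK
    have hK0 : 0 ≤ K := by positivity
    have hle : ∀ n : ℤ × ℤ, 1 + |xi1 l n| + |xi2 l u w n| ≤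
        K * ((1 + |2 * Real.pi * n.1|) * (1 + |2 * Real.pi * n.2|)) := by
      intro n
      have e1 : |xi1 l n| = |2 * Real.pi * n.1| * (1 / l) := by
        unfold xi1; rw [abs_div, abs_of_pos hl]; ring
      have e2 : |xi2 l u w n| ≤ |2 * Real.pi * n.2| * (1 / w) +
          |2 * Real.pi * n.1| * (|u| / (l * w)) := by
        have : xi2 l u w n = (2 * Real.pi * n.2) * (1 / w) - (2 * Real.pi * n.1) * (u / (l * w)) := by
          unfold xi2; field_simp
        rw [this]
        refine (abs_sub _ _).trans ?_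
        rw [abs_mul, abs_mul (2 * Real.pi * (n.1:ℝ)), abs_of_pos (by positivity : 0 < 1 / w),
          abs_div, abs_of_pos (by positivity : 0 < l * w)]
      have hx : 0 ≤ |2 * Real.pi * (n.1:ℝ)| := by positivity
      have hy : 0 ≤ |2 * Real.pi * (n.2:ℝ)| := by positivity
      have q1 : 0 ≤ 1 / l := by positivity
      have q2 : 0 ≤ |u| / (l * w) := by positivity
      have q3 : 0 ≤ 1 / w := by positivity
      have hxy : 0 ≤ |2 * Real.pi * (n.1:ℝ)| * |2 * Real.pi * (n.2:ℝ)| := by positivity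
      rw [e1, hK]
      generalize |2 * Real.pi * (n.1:ℝ)| = x at *
      generalize |2 * Real.pi * (n.2:ℝ)| = y at *
      generalize 1 / l = c1 at *
      generalize |u| / (l * w) = c2 at *
      generalize 1 / w = c3 at *
      nlinarith [mul_nonneg hx q1, mul_nonneg hx q2, mul_nonneg hx q3, mul_nonneg hy q1,
        mul_nonneg hy q2, mul_nonneg hy q3, mul_nonneg hxy q1, mul_nonneg hxy q2,
        mul_nonneg hxy q3]
    refine Summable.of_nonneg_of_le (fun n => by positivity) (fun n => ?_)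
      ((A2_summable k hV hpV).mul_left (K ^ k))
    rw [← mul_assoc, ← mul_pow]
    exact mul_le_mul_of_nonneg_right (pow_le_pow_left₀ (by positivity) (hle n) k) (norm_nonneg _)
  · exact WA.ext fun n => conj_A2 V n
  · intro X
    have h := A2_inversion hV hpV ((X.1 - X.2 / w * u) / l) (X.2 / w)
    have e : V ((X.1 - X.2 / w * u) / l, X.2 / w) = v X := by
      simp only [V]
      congr 1
      ext
      · simp only; field_simp; ring
      · simp only; field_simp
    rw [e] at h
    rw [← h, WA.ev0_apply]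
    congr 1
    funext n
    rw [tau_apply, WA.mk_apply]
    congr 1
    unfold chi ee phase xi1 xi2
    congr 3
    field_simp
    ring

end Vale.Agent.P205
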