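import Vale.Agent.H16.Torus.UniFinal

set_option autoImplicit false

open MeasureTheory Set Filter Topology Real
open scoped ContDiff ENNReal

namespace Vale.Agent.P205

theorem periods_independent {S T : ℝ × ℝ → ℝ} (hS : ContDiff ℝ ∞ S) (hT : ContDiff ℝ ∞ T)
    (S1 : ∀ p, S (p + (1, 0)) = S p + S (1, 0)) (S2 : ∀ p, S (p + (0, 1)) = S p + S (0, 1))
    (T1 : ∀ p, T (p + (1, 0)) = T p + T (1, 0)) (T2 : ∀ p, T (p + (0, 1)) = T p + T (0, 1))
    (hdet : ∀ p, 0 < dX S p * dY T p - dY S p * dX T p) :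
    S (1, 0) * T (0, 1) - S (0, 1) * T (1, 0) ≠ 0 := by
  intro h0
  obtain ⟨α, β, hne, h1, h2⟩ : ∃ α β : ℝ, (α ≠ 0 ∨ β ≠ 0) ∧
      α * S (1, 0) + β * T (1, 0) = 0 ∧ α * S (0, 1) + β * T (0, 1) = 0 := by
    by_cases ha : S (1, 0) = 0 ∧ T (1, 0) = 0
    · by_cases hb : S (0, 1) = 0 ∧ T (0, 1) = 0
      · exact ⟨1, 0, Or.inl one_ne_zero, by rw [ha.1, ha.2]; ring, by rw [hb.1, hb.2]; ring⟩
      · refine ⟨T (0, 1), -S (0, 1), ?_, by rw [ha.1, ha.2]; ring, by ring⟩
        by_contra hc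
        push Not at hc
        exact hb ⟨by linarith [hc.2], hc.1⟩
    · refine ⟨T (1, 0), -S (1, 0), ?_, by ring, by linarith⟩
      by_contra hc
      push Not at hc
      exact ha ⟨by linarith [hc.2], hc.1⟩
  have hF : ContDiff ℝ ∞ (fun p => α * S p + β * T p) :=
    (contDiff_const.mul hS).add (contDiff_const.mul hT)
  obtain ⟨p0, hp0⟩ := exists_max (l := 1) (u := 0) (w := 1) one_pos one_pos
    (fun p => α * S p + β * T p) hF.continuous
    (fun p => by rw [S1, T1]; linear_combination h1) (fun p => by rw [S2, T2]; linear_combination h2)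
  have hloc : IsLocalMax (fun p => α * S p + β * T p) p0 := Filter.Eventually.of_forall hp0
  have hfd := hloc.fderiv_eq_zero
  have dFx : dX (fun p => α * S p + β * T p) p0 = α * dX S p0 + β * dX T p0 :=
    dX_eq hF (((hasDX hS p0).const_mul α).add ((hasDX hT p0).const_mul β))
  have dFy : dY (fun p => α * S p + β * T p) p0 = α * dY S p0 + β * dY T p0 :=
    dY_eq hF (((hasDY hS p0).const_mul α).add ((hasDY hT p0).const_mul β))
  have g3 : dX (fun p => α * S p + β * T p) p0 = 0 := by unfold dX; rw [hfd]; rfl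
  have g4 : dY (fun p => α * S p + β * T p) p0 = 0 := by unfold dY; rw [hfd]; rfl
  rw [dFx] at g3
  rw [dFy] at g4
  have hd := hdet p0
  have ka : (dX S p0 * dY T p0 - dY S p0 * dX T p0) * α = 0 := by
    linear_combination dY T p0 * g3 - dX T p0 * g4
  have kb : (dX S p0 * dY T p0 - dY S p0 * dX T p0) * β = 0 := by
    linear_combination dX S p0 * g4 - dY S p0 * g3
  have ka' := (mul_eq_zero.1 ka).resolve_left hd.ne'
  have kb' := (mul_eq_zero.1 kb).resolve_left hd.ne'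
  rcases hne with h | h
  · exact h ka'
  · exact h kb'

/-- Every smooth Riemannian metric on the torus has a smooth isometric immersion into `ℝ⁴`. -/
theorem torus_general (g : TorusMetric) : ∃ Φ, IsSmoothIsometricImmersion g Φ := by
  obtain ⟨S, T, σ, hS, hT, hσ, pσ, S1, S2, T1, T2, hdet, hg⟩ := uniformize g
  have hind := periods_independent hS hT S1 S2 T1 T2 hdet
  set s1 := S (1, 0)
  set s2 := S (0, 1)
  set t1 := T (1, 0)
  set t2 := T (0, 1)
  have hlsq : 0 < s1 ^ 2 + t1 ^ 2 := by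
    by_contra hc
    have h1 : s1 ^ 2 = 0 := le_antisymm (by nlinarith [sq_nonneg s1, sq_nonneg t1]) (sq_nonneg _)
    have h2 : t1 ^ 2 = 0 := le_antisymm (by nlinarith [sq_nonneg s1, sq_nonneg t1]) (sq_nonneg _)
    have h3 := pow_eq_zero_iff (two_ne_zero) |>.1 h1
    have h4 := pow_eq_zero_iff (two_ne_zero) |>.1 h2
    rw [h3, h4] at hind
    simp at hind
  obtain ⟨l, hl, hl2⟩ : ∃ l : ℝ, 0 < l ∧ l ^ 2 = s1 ^ 2 + t1 ^ 2 :=
    ⟨sqrt (s1 ^ 2 + t1 ^ 2), sqrt_pos.2 hlsq, sq_sqrt hlsq.le⟩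
  obtain ⟨c, hc⟩ : ∃ c : ℝ, c = s1 / l := ⟨_, rfl⟩
  obtain ⟨d, hd⟩ : ∃ d : ℝ, d = t1 / l := ⟨_, rfl⟩
  have hcl : c * l = s1 := by rw [hc]; field_simp
  have hdl : d * l = t1 := by rw [hd]; field_simp
  have hcd : c ^ 2 + d ^ 2 = 1 := by
    rw [hc, hd, div_pow, div_pow, ← add_div, ← hl2]
    field_simp
  obtain ⟨κ, hκ, hκw⟩ : ∃ κ : ℝ, κ ^ 2 = 1 ∧ 0 < κ * (-d * s2 + c * t2) := by
    have hw0 : -d * s2 + c * t2 ≠ 0 := by
      intro h
      apply hind
      have : l * (-d * s2 + c * t2) = s1 * t2 - s2 * t1 := by rw [← hcl, ← hdl]; ring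
      rw [← this, h, mul_zero]
    rcases lt_or_gt_of_ne hw0 with h | h
    · exact ⟨-1, by norm_num, by linarith⟩
    · exact ⟨1, by norm_num, by linarith⟩
  obtain ⟨u, hu⟩ : ∃ u : ℝ, u = c * s2 + d * t2 := ⟨_, rfl⟩
  obtain ⟨w, hw⟩ : ∃ w : ℝ, w = κ * (-d * s2 + c * t2) := ⟨_, rfl⟩
  rw [← hw] at hκw
  -- normalised coordinates
  let S' : ℝ × ℝ → ℝ := fun p => c * S p + d * T p
  let T' : ℝ × ℝ → ℝ := fun p => κ * (-d * S p + c * T p)
  have hS' : ContDiff ℝ ∞ S' := (contDiff_const.mul hS).add (contDiff_const.mul hT)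
  have hT' : ContDiff ℝ ∞ T' :=
    contDiff_const.mul ((contDiff_const.mul hS).add (contDiff_const.mul hT))
  have fS' : ∀ p x, fderiv ℝ S' p x = c * fderiv ℝ S p x + d * fderiv ℝ T p x := by
    intro p x
    have : HasFDerivAt S' _ p := ((hS.differentiable infty_ne_zero p).hasFDerivAt.const_mul c).add
      ((hT.differentiable infty_ne_zero p).hasFDerivAt.const_mul d)
    rw [this.fderiv]; simp
  have fT' : ∀ p x, fderiv ℝ T' p x = κ * (-d * fderiv ℝ S p x + c * fderiv ℝ T p x) := by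
    intro p x
    have : HasFDerivAt T' _ p :=
      (((hS.differentiable infty_ne_zero p).hasFDerivAt.const_mul (-d)).add
      ((hT.differentiable infty_ne_zero p).hasFDerivAt.const_mul c)).const_mul κ
    rw [this.fderiv]; simp; ring
  have dXS : ∀ p, dX S' p = c * dX S p + d * dX T p := fun p => fS' p _
  have dYS : ∀ p, dY S' p = c * dY S p + d * dY T p := fun p => fS' p _
  have dXT : ∀ p, dX T' p = κ * (-d * dX S p + c * dX T p) := fun p => fT' p _
  have dYT : ∀ p, dY T' p = κ * (-d * dY S p + c * dY T p) := fun p => fT' p _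
  have hdet' : ∀ p, dX S' p * dY T' p - dY S' p * dX T' p ≠ 0 := by
    intro p
    rw [dXS, dYS, dXT, dYT]
    have e : (c * dX S p + d * dX T p) * (κ * (-d * dY S p + c * dY T p)) -
        (c * dY S p + d * dY T p) * (κ * (-d * dX S p + c * dX T p)) =
        κ * (dX S p * dY T p - dY S p * dX T p) := by
      linear_combination κ * (dX S p * dY T p - dY S p * dX T p) * hcd
    rw [e]
    have hκ0 : κ ≠ 0 := by
      intro h; rw [h] at hκ; norm_num at hκ
    exact mul_ne_zero hκ0 (hdet p).ne'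
  have perd : ∀ {f : ℝ × ℝ → ℝ} {k m : ℝ}, (∀ p, f (p + (1, 0)) = f p + k) →
      (∀ p, f (p + (0, 1)) = f p + m) → LatPer 1 0 1 (dX f) ∧ LatPer 1 0 1 (dY f) := by
    intro f k m h1 h2
    have e1 : (fun q => f (q + (1, 0))) = fun q => f q + k := funext h1
    have e2 : (fun q => f (q + (0, 1))) = fun q => f q + m := funext h2
    have k1 : ∀ p, fderiv ℝ f (p + (1, 0)) = fderiv ℝ f p := fun p => by
      rw [← fderiv_comp_add_right (f := f) ((1, 0) : ℝ × ℝ), e1, fderiv_add_const]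
    have k2 : ∀ p, fderiv ℝ f (p + (0, 1)) = fderiv ℝ f p := fun p => by
      rw [← fderiv_comp_add_right (f := f) ((0, 1) : ℝ × ℝ), e2, fderiv_add_const]
    exact ⟨⟨fun p => by unfold dX; rw [k1], fun p => by unfold dX; rw [k2]⟩,
      ⟨fun p => by unfold dY; rw [k1], fun p => by unfold dY; rw [k2]⟩⟩
  have S1' : ∀ p, S' (p + (1, 0)) = S' p + l := fun p => by
    simp only [S', S1, T1]
    have : c * s1 + d * t1 = l := by
      rw [← hcl, ← hdl]; linear_combination l * hcd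
    linear_combination this
  have T1' : ∀ p, T' (p + (1, 0)) = T' p + 0 := fun p => by
    simp only [T', S1, T1]
    have : -d * s1 + c * t1 = 0 := by rw [← hcl, ← hdl]; ring
    linear_combination κ * this
  have S2' : ∀ p, S' (p + (0, 1)) = S' p + u := fun p => by
    simp only [S', S2, T2, hu]; ring
  have T2' : ∀ p, T' (p + (0, 1)) = T' p + w := fun p => by
    simp only [T', S2, T2, hw]; ring
  obtain ⟨pS1, pS2⟩ := perd S1' S2'
  obtain ⟨pT1, pT2⟩ := perd T1' T2'
  obtain ⟨h, hh, hsm⟩ := global_diffeo hS' hT' hdet' pS1 pS2 pT1 pT2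
  have hh1 : ∀ p, h (p + (1, 0)) = h p + (l, 0) := fun p => by
    rw [hh, hh, S1', T1']; rfl
  have hh2 : ∀ p, h (p + (0, 1)) = h p + (u, w) := fun p => by
    rw [hh, hh, S2', T2']; rfl
  let v : ℝ × ℝ → ℝ := fun q => σ (h.symm q)
  have hv : ContDiff ℝ ∞ v := hσ.comp hsm
  have hvh : ∀ p, v (h p) = σ p := fun p => by simp only [v, Homeomorph.symm_apply_apply]
  have hpv : LatPer l u w v := by
    constructor
    · intro q
      have : h.symm (q + (l, 0)) = h.symm q + (1, 0) := by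
        rw [Homeomorph.symm_apply_eq, hh1, Homeomorph.apply_symm_apply]
      simp only [v, this, pσ.1]
    · intro q
      have : h.symm (q + (u, w)) = h.symm q + (0, 1) := by
        rw [Homeomorph.symm_apply_eq, hh2, Homeomorph.apply_symm_apply]
      simp only [v, this, pσ.2]
  obtain ⟨ε0, hε0, ⟨F⟩⟩ := exists_family l u w v hl hκw hv hpv
  obtain ⟨R, SS, TT, N, L, τ, hR, hSS, hTT, hL, hRp, hSS1, hSS2, hTT1, hTT2, hmet⟩ :=
    Family.final hl hκw hv hpv hε0 F
  have hhc : ContDiff ℝ ∞ (h : ℝ × ℝ → ℝ × ℝ) := by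
    have : (h : ℝ × ℝ → ℝ × ℝ) = fun p => (S' p, T' p) := funext hh
    rw [this]; exact hS'.prodMk hT'
  have hA1 : ∀ x y, h (x + 1, y) = h (x, y) + (l, 0) := fun x y => by
    rw [← hh1]; congr 1; ext <;> simp
  have hA2 : ∀ x y, h (x, y + 1) = h (x, y) + (u, w) := fun x y => by
    rw [← hh2]; congr 1; ext <;> simp
  have hcomp : ∀ (f : ℝ × ℝ → ℝ), ContDiff ℝ ∞ f → ∀ p x, fderiv ℝ (fun q => f (h q)) p x =
      fderiv ℝ f (h p) (fderiv ℝ S' p x, fderiv ℝ T' p x) := by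
    intro f hf p x
    have e : (h : ℝ × ℝ → ℝ × ℝ) = fun p => (S' p, T' p) := funext hh
    have d1 : HasFDerivAt (h : ℝ × ℝ → ℝ × ℝ) ((fderiv ℝ S' p).prod (fderiv ℝ T' p)) p := by
      rw [e]
      exact (hS'.differentiable infty_ne_zero p).hasFDerivAt.prodMk
        (hT'.differentiable infty_ne_zero p).hasFDerivAt
    have : HasFDerivAt (fun q => f (h q)) _ p :=
      ((hf.differentiable infty_ne_zero (h p)).hasFDerivAt).comp p d1
    rw [this.fderiv]; rfl
  refine assemble g (fun q => R (h q)) (fun q => SS (h q)) (fun q => TT (h q)) (hR.comp hhc)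
    (hSS.comp hhc) (hTT.comp hhc) L (-τ) hL ?_ ?_ 0 (-1) N 0 ?_ ?_ ?_ ?_ ?_
  · intro x y; simp only [hA1, hRp.1]
  · intro x y; simp only [hA2, hRp.2]
  · intro x y; simp only [hA1, hSS1]; push_cast; ring
  · intro x y; simp only [hA2, hSS2]; push_cast; ring
  · intro x y; simp only [hA1, hTT1]; push_cast; ring
  · intro x y; simp only [hA2, hTT2]; push_cast; ring
  · intro p x y
    rw [hcomp R hR, hcomp R hR, hcomp SS hSS, hcomp SS hSS, hcomp TT hTT, hcomp TT hTT, ← hmet, hvh,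
      hg, fS', fS', fT', fT']
    linear_combination (-exp (2 * σ p) * ((c * fderiv ℝ T p x - d * fderiv ℝ S p x) *
      (c * fderiv ℝ T p y - d * fderiv ℝ S p y))) * hκ -
      (exp (2 * σ p) * (fderiv ℝ S p x * fderiv ℝ S p y + fderiv ℝ T p x * fderiv ℝ T p y)) * hcd

end Vale.Agent.P205
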