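import Vale.Agent.H16.Torus.Partial

set_option autoImplicit false

open Real MeasureTheory Set
open scoped ContDiff

namespace Vale.Agent.P205

section
variable (ε : ℝ) (ζ p1 p2 : ℝ × ℝ → ℝ)

/-- components of the one-form `θ = ζ dv + dζ` -/
noncomputable def th1 (p : ℝ × ℝ) : ℝ := ζ p * p1 p + dX ζ p
noncomputable def th2 (p : ℝ × ℝ) : ℝ := ζ p * p2 p + dY ζ p

noncomputable def tsq (p : ℝ × ℝ) : ℝ := th1 ζ p1 p ^ 2 + th2 ζ p2 p ^ 2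

noncomputable def ss (p : ℝ × ℝ) : ℝ := sqrt (1 - ε ^ 2 * tsq ζ p1 p2 p)

noncomputable def mu (p : ℝ × ℝ) : ℝ := ε ^ 2 / (1 + ss ε ζ p1 p2 p)

/-- connection form -/
noncomputable def om1 (p : ℝ × ℝ) : ℝ :=
  mu ε ζ p1 p2 p / ss ε ζ p1 p2 p *
    (th1 ζ p1 p * dX (th2 ζ p2) p - th2 ζ p2 p * dX (th1 ζ p1) p) +
    dY ζ p / (ss ε ζ p1 p2 p * ζ p)

noncomputable def om2 (p : ℝ × ℝ) : ℝ :=
  mu ε ζ p1 p2 p / ss ε ζ p1 p2 p *
    (th1 ζ p1 p * dY (th2 ζ p2) p - th2 ζ p2 p * dY (th1 ζ p1) p) -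
    dX ζ p / (ss ε ζ p1 p2 p * ζ p)

/-- coframe `η_{ij} = (δ_{ij} - μ θ_i θ_j) / ζ` -/
noncomputable def et11 (p : ℝ × ℝ) : ℝ := (1 - mu ε ζ p1 p2 p * th1 ζ p1 p ^ 2) / ζ p
noncomputable def et12 (p : ℝ × ℝ) : ℝ := -(mu ε ζ p1 p2 p * (th1 ζ p1 p * th2 ζ p2 p)) / ζ p
noncomputable def et22 (p : ℝ × ℝ) : ℝ := (1 - mu ε ζ p1 p2 p * th2 ζ p2 p ^ 2) / ζ p

end

/-- Assumptions on the data. -/
structure GeomData (ε : ℝ) (ζ p1 p2 : ℝ × ℝ → ℝ) : Prop where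
  hζ : ContDiff ℝ ∞ ζ
  hp1 : ContDiff ℝ ∞ p1
  hp2 : ContDiff ℝ ∞ p2
  curl : ∀ p, dX p2 p = dY p1 p
  pos : ∀ p, 0 < ζ p
  small : ∀ p, 0 < 1 - ε ^ 2 * tsq ζ p1 p2 p

namespace GeomData
variable {ε : ℝ} {ζ p1 p2 : ℝ × ℝ → ℝ} (H : GeomData ε ζ p1 p2)
include H

theorem smooth_th1 : ContDiff ℝ ∞ (th1 ζ p1) := (H.hζ.mul H.hp1).add (smooth_dX H.hζ)
theorem smooth_th2 : ContDiff ℝ ∞ (th2 ζ p2) := (H.hζ.mul H.hp2).add (smooth_dY H.hζ)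
theorem smooth_tsq : ContDiff ℝ ∞ (tsq ζ p1 p2) :=
  (H.smooth_th1.pow 2).add (H.smooth_th2.pow 2)
theorem smooth_ss : ContDiff ℝ ∞ (ss ε ζ p1 p2) :=
  ContDiff.sqrt (contDiff_const.sub (contDiff_const.mul H.smooth_tsq)) fun p => (H.small p).ne'
theorem ss_pos (p : ℝ × ℝ) : 0 < ss ε ζ p1 p2 p := sqrt_pos.2 (H.small p)
theorem ss_sq (p : ℝ × ℝ) : ss ε ζ p1 p2 p ^ 2 = 1 - ε ^ 2 * tsq ζ p1 p2 p :=
  sq_sqrt (H.small p).le
theorem smooth_mu : ContDiff ℝ ∞ (mu ε ζ p1 p2) :=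
  contDiff_const.div (contDiff_const.add H.smooth_ss) fun p => by have := H.ss_pos p; positivity
theorem mu_mul (p : ℝ × ℝ) : mu ε ζ p1 p2 p * (1 + ss ε ζ p1 p2 p) = ε ^ 2 := by
  have := H.ss_pos p
  unfold mu; field_simp
theorem mu_tsq (p : ℝ × ℝ) : mu ε ζ p1 p2 p * tsq ζ p1 p2 p = 1 - ss ε ζ p1 p2 p := by
  have h1 := H.ss_pos p
  have h2 := H.ss_sq p
  have h3 := H.mu_mul p
  have h4 : (1 + ss ε ζ p1 p2 p) ≠ 0 := by positivity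
  apply mul_left_cancel₀ h4
  linear_combination tsq ζ p1 p2 p * h3 + h2

theorem smooth_om1 : ContDiff ℝ ∞ (om1 ε ζ p1 p2) := by
  refine ((H.smooth_mu.div H.smooth_ss fun p => (H.ss_pos p).ne').mul
    ((H.smooth_th1.mul (smooth_dX H.smooth_th2)).sub
      (H.smooth_th2.mul (smooth_dX H.smooth_th1)))).add
    ((smooth_dY H.hζ).div (H.smooth_ss.mul H.hζ) fun p => ?_)
  exact (mul_pos (H.ss_pos p) (H.pos p)).ne'

theorem smooth_om2 : ContDiff ℝ ∞ (om2 ε ζ p1 p2) := by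
  refine ((H.smooth_mu.div H.smooth_ss fun p => (H.ss_pos p).ne').mul
    ((H.smooth_th1.mul (smooth_dY H.smooth_th2)).sub
      (H.smooth_th2.mul (smooth_dY H.smooth_th1)))).sub
    ((smooth_dX H.hζ).div (H.smooth_ss.mul H.hζ) fun p => ?_)
  exact (mul_pos (H.ss_pos p) (H.pos p)).ne'

theorem smooth_et11 : ContDiff ℝ ∞ (et11 ε ζ p1 p2) :=
  (contDiff_const.sub (H.smooth_mu.mul (H.smooth_th1.pow 2))).div H.hζ fun p => (H.pos p).ne'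
theorem smooth_et12 : ContDiff ℝ ∞ (et12 ε ζ p1 p2) :=
  (H.smooth_mu.mul (H.smooth_th1.mul H.smooth_th2)).neg.div H.hζ fun p => (H.pos p).ne'
theorem smooth_et22 : ContDiff ℝ ∞ (et22 ε ζ p1 p2) :=
  (contDiff_const.sub (H.smooth_mu.mul (H.smooth_th2.pow 2))).div H.hζ fun p => (H.pos p).ne'

/-- derivative of `s` -/
theorem dX_ss (p : ℝ × ℝ) : dX (ss ε ζ p1 p2) p * ss ε ζ p1 p2 p =
    -(ε ^ 2 * (th1 ζ p1 p * dX (th1 ζ p1) p + th2 ζ p2 p * dX (th2 ζ p2) p)) := by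
  have h1 : HasDerivAt (fun t => ss ε ζ p1 p2 (t, p.2) ^ 2) _ p.1 := (hasDX H.smooth_ss p).pow 2
  have h2 : HasDerivAt (fun t => 1 - ε ^ 2 * (th1 ζ p1 (t, p.2) ^ 2 + th2 ζ p2 (t, p.2) ^ 2)) _ p.1 :=
    ((((hasDX H.smooth_th1 p).pow 2).add ((hasDX H.smooth_th2 p).pow 2)).const_mul (ε ^ 2)).const_sub 1
  have h3 : (fun t => ss ε ζ p1 p2 (t, p.2) ^ 2) =
      fun t => 1 - ε ^ 2 * (th1 ζ p1 (t, p.2) ^ 2 + th2 ζ p2 (t, p.2) ^ 2) :=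
    funext fun t => H.ss_sq _
  rw [h3] at h1
  have h4 := h1.unique h2
  simp only [Nat.cast_ofNat, Nat.add_one_sub_one, pow_one, Prod.mk.eta] at h4
  linarith

theorem dY_ss (p : ℝ × ℝ) : dY (ss ε ζ p1 p2) p * ss ε ζ p1 p2 p =
    -(ε ^ 2 * (th1 ζ p1 p * dY (th1 ζ p1) p + th2 ζ p2 p * dY (th2 ζ p2) p)) := by
  have h1 : HasDerivAt (fun t => ss ε ζ p1 p2 (p.1, t) ^ 2) _ p.2 := (hasDY H.smooth_ss p).pow 2
  have h2 : HasDerivAt (fun t => 1 - ε ^ 2 * (th1 ζ p1 (p.1, t) ^ 2 + th2 ζ p2 (p.1, t) ^ 2)) _ p.2 :=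
    ((((hasDY H.smooth_th1 p).pow 2).add ((hasDY H.smooth_th2 p).pow 2)).const_mul (ε ^ 2)).const_sub 1
  have h3 : (fun t => ss ε ζ p1 p2 (p.1, t) ^ 2) =
      fun t => 1 - ε ^ 2 * (th1 ζ p1 (p.1, t) ^ 2 + th2 ζ p2 (p.1, t) ^ 2) :=
    funext fun t => H.ss_sq _
  rw [h3] at h1
  have h4 := h1.unique h2
  simp only [Nat.cast_ofNat, Nat.add_one_sub_one, pow_one, Prod.mk.eta] at h4
  linarith

/-- derivative of `μ`: `μ_x = μ² (θ·θ_x) / s` -/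
theorem dX_mu (p : ℝ × ℝ) : dX (mu ε ζ p1 p2) p = mu ε ζ p1 p2 p ^ 2 *
    (th1 ζ p1 p * dX (th1 ζ p1) p + th2 ζ p2 p * dX (th2 ζ p2) p) / ss ε ζ p1 p2 p := by
  have h0 := H.ss_pos p
  have h1 : HasDerivAt (fun t => mu ε ζ p1 p2 (t, p.2) * (1 + ss ε ζ p1 p2 (t, p.2))) _ p.1 :=
    (hasDX H.smooth_mu p).mul ((hasDX H.smooth_ss p).const_add 1)
  have h2 : (fun t => mu ε ζ p1 p2 (t, p.2) * (1 + ss ε ζ p1 p2 (t, p.2))) = fun _ => ε ^ 2 :=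
    funext fun t => H.mu_mul _
  rw [h2] at h1
  have h3 := h1.unique (hasDerivAt_const _ _)
  simp only [Prod.mk.eta] at h3
  have h4 := H.dX_ss p
  have h5 := H.mu_mul p
  have h6 : (1 + ss ε ζ p1 p2 p) ≠ 0 := by positivity
  rw [eq_div_iff h0.ne']
  apply mul_left_cancel₀ h6
  linear_combination ss ε ζ p1 p2 p * h3 - mu ε ζ p1 p2 p * h4 + mu ε ζ p1 p2 p *
    (th1 ζ p1 p * dX (th1 ζ p1) p + th2 ζ p2 p * dX (th2 ζ p2) p) * (-h5)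

theorem dY_mu (p : ℝ × ℝ) : dY (mu ε ζ p1 p2) p = mu ε ζ p1 p2 p ^ 2 *
    (th1 ζ p1 p * dY (th1 ζ p1) p + th2 ζ p2 p * dY (th2 ζ p2) p) / ss ε ζ p1 p2 p := by
  have h0 := H.ss_pos p
  have h1 : HasDerivAt (fun t => mu ε ζ p1 p2 (p.1, t) * (1 + ss ε ζ p1 p2 (p.1, t))) _ p.2 :=
    (hasDY H.smooth_mu p).mul ((hasDY H.smooth_ss p).const_add 1)
  have h2 : (fun t => mu ε ζ p1 p2 (p.1, t) * (1 + ss ε ζ p1 p2 (p.1, t))) = fun _ => ε ^ 2 :=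
    funext fun t => H.mu_mul _
  rw [h2] at h1
  have h3 := h1.unique (hasDerivAt_const _ _)
  simp only [Prod.mk.eta] at h3
  have h4 := H.dY_ss p
  have h5 := H.mu_mul p
  have h6 : (1 + ss ε ζ p1 p2 p) ≠ 0 := by positivity
  rw [eq_div_iff h0.ne']
  apply mul_left_cancel₀ h6
  linear_combination ss ε ζ p1 p2 p * h3 - mu ε ζ p1 p2 p * h4 + mu ε ζ p1 p2 p *
    (th1 ζ p1 p * dY (th1 ζ p1) p + th2 ζ p2 p * dY (th2 ζ p2) p) * (-h5)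

theorem dX_th1 (p : ℝ × ℝ) : dX (th1 ζ p1) p = dX ζ p * p1 p + ζ p * dX p1 p + dX (dX ζ) p :=
  dX_eq H.smooth_th1 (((hasDX H.hζ p).mul (hasDX H.hp1 p)).add (hasDX (smooth_dX H.hζ) p))
theorem dY_th1 (p : ℝ × ℝ) : dY (th1 ζ p1) p = dY ζ p * p1 p + ζ p * dY p1 p + dY (dX ζ) p :=
  dY_eq H.smooth_th1 (((hasDY H.hζ p).mul (hasDY H.hp1 p)).add (hasDY (smooth_dX H.hζ) p))
theorem dX_th2 (p : ℝ × ℝ) : dX (th2 ζ p2) p = dX ζ p * p2 p + ζ p * dX p2 p + dX (dY ζ) p :=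
  dX_eq H.smooth_th2 (((hasDX H.hζ p).mul (hasDX H.hp2 p)).add (hasDX (smooth_dY H.hζ) p))
theorem dY_th2 (p : ℝ × ℝ) : dY (th2 ζ p2) p = dY ζ p * p2 p + ζ p * dY p2 p + dY (dY ζ) p :=
  dY_eq H.smooth_th2 (((hasDY H.hζ p).mul (hasDY H.hp2 p)).add (hasDY (smooth_dY H.hζ) p))

/-- curl of `θ` -/
theorem curl_th (p : ℝ × ℝ) : (dX (th2 ζ p2) p - dY (th1 ζ p1) p) * ζ p =
    dX ζ p * th2 ζ p2 p - dY ζ p * th1 ζ p1 p := by
  rw [H.dX_th2, H.dY_th1, H.curl p, dX_dY_comm H.hζ]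
  unfold th1 th2
  ring

/-- First structure equation. -/
theorem structure1 (p : ℝ × ℝ) :
    dX (et12 ε ζ p1 p2) p - dY (et11 ε ζ p1 p2) p =
      om1 ε ζ p1 p2 p * et22 ε ζ p1 p2 p - om2 ε ζ p1 p2 p * et12 ε ζ p1 p2 p := by
  have hz := (H.pos p).ne'
  have hs := (H.ss_pos p).ne'
  have e1 : dX (et12 ε ζ p1 p2) p = _ := dX_eq H.smooth_et12
    ((((hasDX H.smooth_mu p).mul ((hasDX H.smooth_th1 p).mul (hasDX H.smooth_th2 p))).neg).div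
      (hasDX H.hζ p) hz)
  have e2 : dY (et11 ε ζ p1 p2) p = _ := dY_eq H.smooth_et11
    ((((hasDY H.smooth_mu p).mul ((hasDY H.smooth_th1 p).pow 2)).const_sub 1).div
      (hasDY H.hζ p) hz)
  have hc := H.curl_th p
  have hst : ss ε ζ p1 p2 p = 1 - mu ε ζ p1 p2 p * (th1 ζ p1 p ^ 2 + th2 ζ p2 p ^ 2) := by
    have := H.mu_tsq p
    unfold tsq at this
    linarith
  simp only [Pi.mul_apply, Pi.neg_apply, Pi.pow_apply, Prod.mk.eta, H.dX_mu, H.dY_mu,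
    Nat.cast_ofNat, Nat.add_one_sub_one, pow_one] at e1 e2
  rw [e1, e2]
  unfold om1 om2 et22 et12
  generalize hsv : ss ε ζ p1 p2 p = s at *
  generalize mu ε ζ p1 p2 p = μ at *
  generalize th1 ζ p1 p = a at *
  generalize th2 ζ p2 p = b at *
  generalize dX (th1 ζ p1) p = ax at *
  generalize dY (th1 ζ p1) p = ay at *
  generalize dX (th2 ζ p2) p = bx at *
  generalize dY (th2 ζ p2) p = by' at *
  generalize ζ p = z at *
  generalize dX ζ p = zx at *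
  generalize dY ζ p = zy at *
  have hbx : bx = ay + (zx * b - zy * a) / z := by
    field_simp
    linear_combination hc
  subst hbx
  clear hsv e1 e2
  subst hst
  field_simp
  ring

/-- Second structure equation. -/
theorem structure2 (p : ℝ × ℝ) :
    dX (et22 ε ζ p1 p2) p - dY (et12 ε ζ p1 p2) p =
      -(om1 ε ζ p1 p2 p * et12 ε ζ p1 p2 p - om2 ε ζ p1 p2 p * et11 ε ζ p1 p2 p) := by
  have hz := (H.pos p).ne'
  have hs := (H.ss_pos p).ne'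
  have e1 : dX (et22 ε ζ p1 p2) p = _ := dX_eq H.smooth_et22
    ((((hasDX H.smooth_mu p).mul ((hasDX H.smooth_th2 p).pow 2)).const_sub 1).div
      (hasDX H.hζ p) hz)
  have e2 : dY (et12 ε ζ p1 p2) p = _ := dY_eq H.smooth_et12
    ((((hasDY H.smooth_mu p).mul ((hasDY H.smooth_th1 p).mul (hasDY H.smooth_th2 p))).neg).div
      (hasDY H.hζ p) hz)
  have hc := H.curl_th p
  have hst : ss ε ζ p1 p2 p = 1 - mu ε ζ p1 p2 p * (th1 ζ p1 p ^ 2 + th2 ζ p2 p ^ 2) := by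
    have := H.mu_tsq p
    unfold tsq at this
    linarith
  simp only [Pi.mul_apply, Pi.neg_apply, Pi.pow_apply, Prod.mk.eta, H.dX_mu, H.dY_mu,
    Nat.cast_ofNat, Nat.add_one_sub_one, pow_one] at e1 e2
  rw [e1, e2]
  unfold om1 om2 et11 et12
  generalize hsv : ss ε ζ p1 p2 p = s at *
  generalize mu ε ζ p1 p2 p = μ at *
  generalize th1 ζ p1 p = a at *
  generalize th2 ζ p2 p = b at *
  generalize dX (th1 ζ p1) p = ax at *
  generalize dY (th1 ζ p1) p = ay at *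
  generalize dX (th2 ζ p2) p = bx at *
  generalize dY (th2 ζ p2) p = by' at *
  generalize ζ p = z at *
  generalize dX ζ p = zx at *
  generalize dY ζ p = zy at *
  have hbx : bx = ay + (zx * b - zy * a) / z := by
    field_simp
    linear_combination hc
  subst hbx
  clear hsv e1 e2
  subst hst
  field_simp
  ring

/-- The defining polynomial of the flatness equation. -/
noncomputable def _root_.Vale.Agent.P205.flatExpr (ε : ℝ) (ζ p1 p2 : ℝ × ℝ → ℝ) (p : ℝ × ℝ) : ℝ :=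
  (1 - ε ^ 2 * tsq ζ p1 p2 p) *
      (ζ p * (dX (dX ζ) p + dY (dY ζ) p) - (dX ζ p ^ 2 + dY ζ p ^ 2)) -
    ε ^ 2 * (ζ p ^ 2 * (dX (th1 ζ p1) p * dY (th2 ζ p2) p - dY (th1 ζ p1) p * dX (th2 ζ p2) p) -
      ζ p * ((th1 ζ p1 p * dX (th1 ζ p1) p + th2 ζ p2 p * dX (th2 ζ p2) p) * dX ζ p +
        (th1 ζ p1 p * dY (th1 ζ p1) p + th2 ζ p2 p * dY (th2 ζ p2) p) * dY ζ p))

/-- Curvature: `dω = - flatExpr / (s³ ζ²)`. -/
theorem curvature (p : ℝ × ℝ) :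
    dX (om2 ε ζ p1 p2) p - dY (om1 ε ζ p1 p2) p =
      -(flatExpr ε ζ p1 p2 p / (ss ε ζ p1 p2 p ^ 3 * ζ p ^ 2)) := by
  have hz := (H.pos p).ne'
  have hs := (H.ss_pos p).ne'
  have hsp := H.ss_pos p
  have e1 : dX (om2 ε ζ p1 p2) p = _ := dX_eq H.smooth_om2
    ((((hasDX H.smooth_mu p).div (hasDX H.smooth_ss p) hs).mul
      (((hasDX H.smooth_th1 p).mul (hasDX (smooth_dY H.smooth_th2) p)).sub
        ((hasDX H.smooth_th2 p).mul (hasDX (smooth_dY H.smooth_th1) p)))).sub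
      ((hasDX (smooth_dX H.hζ) p).div ((hasDX H.smooth_ss p).mul (hasDX H.hζ p))
        (mul_ne_zero hs hz)))
  have e2 : dY (om1 ε ζ p1 p2) p = _ := dY_eq H.smooth_om1
    ((((hasDY H.smooth_mu p).div (hasDY H.smooth_ss p) hs).mul
      (((hasDY H.smooth_th1 p).mul (hasDY (smooth_dX H.smooth_th2) p)).sub
        ((hasDY H.smooth_th2 p).mul (hasDY (smooth_dX H.smooth_th1) p)))).add
      ((hasDY (smooth_dY H.hζ) p).div ((hasDY H.smooth_ss p).mul (hasDY H.hζ p))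
        (mul_ne_zero hs hz)))
  have hsx : dX (ss ε ζ p1 p2) p =
      -(ε ^ 2 * (th1 ζ p1 p * dX (th1 ζ p1) p + th2 ζ p2 p * dX (th2 ζ p2) p)) /
        ss ε ζ p1 p2 p := by rw [eq_div_iff hs, H.dX_ss]
  have hsy : dY (ss ε ζ p1 p2) p =
      -(ε ^ 2 * (th1 ζ p1 p * dY (th1 ζ p1) p + th2 ζ p2 p * dY (th2 ζ p2) p)) /
        ss ε ζ p1 p2 p := by rw [eq_div_iff hs, H.dY_ss]
  simp only [Pi.mul_apply, Pi.neg_apply, Pi.pow_apply, Pi.div_apply, Pi.sub_apply, Prod.mk.eta,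
    H.dX_mu, H.dY_mu, hsx, hsy, dX_dY_comm H.smooth_th1, dX_dY_comm H.smooth_th2,
    Nat.cast_ofNat, Nat.add_one_sub_one, pow_one] at e1 e2
  have hst : ss ε ζ p1 p2 p = 1 - mu ε ζ p1 p2 p * (th1 ζ p1 p ^ 2 + th2 ζ p2 p ^ 2) := by
    have := H.mu_tsq p
    unfold tsq at this
    linarith
  have hε : ε ^ 2 = mu ε ζ p1 p2 p * (1 + ss ε ζ p1 p2 p) := (H.mu_mul p).symm
  rw [e1, e2]
  unfold flatExpr tsq
  generalize hsv : ss ε ζ p1 p2 p = s at *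
  generalize mu ε ζ p1 p2 p = μ at *
  generalize dY (dX (th1 ζ p1)) p = axy at *
  generalize dY (dX (th2 ζ p2)) p = bxy at *
  generalize th1 ζ p1 p = a at *
  generalize th2 ζ p2 p = b at *
  generalize dX (th1 ζ p1) p = ax at *
  generalize dY (th1 ζ p1) p = ay at *
  generalize dX (th2 ζ p2) p = bx at *
  generalize dY (th2 ζ p2) p = by' at *
  generalize dX (dX ζ) p = zxx at *
  generalize dY (dY ζ) p = zyy at *
  generalize ζ p = z at *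
  generalize dX ζ p = zx at *
  generalize dY ζ p = zy at *
  clear hsv e1 e2 hsx hsy
  rw [hε]
  clear hε
  subst hst
  field_simp
  ring

end GeomData

end Vale.Agent.P205
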