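import Vale.Agent.H16.Torus.Geom

set_option autoImplicit false

open Real MeasureTheory Set intervalIntegral
open scoped ContDiff

namespace Vale.Agent.P205

/-- Periodicity with respect to the lattice spanned by `(l, 0)` and `(u, w)`. -/
def LatPer (l u w : ℝ) (f : ℝ × ℝ → ℝ) : Prop :=
  (∀ p, f (p + (l, 0)) = f p) ∧ ∀ p, f (p + (u, w)) = f p

theorem LatPer.dX {l u w : ℝ} {f : ℝ × ℝ → ℝ} (h : LatPer l u w f) : LatPer l u w (dX f) := by
  constructor
  · intro p
    have h1 : (fun q => f (q + (l, 0))) = f := funext h.1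
    unfold Vale.Agent.P205.dX
    rw [← fderiv_comp_add_right (f := f) ((l, 0) : ℝ × ℝ), h1]
  · intro p
    have h1 : (fun q => f (q + (u, w))) = f := funext h.2
    unfold Vale.Agent.P205.dX
    rw [← fderiv_comp_add_right (f := f) ((u, w) : ℝ × ℝ), h1]

theorem LatPer.dY {l u w : ℝ} {f : ℝ × ℝ → ℝ} (h : LatPer l u w f) : LatPer l u w (dY f) := by
  constructor
  · intro p
    have h1 : (fun q => f (q + (l, 0))) = f := funext h.1
    unfold Vale.Agent.P205.dY
    rw [← fderiv_comp_add_right (f := f) ((l, 0) : ℝ × ℝ), h1]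
  · intro p
    have h1 : (fun q => f (q + (u, w))) = f := funext h.2
    unfold Vale.Agent.P205.dY
    rw [← fderiv_comp_add_right (f := f) ((u, w) : ℝ × ℝ), h1]

theorem latPer_comp5 {l u w : ℝ} {a b c d e : ℝ × ℝ → ℝ} (ha : LatPer l u w a) (hb : LatPer l u w b)
    (hc : LatPer l u w c) (hd : LatPer l u w d) (he : LatPer l u w e)
    (F : ℝ → ℝ → ℝ → ℝ → ℝ → ℝ) :
    LatPer l u w (fun p => F (a p) (b p) (c p) (d p) (e p)) :=
  ⟨fun p => by simp only [ha.1, hb.1, hc.1, hd.1, he.1],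
    fun p => by simp only [ha.2, hb.2, hc.2, hd.2, he.2]⟩

section per
variable {l u w ε : ℝ} {ζ p1 p2 : ℝ × ℝ → ℝ} (hζ : LatPer l u w ζ) (h1 : LatPer l u w p1)
  (h2 : LatPer l u w p2)
include hζ

theorem per_th1 (h1 : LatPer l u w p1) : LatPer l u w (th1 ζ p1) :=
  latPer_comp5 hζ h1 hζ.dX hζ hζ fun a b c _ _ => a * b + c
theorem per_th2 (h2 : LatPer l u w p2) : LatPer l u w (th2 ζ p2) :=
  latPer_comp5 hζ h2 hζ.dY hζ hζ fun a b c _ _ => a * b + c
include h1 h2
theorem per_ss : LatPer l u w (ss ε ζ p1 p2) :=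
  latPer_comp5 (per_th1 hζ h1) (per_th2 hζ h2) hζ hζ hζ
    fun a b _ _ _ => sqrt (1 - ε ^ 2 * (a ^ 2 + b ^ 2))
theorem per_mu : LatPer l u w (mu ε ζ p1 p2) :=
  latPer_comp5 (per_ss (ε := ε) hζ h1 h2) hζ hζ hζ hζ fun a _ _ _ _ => ε ^ 2 / (1 + a)
theorem per_et11 : LatPer l u w (et11 ε ζ p1 p2) :=
  latPer_comp5 (per_mu (ε := ε) hζ h1 h2) (per_th1 hζ h1) hζ hζ hζ
    fun a b c _ _ => (1 - a * b ^ 2) / c
theorem per_et12 : LatPer l u w (et12 ε ζ p1 p2) :=
  latPer_comp5 (per_mu (ε := ε) hζ h1 h2) (per_th1 hζ h1) (per_th2 hζ h2) hζ hζ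
    fun a b c d _ => -(a * (b * c)) / d
theorem per_et22 : LatPer l u w (et22 ε ζ p1 p2) :=
  latPer_comp5 (per_mu (ε := ε) hζ h1 h2) (per_th2 hζ h2) hζ hζ hζ
    fun a b c _ _ => (1 - a * b ^ 2) / c
theorem per_om1 : LatPer l u w (om1 ε ζ p1 p2) := by
  have a1 := per_mu (ε := ε) hζ h1 h2
  have a2 := per_ss (ε := ε) hζ h1 h2
  have a3 := per_th1 hζ h1
  have a4 := per_th2 hζ h2
  have a5 := a3.dX
  have a6 := a4.dX
  have a7 := hζ.dY
  exact ⟨fun p => by simp only [om1, a1.1, a2.1, a3.1, a4.1, a5.1, a6.1, a7.1, hζ.1],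
    fun p => by simp only [om1, a1.2, a2.2, a3.2, a4.2, a5.2, a6.2, a7.2, hζ.2]⟩
theorem per_om2 : LatPer l u w (om2 ε ζ p1 p2) := by
  have a1 := per_mu (ε := ε) hζ h1 h2
  have a2 := per_ss (ε := ε) hζ h1 h2
  have a3 := per_th1 hζ h1
  have a4 := per_th2 hζ h2
  have a5 := a3.dY
  have a6 := a4.dY
  have a7 := hζ.dX
  exact ⟨fun p => by simp only [om2, a1.1, a2.1, a3.1, a4.1, a5.1, a6.1, a7.1, hζ.1],
    fun p => by simp only [om2, a1.2, a2.2, a3.2, a4.2, a5.2, a6.2, a7.2, hζ.2]⟩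

end per

/-- Gauss-Bonnet for the torus. -/
theorem gauss_bonnet {l u w : ℝ} (hl : 0 < l) (hw : 0 < w) {a b : ℝ × ℝ → ℝ}
    (ha : ContDiff ℝ ∞ a) (hb : ContDiff ℝ ∞ b) (hpa : LatPer l u w a) (hpb : LatPer l u w b)
    (K : ℝ × ℝ → ℝ) (hK : Continuous K) (hKpos : ∀ p, 0 < K p) (m : ℝ)
    (h : ∀ p, dX b p - dY a p = -(m * K p)) : m = 0 := by
  -- parametrisation
  let A : ℝ × ℝ →L[ℝ] ℝ × ℝ :=
    ((l • ContinuousLinearMap.fst ℝ ℝ ℝ) + (u • ContinuousLinearMap.snd ℝ ℝ ℝ)).prod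
      (w • ContinuousLinearMap.snd ℝ ℝ ℝ)
  have hA : ∀ q : ℝ × ℝ, A q = (l * q.1 + u * q.2, w * q.2) := fun q => by simp [A]
  let f : ℝ × ℝ → ℝ := fun q => u * a (A q) + w * b (A q)
  let g : ℝ × ℝ → ℝ := fun q => -(l * a (A q))
  have hAs : ContDiff ℝ ∞ (A : ℝ × ℝ → ℝ × ℝ) := A.contDiff
  have hf : ContDiff ℝ ∞ f := (contDiff_const.mul (ha.comp hAs)).add (contDiff_const.mul (hb.comp hAs))
  have hg : ContDiff ℝ ∞ g := (contDiff_const.mul (ha.comp hAs)).neg
  have hda : ∀ q v, fderiv ℝ (fun q => a (A q)) q v = fderiv ℝ a (A q) (A v) := by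
    intro q v
    have : HasFDerivAt (fun q => a (A q)) _ q :=
      ((ha.differentiable infty_ne_zero (A q)).hasFDerivAt).comp q A.hasFDerivAt
    rw [this.fderiv]; rfl
  have hdb : ∀ q v, fderiv ℝ (fun q => b (A q)) q v = fderiv ℝ b (A q) (A v) := by
    intro q v
    have : HasFDerivAt (fun q => b (A q)) _ q :=
      ((hb.differentiable infty_ne_zero (A q)).hasFDerivAt).comp q A.hasFDerivAt
    rw [this.fderiv]; rfl
  have hdf : ∀ q v, fderiv ℝ f q v = u * fderiv ℝ a (A q) (A v) + w * fderiv ℝ b (A q) (A v) := by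
    intro q v
    have d1 := ((ha.comp hAs).differentiable infty_ne_zero q).hasFDerivAt
    have d2 := ((hb.comp hAs).differentiable infty_ne_zero q).hasFDerivAt
    have : HasFDerivAt f _ q := (d1.const_mul u).add (d2.const_mul w)
    rw [this.fderiv, ← hda, ← hdb]
    simp [Function.comp_def]
  have hdg : ∀ q v, fderiv ℝ g q v = -(l * fderiv ℝ a (A q) (A v)) := by
    intro q v
    have d1 := ((ha.comp hAs).differentiable infty_ne_zero q).hasFDerivAt
    have : HasFDerivAt g _ q := (d1.const_mul l).neg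
    rw [this.fderiv, ← hda]
    simp [Function.comp_def]
  have hint : ∀ q, fderiv ℝ f q (1, 0) + fderiv ℝ g q (0, 1) = -(l * w * m * K (A q)) := by
    intro q
    have h1 := h (A q)
    rw [hdf, hdg, hA (1, 0), hA (0, 1)]
    simp only [fderiv_eq_dX_dY]
    linear_combination (l * w) * h1
  have hcont : Continuous (fun q => fderiv ℝ f q (1, 0) + fderiv ℝ g q (0, 1)) := by
    simp only [hint]
    exact (continuous_const.mul (hK.comp A.continuous)).neg
  have key := integral2_divergence_prod_of_hasFDerivAt_off_countable f g (fderiv ℝ f) (fderiv ℝ g)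
    0 0 1 1 ∅ countable_empty hf.continuous.continuousOn hg.continuous.continuousOn
    (fun q _ => (hf.differentiable infty_ne_zero q).hasFDerivAt)
    (fun q _ => (hg.differentiable infty_ne_zero q).hasFDerivAt)
    (hcont.continuousOn.integrableOn_compact (isCompact_uIcc.prod isCompact_uIcc))
  have p1 : ∀ y, f (1, y) = f (0, y) := by
    intro y
    have e : A (1, y) = A (0, y) + (l, 0) := by rw [hA, hA]; ext <;> simp; ring
    simp only [f, e, hpa.1, hpb.1]
  have p2 : ∀ x, g (x, 1) = g (x, 0) := by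
    intro x
    have e : A (x, 1) = A (x, 0) + (u, w) := by rw [hA, hA]; ext <;> simp
    simp only [g, e, hpa.2]
  simp only [p1, p2, hint, sub_self, zero_add] at key
  have hpos : 0 < ∫ x in (0:ℝ)..1, ∫ y in (0:ℝ)..1, K (A (x, y)) := by
    have hc : Continuous (fun q : ℝ × ℝ => K (A q)) := hK.comp A.continuous
    refine intervalIntegral_pos_of_pos (Continuous.intervalIntegrable ?_ _ _) (fun x => ?_) one_pos
    · exact continuous_parametric_intervalIntegral_of_continuous'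
        (f := fun x y => K (A (x, y))) hc 0 1
    · exact intervalIntegral_pos_of_pos (Continuous.intervalIntegrable
        (hc.comp (by fun_prop)) _ _) (fun y => hKpos _) one_pos
  have key2 : -(l * w * m) * (∫ x in (0:ℝ)..1, ∫ y in (0:ℝ)..1, K (A (x, y))) = 0 := by
    rw [← key, ← intervalIntegral.integral_const_mul]
    congr 1
    funext x
    rw [← intervalIntegral.integral_const_mul]
    congr 1
    funext y
    ring
  rcases mul_eq_zero.1 key2 with h3 | h3
  · have : l * w ≠ 0 := by positivity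
    have h4 : (l * w) * m = 0 := by linarith
    rcases mul_eq_zero.1 h4 with h5 | h5
    · exact absurd h5 this
    · exact h5
  · exact absurd h3 hpos.ne'

end Vale.Agent.P205
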