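import Vale.Agent.H16.Torus.Geom3

set_option autoImplicit false

open Real MeasureTheory Set intervalIntegral
open scoped ContDiff

namespace Vale.Agent.P205

/-- A continuous family of solutions of the flatness equation. -/
structure Family (l u w : ℝ) (v : ℝ × ℝ → ℝ) (ε0 : ℝ) where
  Z : ℝ → ℝ × ℝ → ℝ
  Z1 : ℝ → ℝ × ℝ → ℝ
  Z2 : ℝ → ℝ × ℝ → ℝ
  Z11 : ℝ → ℝ × ℝ → ℝ
  Z12 : ℝ → ℝ × ℝ → ℝ
  Z22 : ℝ → ℝ × ℝ → ℝ
  cZ : Continuous (fun q : ℝ × (ℝ × ℝ) => Z q.1 q.2)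
  cZ1 : Continuous (fun q : ℝ × (ℝ × ℝ) => Z1 q.1 q.2)
  cZ2 : Continuous (fun q : ℝ × (ℝ × ℝ) => Z2 q.1 q.2)
  cZ11 : Continuous (fun q : ℝ × (ℝ × ℝ) => Z11 q.1 q.2)
  cZ12 : Continuous (fun q : ℝ × (ℝ × ℝ) => Z12 q.1 q.2)
  cZ22 : Continuous (fun q : ℝ × (ℝ × ℝ) => Z22 q.1 q.2)
  zero : ∀ p, Z 0 p = 1
  smooth : ∀ ε ∈ Icc 0 ε0, ContDiff ℝ ∞ (Z ε)
  per : ∀ ε ∈ Icc 0 ε0, LatPer l u w (Z ε)
  dx : ∀ ε ∈ Icc 0 ε0, ∀ p, dX (Z ε) p = Z1 ε p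
  dy : ∀ ε ∈ Icc 0 ε0, ∀ p, dY (Z ε) p = Z2 ε p
  dxx : ∀ ε ∈ Icc 0 ε0, ∀ p, dX (dX (Z ε)) p = Z11 ε p
  dxy : ∀ ε ∈ Icc 0 ε0, ∀ p, dY (dX (Z ε)) p = Z12 ε p
  dyy : ∀ ε ∈ Icc 0 ε0, ∀ p, dY (dY (Z ε)) p = Z22 ε p
  pde : ∀ ε ∈ Icc 0 ε0, ∃ m, ∀ p, flatExpr ε (Z ε) (dX v) (dY v) p = m

theorem exists_small {l u w ε0 : ℝ} (hl : 0 < l) (hw : 0 < w) (hε0 : 0 < ε0)
    (G : ℝ → ℝ × ℝ → ℝ) (hG : Continuous (fun q : ℝ × (ℝ × ℝ) => G q.1 q.2))
    (h0 : ∀ p, G 0 p = 1) (hper : ∀ e ∈ Icc 0 ε0, LatPer l u w (G e)) :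
    ∃ ε1, 0 < ε1 ∧ ε1 ≤ ε0 ∧ ∀ e ∈ Icc 0 ε1, ∀ p, 1/2 < G e p := by
  have hopen : IsOpen {q : ℝ × (ℝ × ℝ) | 1/2 < G q.1 q.2} := isOpen_lt continuous_const hG
  obtain ⟨U, V, hU, _, h0U, hKV, hUV⟩ := generalized_tube_lemma (isCompact_singleton (x := (0:ℝ)))
    (isCompact_fundDom l u w) hopen (by
      rintro ⟨e, p⟩ ⟨he, _⟩
      simp only [mem_singleton_iff] at he
      subst he
      simp only [mem_setOf_eq, h0]
      norm_num)
  obtain ⟨r, hr, hrU⟩ := Metric.isOpen_iff.1 hU 0 (h0U rfl)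
  refine ⟨min (r/2) ε0, lt_min (by positivity) hε0, min_le_right _ _, ?_⟩
  intro e he p
  obtain ⟨q, hq, hpq⟩ := exists_mem_fundDom (u := u) hl hw p
  have he' : e ∈ Icc 0 ε0 := ⟨he.1, he.2.trans (min_le_right _ _)⟩
  rw [hpq (G e) (hper e he').1 (hper e he').2]
  have hmem : ((e, q) : ℝ × (ℝ × ℝ)) ∈ U ×ˢ V := by
    refine ⟨hrU ?_, hKV hq⟩
    rw [Metric.mem_ball, Real.dist_eq, sub_zero, abs_of_nonneg he.1]
    have := he.2.trans (min_le_left _ _)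
    linarith
  exact hUV hmem

/-- clamp -/
noncomputable def clamp (r e : ℝ) : ℝ := max 0 (min e r)

theorem clamp_mem {r : ℝ} (hr : 0 < r) (e : ℝ) : clamp r e ∈ Icc 0 r :=
  ⟨le_max_left _ _, max_le hr.le (min_le_right _ _)⟩
theorem clamp_eq {r e : ℝ} (he : e ∈ Icc 0 r) : clamp r e = e := by
  unfold clamp; rw [min_eq_left he.2, max_eq_right he.1]
theorem continuous_clamp (r : ℝ) : Continuous (clamp r) := by
  unfold clamp; fun_prop

namespace Family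
variable {l u w : ℝ} {v : ℝ × ℝ → ℝ} {ε0 : ℝ} (F : Family l u w v ε0)

noncomputable def fa (e : ℝ) (p : ℝ × ℝ) : ℝ := F.Z e p * dX v p + F.Z1 e p
noncomputable def fb (e : ℝ) (p : ℝ × ℝ) : ℝ := F.Z e p * dY v p + F.Z2 e p
noncomputable def fax (e : ℝ) (p : ℝ × ℝ) : ℝ :=
  F.Z1 e p * dX v p + F.Z e p * dX (dX v) p + F.Z11 e p
noncomputable def fay (e : ℝ) (p : ℝ × ℝ) : ℝ :=
  F.Z2 e p * dX v p + F.Z e p * dY (dX v) p + F.Z12 e p
noncomputable def fbx (e : ℝ) (p : ℝ × ℝ) : ℝ :=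
  F.Z1 e p * dY v p + F.Z e p * dX (dY v) p + F.Z12 e p
noncomputable def fby (e : ℝ) (p : ℝ × ℝ) : ℝ :=
  F.Z2 e p * dY v p + F.Z e p * dY (dY v) p + F.Z22 e p
noncomputable def fr (e : ℝ) (p : ℝ × ℝ) : ℝ := 1 - e ^ 2 * (F.fa e p ^ 2 + F.fb e p ^ 2)
noncomputable def fs (e : ℝ) (p : ℝ × ℝ) : ℝ := sqrt (F.fr e p)
noncomputable def fm (e : ℝ) (p : ℝ × ℝ) : ℝ := e ^ 2 / (1 + F.fs e p)
noncomputable def fo1 (e : ℝ) (p : ℝ × ℝ) : ℝ :=
  F.fm e p / F.fs e p * (F.fa e p * F.fbx e p - F.fb e p * F.fax e p) +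
    F.Z2 e p / (F.fs e p * F.Z e p)
noncomputable def fo2 (e : ℝ) (p : ℝ × ℝ) : ℝ :=
  F.fm e p / F.fs e p * (F.fa e p * F.fby e p - F.fb e p * F.fay e p) -
    F.Z1 e p / (F.fs e p * F.Z e p)
noncomputable def fe11 (e : ℝ) (p : ℝ × ℝ) : ℝ := (1 - F.fm e p * F.fa e p ^ 2) / F.Z e p
noncomputable def fe12 (e : ℝ) (p : ℝ × ℝ) : ℝ := -(F.fm e p * (F.fa e p * F.fb e p)) / F.Z e p
noncomputable def fe22 (e : ℝ) (p : ℝ × ℝ) : ℝ := (1 - F.fm e p * F.fb e p ^ 2) / F.Z e p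

variable (hv : ContDiff ℝ ∞ v)
include hv

theorem c_fa : Continuous (fun q : ℝ × (ℝ × ℝ) => F.fa q.1 q.2) := by
  have h1 := (smooth_dX hv).continuous
  have := F.cZ; have := F.cZ1
  unfold fa; fun_prop
theorem c_fb : Continuous (fun q : ℝ × (ℝ × ℝ) => F.fb q.1 q.2) := by
  have h1 := (smooth_dY hv).continuous
  have := F.cZ; have := F.cZ2
  unfold fb; fun_prop
theorem c_fax : Continuous (fun q : ℝ × (ℝ × ℝ) => F.fax q.1 q.2) := by
  have h1 := (smooth_dX hv).continuous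
  have h2 := (smooth_dX (smooth_dX hv)).continuous
  have := F.cZ; have := F.cZ1; have := F.cZ11
  unfold fax; fun_prop
theorem c_fay : Continuous (fun q : ℝ × (ℝ × ℝ) => F.fay q.1 q.2) := by
  have h1 := (smooth_dX hv).continuous
  have h2 := (smooth_dY (smooth_dX hv)).continuous
  have := F.cZ; have := F.cZ2; have := F.cZ12
  unfold fay; fun_prop
theorem c_fbx : Continuous (fun q : ℝ × (ℝ × ℝ) => F.fbx q.1 q.2) := by
  have h1 := (smooth_dY hv).continuous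
  have h2 := (smooth_dX (smooth_dY hv)).continuous
  have := F.cZ; have := F.cZ1; have := F.cZ12
  unfold fbx; fun_prop
theorem c_fby : Continuous (fun q : ℝ × (ℝ × ℝ) => F.fby q.1 q.2) := by
  have h1 := (smooth_dY hv).continuous
  have h2 := (smooth_dY (smooth_dY hv)).continuous
  have := F.cZ; have := F.cZ2; have := F.cZ22
  unfold fby; fun_prop
theorem c_fr : Continuous (fun q : ℝ × (ℝ × ℝ) => F.fr q.1 q.2) := by
  have := F.c_fa hv; have := F.c_fb hv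
  unfold fr; fun_prop
theorem c_fs : Continuous (fun q : ℝ × (ℝ × ℝ) => F.fs q.1 q.2) :=
  Continuous.sqrt (F.c_fr hv)
theorem c_fm : Continuous (fun q : ℝ × (ℝ × ℝ) => F.fm q.1 q.2) := by
  have := F.c_fs hv
  unfold fm
  refine Continuous.div (by fun_prop) (by fun_prop) fun q => ?_
  have : 0 ≤ F.fs q.1 q.2 := sqrt_nonneg _
  positivity
omit hv

/-- good radius -/
def Good (ε1 : ℝ) : Prop := 0 < ε1 ∧ ε1 ≤ ε0 ∧ (∀ e ∈ Icc 0 ε1, ∀ p, 1/2 < F.Z e p) ∧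
  ∀ e ∈ Icc 0 ε1, ∀ p, 1/2 < F.fr e p

variable {F} in
theorem Good.mem {ε1 e : ℝ} (h : F.Good ε1) (he : e ∈ Icc 0 ε1) : e ∈ Icc 0 ε0 :=
  ⟨he.1, he.2.trans h.2.1⟩

include hv in
theorem per_fr (hpv : LatPer l u w v) {e : ℝ} (he : e ∈ Icc 0 ε0) : LatPer l u w (F.fr e) := by
  have h1 := F.per e he
  have h2 := h1.dX
  have h3 := h1.dY
  have e2 : F.Z1 e = dX (F.Z e) := funext fun p => (F.dx e he p).symm
  have e3 : F.Z2 e = dY (F.Z e) := funext fun p => (F.dy e he p).symm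
  have h4 := hpv.dX
  have h5 := hpv.dY
  rw [← e2] at h2
  rw [← e3] at h3
  exact ⟨fun p => by simp only [fr, fa, fb, h1.1, h2.1, h3.1, h4.1, h5.1],
    fun p => by simp only [fr, fa, fb, h1.2, h2.2, h3.2, h4.2, h5.2]⟩

include hv in
theorem exists_good (hl : 0 < l) (hw : 0 < w) (hε0 : 0 < ε0) (hpv : LatPer l u w v) :
    ∃ ε1, F.Good ε1 := by
  obtain ⟨r1, h1, h2, h3⟩ := exists_small (u := u) hl hw hε0 F.Z F.cZ F.zero F.per
  obtain ⟨r2, k1, k2, k3⟩ := exists_small (u := u) hl hw hε0 F.fr (F.c_fr hv)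
    (fun p => by simp [fr]) (fun e he => F.per_fr hv hpv he)
  exact ⟨min r1 r2, lt_min h1 k1, (min_le_left _ _).trans h2,
    fun e he p => h3 e ⟨he.1, he.2.trans (min_le_left _ _)⟩ p,
    fun e he p => k3 e ⟨he.1, he.2.trans (min_le_right _ _)⟩ p⟩

variable {F} {ε1 : ℝ}

include hv in
theorem Good.geom (hg : F.Good ε1) {e : ℝ} (he : e ∈ Icc 0 ε1) :
    GeomData e (F.Z e) (dX v) (dY v) where
  hζ := F.smooth e (hg.mem he)
  hp1 := smooth_dX hv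
  hp2 := smooth_dY hv
  curl := fun p => dX_dY_comm hv p
  pos := fun p => by have := hg.2.2.1 e he p; linarith
  small := fun p => by
    have := hg.2.2.2 e he p
    unfold fr fa fb at this
    unfold tsq th1 th2
    rw [F.dx e (hg.mem he), F.dy e (hg.mem he)]
    linarith

theorem Good.th1_eq (hg : F.Good ε1) {e : ℝ} (he : e ∈ Icc 0 ε1) (p : ℝ × ℝ) :
    th1 (F.Z e) (dX v) p = F.fa e p := by
  unfold th1 fa; rw [F.dx e (hg.mem he)]
theorem Good.th2_eq (hg : F.Good ε1) {e : ℝ} (he : e ∈ Icc 0 ε1) (p : ℝ × ℝ) :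
    th2 (F.Z e) (dY v) p = F.fb e p := by
  unfold th2 fb; rw [F.dy e (hg.mem he)]
theorem Good.ss_eq (hg : F.Good ε1) {e : ℝ} (he : e ∈ Icc 0 ε1) (p : ℝ × ℝ) :
    ss e (F.Z e) (dX v) (dY v) p = F.fs e p := by
  unfold ss fs fr tsq; rw [hg.th1_eq he, hg.th2_eq he]
theorem Good.mu_eq (hg : F.Good ε1) {e : ℝ} (he : e ∈ Icc 0 ε1) (p : ℝ × ℝ) :
    mu e (F.Z e) (dX v) (dY v) p = F.fm e p := by
  unfold mu fm; rw [hg.ss_eq he]
include hv in
theorem Good.om1_eq (hg : F.Good ε1) {e : ℝ} (he : e ∈ Icc 0 ε1) (p : ℝ × ℝ) :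
    om1 e (F.Z e) (dX v) (dY v) p = F.fo1 e p := by
  have H := hg.geom hv he
  unfold om1 fo1
  rw [hg.ss_eq he, hg.mu_eq he, hg.th1_eq he, hg.th2_eq he, H.dX_th1, H.dX_th2,
    dX_dY_comm H.hζ, F.dx e (hg.mem he), F.dy e (hg.mem he), F.dxx e (hg.mem he),
    F.dxy e (hg.mem he)]
  rfl
include hv in
theorem Good.om2_eq (hg : F.Good ε1) {e : ℝ} (he : e ∈ Icc 0 ε1) (p : ℝ × ℝ) :
    om2 e (F.Z e) (dX v) (dY v) p = F.fo2 e p := by
  have H := hg.geom hv he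
  unfold om2 fo2
  rw [hg.ss_eq he, hg.mu_eq he, hg.th1_eq he, hg.th2_eq he, H.dY_th1, H.dY_th2,
    F.dx e (hg.mem he), F.dy e (hg.mem he), F.dyy e (hg.mem he),
    F.dxy e (hg.mem he)]
  rfl
theorem Good.et11_eq (hg : F.Good ε1) {e : ℝ} (he : e ∈ Icc 0 ε1) (p : ℝ × ℝ) :
    et11 e (F.Z e) (dX v) (dY v) p = F.fe11 e p := by
  unfold et11 fe11; rw [hg.mu_eq he, hg.th1_eq he]
theorem Good.et12_eq (hg : F.Good ε1) {e : ℝ} (he : e ∈ Icc 0 ε1) (p : ℝ × ℝ) :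
    et12 e (F.Z e) (dX v) (dY v) p = F.fe12 e p := by
  unfold et12 fe12; rw [hg.mu_eq he, hg.th1_eq he, hg.th2_eq he]
theorem Good.et22_eq (hg : F.Good ε1) {e : ℝ} (he : e ∈ Icc 0 ε1) (p : ℝ × ℝ) :
    et22 e (F.Z e) (dX v) (dY v) p = F.fe22 e p := by
  unfold et22 fe22; rw [hg.mu_eq he, hg.th2_eq he]

/-- continuity of clamped functions -/
theorem c_clamp {G : ℝ → ℝ × ℝ → ℝ} (hG : Continuous (fun q : ℝ × (ℝ × ℝ) => G q.1 q.2)) (r : ℝ) :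
    Continuous (fun q : ℝ × (ℝ × ℝ) => G (clamp r q.1) q.2) :=
  hG.comp (((continuous_clamp r).comp continuous_fst).prodMk continuous_snd)

theorem Good.Z_ne (hg : F.Good ε1) (e : ℝ) (p : ℝ × ℝ) : F.Z (clamp ε1 e) p ≠ 0 := by
  have := hg.2.2.1 _ (clamp_mem hg.1 e) p
  linarith
theorem Good.s_ne (hg : F.Good ε1) (e : ℝ) (p : ℝ × ℝ) : F.fs (clamp ε1 e) p ≠ 0 := by
  have := hg.2.2.2 _ (clamp_mem hg.1 e) p
  exact (sqrt_pos.2 (by linarith)).ne'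

include hv in
theorem Good.c_fo1 (hg : F.Good ε1) :
    Continuous (fun q : ℝ × (ℝ × ℝ) => F.fo1 (clamp ε1 q.1) q.2) := by
  have a1 := c_clamp (F.c_fm hv) ε1
  have a2 := c_clamp (F.c_fs hv) ε1
  have a3 := c_clamp (F.c_fa hv) ε1
  have a4 := c_clamp (F.c_fb hv) ε1
  have a5 := c_clamp (F.c_fax hv) ε1
  have a6 := c_clamp (F.c_fbx hv) ε1
  have a7 := c_clamp F.cZ2 ε1
  have a8 := c_clamp F.cZ ε1
  unfold fo1
  exact ((a1.div a2 fun q => hg.s_ne _ _).mul ((a3.mul a6).sub (a4.mul a5))).add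
    (a7.div (a2.mul a8) fun q => mul_ne_zero (hg.s_ne _ _) (hg.Z_ne _ _))
include hv in
theorem Good.c_fo2 (hg : F.Good ε1) :
    Continuous (fun q : ℝ × (ℝ × ℝ) => F.fo2 (clamp ε1 q.1) q.2) := by
  have a1 := c_clamp (F.c_fm hv) ε1
  have a2 := c_clamp (F.c_fs hv) ε1
  have a3 := c_clamp (F.c_fa hv) ε1
  have a4 := c_clamp (F.c_fb hv) ε1
  have a5 := c_clamp (F.c_fay hv) ε1
  have a6 := c_clamp (F.c_fby hv) ε1
  have a7 := c_clamp F.cZ1 ε1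
  have a8 := c_clamp F.cZ ε1
  unfold fo2
  exact ((a1.div a2 fun q => hg.s_ne _ _).mul ((a3.mul a6).sub (a4.mul a5))).sub
    (a7.div (a2.mul a8) fun q => mul_ne_zero (hg.s_ne _ _) (hg.Z_ne _ _))
include hv in
theorem Good.c_fe11 (hg : F.Good ε1) :
    Continuous (fun q : ℝ × (ℝ × ℝ) => F.fe11 (clamp ε1 q.1) q.2) := by
  have a1 := c_clamp (F.c_fm hv) ε1
  have a3 := c_clamp (F.c_fa hv) ε1
  have a8 := c_clamp F.cZ ε1
  unfold fe11
  exact (continuous_const.sub (a1.mul (a3.pow 2))).div a8 fun q => hg.Z_ne _ _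
include hv in
theorem Good.c_fe12 (hg : F.Good ε1) :
    Continuous (fun q : ℝ × (ℝ × ℝ) => F.fe12 (clamp ε1 q.1) q.2) := by
  have a1 := c_clamp (F.c_fm hv) ε1
  have a3 := c_clamp (F.c_fa hv) ε1
  have a4 := c_clamp (F.c_fb hv) ε1
  have a8 := c_clamp F.cZ ε1
  unfold fe12
  exact (a1.mul (a3.mul a4)).neg.div a8 fun q => hg.Z_ne _ _
include hv in
theorem Good.c_fe22 (hg : F.Good ε1) :
    Continuous (fun q : ℝ × (ℝ × ℝ) => F.fe22 (clamp ε1 q.1) q.2) := by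
  have a1 := c_clamp (F.c_fm hv) ε1
  have a3 := c_clamp (F.c_fb hv) ε1
  have a8 := c_clamp F.cZ ε1
  unfold fe22
  exact (continuous_const.sub (a1.mul (a3.pow 2))).div a8 fun q => hg.Z_ne _ _

variable (F)

/-- angle along a ray -/
noncomputable def ang (c : ℝ × ℝ) (e s : ℝ) : ℝ :=
  ∫ t in (0:ℝ)..s, (F.fo1 e (t • c) * c.1 + F.fo2 e (t • c) * c.2)

noncomputable def perS (c : ℝ × ℝ) (e : ℝ) : ℝ :=
  ∫ t in (0:ℝ)..1, ((cos (F.ang c e t) * F.fe11 e (t • c) - sin (F.ang c e t) * F.fe12 e (t • c)) * c.1 +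
    (cos (F.ang c e t) * F.fe12 e (t • c) - sin (F.ang c e t) * F.fe22 e (t • c)) * c.2)

noncomputable def perT (c : ℝ × ℝ) (e : ℝ) : ℝ :=
  ∫ t in (0:ℝ)..1, ((sin (F.ang c e t) * F.fe11 e (t • c) + cos (F.ang c e t) * F.fe12 e (t • c)) * c.1 +
    (sin (F.ang c e t) * F.fe12 e (t • c) + cos (F.ang c e t) * F.fe22 e (t • c)) * c.2)

variable {F}

include hv in
theorem Good.c_ang (hg : F.Good ε1) (c : ℝ × ℝ) :
    Continuous (fun q : ℝ × ℝ => F.ang c (clamp ε1 q.1) q.2) := by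
  unfold ang
  have h1 := hg.c_fo1 hv
  have h2 := hg.c_fo2 hv
  have : Continuous (Function.uncurry fun (e t : ℝ) =>
      F.fo1 (clamp ε1 e) (t • c) * c.1 + F.fo2 (clamp ε1 e) (t • c) * c.2) := by
    have g : Continuous (fun q : ℝ × ℝ => ((q.1, q.2 • c) : ℝ × (ℝ × ℝ))) := by fun_prop
    exact ((h1.comp g).mul continuous_const).add ((h2.comp g).mul continuous_const)
  exact continuous_parametric_primitive_of_continuous (f := fun (e t : ℝ) =>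
      F.fo1 (clamp ε1 e) (t • c) * c.1 + F.fo2 (clamp ε1 e) (t • c) * c.2) (a₀ := 0) this

include hv in
theorem Good.c_perS (hg : F.Good ε1) (c : ℝ × ℝ) :
    Continuous (fun e : ℝ => F.perS c (clamp ε1 e)) := by
  unfold perS
  have h0 := hg.c_ang hv c
  have g : Continuous (fun q : ℝ × ℝ => ((q.1, q.2 • c) : ℝ × (ℝ × ℝ))) := by fun_prop
  have h1 := (hg.c_fe11 hv).comp g
  have h2 := (hg.c_fe12 hv).comp g
  have h3 := (hg.c_fe22 hv).comp g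
  refine continuous_parametric_intervalIntegral_of_continuous' (f := fun (e t : ℝ) => _) ?_ 0 1
  exact ((((continuous_cos.comp h0).mul h1).sub ((continuous_sin.comp h0).mul h2)).mul
    continuous_const).add ((((continuous_cos.comp h0).mul h2).sub
      ((continuous_sin.comp h0).mul h3)).mul continuous_const)

include hv in
theorem Good.c_perT (hg : F.Good ε1) (c : ℝ × ℝ) :
    Continuous (fun e : ℝ => F.perT c (clamp ε1 e)) := by
  unfold perT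
  have h0 := hg.c_ang hv c
  have g : Continuous (fun q : ℝ × ℝ => ((q.1, q.2 • c) : ℝ × (ℝ × ℝ))) := by fun_prop
  have h1 := (hg.c_fe11 hv).comp g
  have h2 := (hg.c_fe12 hv).comp g
  have h3 := (hg.c_fe22 hv).comp g
  refine continuous_parametric_intervalIntegral_of_continuous' (f := fun (e t : ℝ) => _) ?_ 0 1
  exact ((((continuous_sin.comp h0).mul h1).add ((continuous_cos.comp h0).mul h2)).mul
    continuous_const).add ((((continuous_sin.comp h0).mul h2).add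
      ((continuous_cos.comp h0).mul h3)).mul continuous_const)

end Family

/-- derivative along a ray -/
theorem hasDerivAt_ray {f : ℝ × ℝ → ℝ} (hf : ContDiff ℝ ∞ f) (c : ℝ × ℝ) (t : ℝ) :
    HasDerivAt (fun t : ℝ => f (t • c)) (dX f (t • c) * c.1 + dY f (t • c) * c.2) t := by
  have h1 := (hf.differentiable infty_ne_zero (t • c)).hasFDerivAt
  have h2 : HasDerivAt (fun t : ℝ => t • c) c t := by
    simpa using (hasDerivAt_id t).smul_const c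
  have h3 := h1.comp_hasDerivAt_of_eq t h2 rfl
  rw [fderiv_eq_dX_dY] at h3
  exact h3

theorem ray_integral {f : ℝ × ℝ → ℝ} (hf : ContDiff ℝ ∞ f) (hf0 : f 0 = 0) (c : ℝ × ℝ) (s : ℝ)
    {G : ℝ → ℝ} (hG : ∀ t, dX f (t • c) * c.1 + dY f (t • c) * c.2 = G t) :
    f (s • c) = ∫ t in (0:ℝ)..s, G t := by
  have hc : Continuous (fun t : ℝ => dX f (t • c) * c.1 + dY f (t • c) * c.2) := by
    have h1 := (smooth_dX hf).continuous
    have h2 := (smooth_dY hf).continuous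
    fun_prop
  have h := integral_eq_sub_of_hasDerivAt (fun t _ => hasDerivAt_ray hf c t)
    (hc.intervalIntegrable 0 s)
  simp only [zero_smul, hf0, sub_zero] at h
  rw [← h]
  congr 1
  funext t
  exact hG t

end Vale.Agent.P205
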