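import Vale.Agent.H16.Torus.Geom4

set_option autoImplicit false

open Real MeasureTheory Set intervalIntegral
open scoped ContDiff

namespace Vale.Agent.P205

namespace Family
variable {l u w : ℝ} {v : ℝ × ℝ → ℝ} {ε0 : ℝ} {F : Family l u w v ε0}

theorem Z1_zero (hε0 : 0 < ε0) (p : ℝ × ℝ) : F.Z1 0 p = 0 := by
  have h : F.Z 0 = fun _ => 1 := funext F.zero
  rw [← F.dx 0 ⟨le_rfl, hε0.le⟩ p, h]; simp [dX]
theorem Z2_zero (hε0 : 0 < ε0) (p : ℝ × ℝ) : F.Z2 0 p = 0 := by
  have h : F.Z 0 = fun _ => 1 := funext F.zero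
  rw [← F.dy 0 ⟨le_rfl, hε0.le⟩ p, h]; simp [dY]
theorem fm_zero (p : ℝ × ℝ) : F.fm 0 p = 0 := by simp [fm]
theorem fo1_zero (hε0 : 0 < ε0) (p : ℝ × ℝ) : F.fo1 0 p = 0 := by
  simp [fo1, fm_zero, Z2_zero hε0]
theorem fo2_zero (hε0 : 0 < ε0) (p : ℝ × ℝ) : F.fo2 0 p = 0 := by
  simp [fo2, fm_zero, Z1_zero hε0]
theorem fe11_zero (p : ℝ × ℝ) : F.fe11 0 p = 1 := by simp [fe11, fm_zero, F.zero]
theorem fe12_zero (p : ℝ × ℝ) : F.fe12 0 p = 0 := by simp [fe12, fm_zero]
theorem fe22_zero (p : ℝ × ℝ) : F.fe22 0 p = 1 := by simp [fe22, fm_zero, F.zero]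
theorem ang_zero (hε0 : 0 < ε0) (c : ℝ × ℝ) (s : ℝ) : F.ang c 0 s = 0 := by
  simp [ang, fo1_zero hε0, fo2_zero hε0]
theorem perS_zero (hε0 : 0 < ε0) (c : ℝ × ℝ) : F.perS c 0 = c.1 := by
  simp [perS, ang_zero hε0, fe11_zero, fe12_zero, fe22_zero]
theorem perT_zero (hε0 : 0 < ε0) (c : ℝ × ℝ) : F.perT c 0 = c.2 := by
  simp [perT, ang_zero hε0, fe11_zero, fe12_zero, fe22_zero]

/-- The final geometric construction from a family of solutions. -/
theorem final (hl : 0 < l) (hw : 0 < w) (hv : ContDiff ℝ ∞ v) (hpv : LatPer l u w v)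
    (hε0 : 0 < ε0) (F : Family l u w v ε0) :
    ∃ (R S T : ℝ × ℝ → ℝ) (N : ℤ) (L τ : ℝ), ContDiff ℝ ∞ R ∧ ContDiff ℝ ∞ S ∧ ContDiff ℝ ∞ T ∧
      2 * π ≤ L ∧ LatPer l u w R ∧
      (∀ p, S (p + (l, 0)) = S p) ∧ (∀ p, S (p + (u, w)) = S p - L) ∧
      (∀ p, T (p + (l, 0)) = T p + N * (2 * π)) ∧ (∀ p, T (p + (u, w)) = T p + τ) ∧
      ∀ p a b, exp (2 * v p) * (a.1 * b.1 + a.2 * b.2) = fderiv ℝ R p a * fderiv ℝ R p b +
        R p ^ 2 * (fderiv ℝ S p a * fderiv ℝ S p b + fderiv ℝ T p a * fderiv ℝ T p b) := by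
  obtain ⟨ε1, hg⟩ := F.exists_good hv hl hw hε0 hpv
  -- period functions
  set c1 : ℝ × ℝ := (l, 0) with hc1
  set c2 : ℝ × ℝ := (u, w) with hc2
  let b : ℝ → ℝ := fun e => sqrt (F.perS c1 (clamp ε1 e) ^ 2 + F.perT c1 (clamp ε1 e) ^ 2)
  let J : ℝ → ℝ := fun e => F.perS c1 (clamp ε1 e) * F.perT c2 (clamp ε1 e) -
    F.perT c1 (clamp ε1 e) * F.perS c2 (clamp ε1 e)
  have hb : Continuous b := Continuous.sqrt (((hg.c_perS hv c1).pow 2).add ((hg.c_perT hv c1).pow 2))
  have hJ : Continuous J := ((hg.c_perS hv c1).mul (hg.c_perT hv c2)).sub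
    ((hg.c_perT hv c1).mul (hg.c_perS hv c2))
  have hcl0 : clamp ε1 0 = 0 := clamp_eq ⟨le_rfl, hg.1.le⟩
  have hb0 : b 0 = l := by
    simp only [b, hcl0, perS_zero hε0, perT_zero hε0, hc1]
    rw [show l ^ 2 + (0:ℝ) ^ 2 = l ^ 2 by ring, sqrt_sq hl.le]
  have hJ0 : J 0 = l * w := by
    simp only [J, hcl0, perS_zero hε0, perT_zero hε0, hc1, hc2]
    ring
  have hopen : IsOpen {e : ℝ | b e < 2 * l ∧ l * w / 2 < J e} :=
    (isOpen_lt hb continuous_const).inter (isOpen_lt continuous_const hJ)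
  have hlw : 0 < l * w := by positivity
  obtain ⟨r, hr, hrU⟩ := Metric.isOpen_iff.1 hopen 0
    (show b 0 < 2 * l ∧ l * w / 2 < J 0 by rw [hb0, hJ0]; constructor <;> linarith)
  have hpi := pi_pos
  obtain ⟨ε2, hε2, hε2r, hε21, hε2w⟩ : ∃ ε2, 0 < ε2 ∧ ε2 < r ∧ ε2 ≤ ε1 ∧ ε2 ≤ w / (8 * π) :=
    ⟨min (r / 2) (min ε1 (w / (8 * π))), lt_min (by positivity) (lt_min hg.1 (by positivity)),
      lt_of_le_of_lt (min_le_left _ _) (by linarith),
      (min_le_right _ _).trans (min_le_left _ _), (min_le_right _ _).trans (min_le_right _ _)⟩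
  obtain ⟨N, hN⟩ := exists_nat_ge (b ε2 / (2 * π * ε2))
  have hφ : Continuous (fun e => b e - 2 * π * N * e) := hb.sub (continuous_const.mul continuous_id)
  have hivt := intermediate_value_Icc' (f := fun e => b e - 2 * π * N * e) hε2.le hφ.continuousOn
  have hφ2 : b ε2 - 2 * π * N * ε2 ≤ 0 := by
    rw [div_le_iff₀ (by positivity)] at hN
    linarith
  obtain ⟨e, he, hφe⟩ := hivt (show (0:ℝ) ∈ Icc _ _ from ⟨hφ2, by simp only [hb0]; linarith⟩)
  simp only at hφe
  have he0 : 0 < e := by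
    rcases he.1.lt_or_eq with h | h
    · exact h
    · rw [← h, hb0] at hφe
      simp at hφe
      exact absurd hφe hl.ne'
  have heε1 : e ∈ Icc 0 ε1 := ⟨he.1, he.2.trans hε21⟩
  have hcle : clamp ε1 e = e := clamp_eq heε1
  have hmem : e ∈ {e : ℝ | b e < 2 * l ∧ l * w / 2 < J e} := hrU (by
    rw [Metric.mem_ball, Real.dist_eq, sub_zero, abs_of_pos he0]
    linarith [he.2])
  obtain ⟨hbe, hJe⟩ := hmem
  have hbN : b e = 2 * π * N * e := by linarith
  -- develop
  have H := hg.geom hv heε1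
  obtain ⟨m, hm⟩ := F.pde e (hg.mem heε1)
  obtain ⟨ϑ, S, T, hϑ, hS, hT, hϑ0, hS0, hT0, hdϑ, hdS, hdT, hS1, hS2, hT1, hT2⟩ :=
    develop hl hw H (F.per e (hg.mem heε1)) hpv.dX hpv.dY m hm
  have hang : ∀ (c : ℝ × ℝ) (t : ℝ), ϑ (t • c) = F.ang c e t := by
    intro c t
    refine ray_integral hϑ hϑ0 c t fun t => ?_
    rw [(hdϑ _).1, (hdϑ _).2, hg.om1_eq hv heε1, hg.om2_eq hv heε1]
  have hSc : ∀ c : ℝ × ℝ, S c = F.perS c e := by
    intro c
    have := ray_integral hS hS0 c 1 (G := fun t => ((cos (F.ang c e t) * F.fe11 e (t • c) -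
      sin (F.ang c e t) * F.fe12 e (t • c)) * c.1 +
      (cos (F.ang c e t) * F.fe12 e (t • c) - sin (F.ang c e t) * F.fe22 e (t • c)) * c.2))
      fun t => by
        rw [(hdS _).1, (hdS _).2, hg.et11_eq heε1, hg.et12_eq heε1, hg.et22_eq heε1, hang]
    rw [one_smul] at this
    exact this
  have hTc : ∀ c : ℝ × ℝ, T c = F.perT c e := by
    intro c
    have := ray_integral hT hT0 c 1 (G := fun t => ((sin (F.ang c e t) * F.fe11 e (t • c) +
      cos (F.ang c e t) * F.fe12 e (t • c)) * c.1 +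
      (sin (F.ang c e t) * F.fe12 e (t • c) + cos (F.ang c e t) * F.fe22 e (t • c)) * c.2))
      fun t => by
        rw [(hdT _).1, (hdT _).2, hg.et11_eq heε1, hg.et12_eq heε1, hg.et22_eq heε1, hang]
    rw [one_smul] at this
    exact this
  have hbe2 : b e ^ 2 = S c1 ^ 2 + T c1 ^ 2 := by
    simp only [b, hcle, ← hSc, ← hTc]
    exact sq_sqrt (by positivity)
  have hJe2 : J e = S c1 * T c2 - T c1 * S c2 := by
    simp only [J, hcle, ← hSc, ← hTc]
  have hNpos : (0:ℝ) < N := by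
    by_contra h
    push Not at h
    have h0 : (N:ℝ) = 0 := le_antisymm h (Nat.cast_nonneg N)
    rw [h0] at hbN
    have hb00 : b e = 0 := by rw [hbN]; ring
    have h1 : S c1 ^ 2 + T c1 ^ 2 = 0 := by rw [← hbe2, hb00]; ring
    have h2 : S c1 = 0 := by
      have : S c1 ^ 2 = 0 := le_antisymm (by nlinarith [sq_nonneg (T c1)]) (sq_nonneg _)
      exact pow_eq_zero_iff two_ne_zero |>.1 this
    have h3 : T c1 = 0 := by
      have : T c1 ^ 2 = 0 := le_antisymm (by nlinarith [sq_nonneg (S c1)]) (sq_nonneg _)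
      exact pow_eq_zero_iff two_ne_zero |>.1 this
    rw [hJe2, h2, h3] at hJe
    simp at hJe
    linarith
  have hbpos : 0 < b e := by rw [hbN]; positivity
  have hbe' : b e * e ≠ 0 := by positivity
  -- rotated and scaled coordinates
  let S' : ℝ × ℝ → ℝ := fun p => (T c1 * S p - S c1 * T p) / (b e * e)
  let T' : ℝ × ℝ → ℝ := fun p => (S c1 * S p + T c1 * T p) / (b e * e)
  let R : ℝ × ℝ → ℝ := fun p => e * (exp (v p) * F.Z e p)
  have hZs := F.smooth e (hg.mem heε1)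
  have hR : ContDiff ℝ ∞ R := contDiff_const.mul (hv.exp.mul hZs)
  have hS' : ContDiff ℝ ∞ S' :=
    ((contDiff_const.mul hS).sub (contDiff_const.mul hT)).div_const _
  have hT' : ContDiff ℝ ∞ T' :=
    ((contDiff_const.mul hS).add (contDiff_const.mul hT)).div_const _
  have hZp := F.per e (hg.mem heε1)
  refine ⟨R, S', T', N, J e / (b e * e), (S c1 * S c2 + T c1 * T c2) / (b e * e), hR, hS', hT',
    ?_, ?_, ?_, ?_, ?_, ?_, ?_⟩
  · rw [le_div_iff₀ (by positivity)]
    have h1 : 2 * π * (b e * e) ≤ 2 * π * (2 * l * (w / (8 * π))) := by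
      have : e ≤ w / (8 * π) := he.2.trans hε2w
      gcongr
    have h2 : 2 * π * (2 * l * (w / (8 * π))) = l * w / 2 := by field_simp; ring
    linarith
  · exact ⟨fun p => by simp only [R, hpv.1, hZp.1], fun p => by simp only [R, hpv.2, hZp.2]⟩
  · intro p
    simp only [S']
    rw [hS1, hT1]
    congr 1
    ring
  · intro p
    simp only [S']
    rw [hS2, hT2, hJe2, ← sub_div]
    congr 1
    ring
  · intro p
    simp only [T']
    rw [hS1, hT1]
    have h1 : (S c1 * (S p + S c1) + T c1 * (T p + T c1)) =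
      (S c1 * S p + T c1 * T p) + b e ^ 2 := by rw [hbe2]; ring
    rw [h1, add_div]
    congr 1
    have h2 : b e ^ 2 / (b e * e) = b e / e := by field_simp
    rw [h2, hbN]
    push_cast
    field_simp
  · intro p
    simp only [T']
    rw [hS2, hT2, ← add_div]
    congr 1
    ring
  · intro p x y
    have hx : ∀ f : ℝ × ℝ → ℝ, ∀ a : ℝ × ℝ, fderiv ℝ f p a = dX f p * a.1 + dY f p * a.2 :=
      fun f a => fderiv_eq_dX_dY p a
    have rx : dX R p = e * exp (v p) * th1 (F.Z e) (dX v) p := by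
      have : dX R p = _ := dX_eq hR (((hasDX hv p).exp.mul (hasDX hZs p)).const_mul e)
      rw [this]; unfold th1; simp only [Prod.mk.eta]; ring
    have ry : dY R p = e * exp (v p) * th2 (F.Z e) (dY v) p := by
      have : dY R p = _ := dY_eq hR (((hasDY hv p).exp.mul (hasDY hZs p)).const_mul e)
      rw [this]; unfold th2; simp only [Prod.mk.eta]; ring
    have sx : dX S' p = (T c1 * dX S p - S c1 * dX T p) / (b e * e) :=
      dX_eq hS' ((((hasDX hS p).const_mul _).sub ((hasDX hT p).const_mul _)).div_const _)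
    have sy : dY S' p = (T c1 * dY S p - S c1 * dY T p) / (b e * e) :=
      dY_eq hS' ((((hasDY hS p).const_mul _).sub ((hasDY hT p).const_mul _)).div_const _)
    have tx : dX T' p = (S c1 * dX S p + T c1 * dX T p) / (b e * e) :=
      dX_eq hT' ((((hasDX hS p).const_mul _).add ((hasDX hT p).const_mul _)).div_const _)
    have ty : dY T' p = (S c1 * dY S p + T c1 * dY T p) / (b e * e) :=
      dY_eq hT' ((((hasDY hS p).const_mul _).add ((hasDY hT p).const_mul _)).div_const _)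
    rw [hx R, hx R, hx S', hx S', hx T', hx T', rx, ry, sx, sy, tx, ty]
    have key1 : ∀ P Q P' Q' : ℝ, ((T c1 * P - S c1 * Q) / (b e * e)) *
        ((T c1 * P' - S c1 * Q') / (b e * e)) + ((S c1 * P + T c1 * Q) / (b e * e)) *
        ((S c1 * P' + T c1 * Q') / (b e * e)) = (P * P' + Q * Q') / e ^ 2 := by
      intro P Q P' Q'
      have hbn := hbpos.ne'
      have h1 : ((T c1 * P - S c1 * Q) / (b e * e)) *
        ((T c1 * P' - S c1 * Q') / (b e * e)) + ((S c1 * P + T c1 * Q) / (b e * e)) *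
        ((S c1 * P' + T c1 * Q') / (b e * e)) =
        ((S c1 ^ 2 + T c1 ^ 2) * (P * P' + Q * Q')) / (b e ^ 2 * e ^ 2) := by
        field_simp
        ring
      rw [h1, ← hbe2]
      field_simp
    have key2 : ((T c1 * dX S p - S c1 * dX T p) / (b e * e) * x.1 +
        (T c1 * dY S p - S c1 * dY T p) / (b e * e) * x.2) *
        ((T c1 * dX S p - S c1 * dX T p) / (b e * e) * y.1 +
        (T c1 * dY S p - S c1 * dY T p) / (b e * e) * y.2) +
        ((S c1 * dX S p + T c1 * dX T p) / (b e * e) * x.1 +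
        (S c1 * dY S p + T c1 * dY T p) / (b e * e) * x.2) *
        ((S c1 * dX S p + T c1 * dX T p) / (b e * e) * y.1 +
        (S c1 * dY S p + T c1 * dY T p) / (b e * e) * y.2) =
        ((dX S p * x.1 + dY S p * x.2) * (dX S p * y.1 + dY S p * y.2) +
        (dX T p * x.1 + dY T p * x.2) * (dX T p * y.1 + dY T p * y.2)) / e ^ 2 := by
      rw [← key1 (dX S p * x.1 + dY S p * x.2) (dX T p * x.1 + dY T p * x.2)
        (dX S p * y.1 + dY S p * y.2) (dX T p * y.1 + dY T p * y.2)]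
      ring
    rw [key2, (hdS p).1, (hdS p).2, (hdT p).1, (hdT p).2]
    have hsc := sin_sq_add_cos_sq (ϑ p)
    have hZ0 := (H.pos p).ne'
    set C := cos (ϑ p)
    set D := sin (ϑ p)
    have key3 : ∀ A B E : ℝ, ((C * A - D * B) * x.1 + (C * B - D * E) * x.2) *
        ((C * A - D * B) * y.1 + (C * B - D * E) * y.2) +
        ((D * A + C * B) * x.1 + (D * B + C * E) * x.2) *
        ((D * A + C * B) * y.1 + (D * B + C * E) * y.2) =
        (A * x.1 + B * x.2) * (A * y.1 + B * y.2) + (B * x.1 + E * x.2) * (B * y.1 + E * y.2) := by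
      intro A B E
      linear_combination ((A * x.1 + B * x.2) * (A * y.1 + B * y.2) +
        (B * x.1 + E * x.2) * (B * y.1 + E * y.2)) * hsc
    rw [key3]
    -- now the coframe
    have hmu1 := H.mu_tsq p
    have hmu2 := H.mu_mul p
    have hexp : exp (2 * v p) = exp (v p) ^ 2 := by rw [← exp_nat_mul]; norm_num
    unfold et11 et12 et22
    rw [hexp]
    simp only [R]
    unfold tsq at hmu1
    generalize hM : mu e (F.Z e) (dX v) (dY v) p = M at *
    generalize hA : th1 (F.Z e) (dX v) p = A at *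
    generalize hB : th2 (F.Z e) (dY v) p = B at *
    generalize hZ : F.Z e p = Z at *
    generalize hs : ss e (F.Z e) (dX v) (dY v) p = s at *
    have hs' : s = 1 - M * (A ^ 2 + B ^ 2) := by linarith
    have he2 : e ^ 2 = M * (2 - M * (A ^ 2 + B ^ 2)) := by rw [← hmu2, hs']; ring
    have key4 : (e * (exp (v p) * Z)) ^ 2 *
        ((((1 - M * A ^ 2) / Z * x.1 + -(M * (A * B)) / Z * x.2) *
          ((1 - M * A ^ 2) / Z * y.1 + -(M * (A * B)) / Z * y.2) +
        (-(M * (A * B)) / Z * x.1 + (1 - M * B ^ 2) / Z * x.2) *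
          (-(M * (A * B)) / Z * y.1 + (1 - M * B ^ 2) / Z * y.2)) / e ^ 2) =
        exp (v p) ^ 2 * (((1 - M * A ^ 2) * x.1 + -(M * (A * B)) * x.2) *
          ((1 - M * A ^ 2) * y.1 + -(M * (A * B)) * y.2) +
        (-(M * (A * B)) * x.1 + (1 - M * B ^ 2) * x.2) *
          (-(M * (A * B)) * y.1 + (1 - M * B ^ 2) * y.2)) := by
      field_simp
    rw [key4]
    linear_combination (-(exp (v p) ^ 2 * (A * x.1 + B * x.2) * (A * y.1 + B * y.2))) * he2

end Family

end Vale.Agent.P205
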