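import Vale.Agent.H16.Torus.Geom3

set_option autoImplicit false

open MeasureTheory Set Filter Topology
open scoped ContDiff ENNReal unitInterval

namespace Vale.Agent.P205

/-- A local homeomorphism of the plane that lifts all rays from a base point is a homeomorphism. -/
theorem homeo_of_rays {D : ℝ × ℝ → ℝ × ℝ} (hloc : IsLocalHomeomorph D)
    (hpath : ∀ c : ℝ × ℝ, ∃ α : ℝ → ℝ × ℝ, ContinuousOn α (Icc 0 1) ∧ α 0 = 0 ∧
      ∀ t ∈ Icc (0:ℝ) 1, D (α t) = D 0 + t • c) :
    ∃ h : (ℝ × ℝ) ≃ₜ (ℝ × ℝ), ∀ p, h p = D p := by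
  have hsep : IsSeparatedMap D := T2Space.isSeparatedMap D
  have hDc : Continuous D := hloc.continuous
  choose α hα hα0 hαD using hpath
  have hcr : ∀ c, Continuous (fun x : I => α c x) := fun c =>
    continuousOn_iff_continuous_domRestrict.1 (hα c)
  let g : I × (ℝ × ℝ) → ℝ × ℝ := fun x => α x.2 x.1
  let f : C(I × (ℝ × ℝ), ℝ × ℝ) := ⟨fun x => D 0 + (x.1 : ℝ) • x.2, by fun_prop⟩
  have hg : Continuous g := by
    refine hloc.continuous_lift hsep f (g := g) ?_ ?_ ?_
    · funext x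
      exact hαD x.2 x.1 x.1.2
    · have : (fun x : ℝ × ℝ => g (0, x)) = fun _ => 0 := by
        funext x
        exact hα0 x
      rw [this]; exact continuous_const
    · exact hcr
  have hα00 : α 0 1 = 0 := by
    have h1 := hsep.eq_of_comp_eq hloc.isLocallyInjective (hcr 0)
      (continuous_const (y := (0 : ℝ × ℝ))) (by
        funext x
        have := hαD 0 x x.2
        simp only [smul_zero, add_zero] at this
        exact this) (0 : I) (hα0 0)
    exact congrFun h1 (1 : I)
  let E : ℝ × ℝ → ℝ × ℝ := fun x => g (1, x - D 0)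
  have hE : Continuous E := hg.comp (by fun_prop)
  have hDE : ∀ x, D (E x) = x := by
    intro x
    have := hαD (x - D 0) 1 ⟨zero_le_one, le_rfl⟩
    rw [one_smul, add_sub_cancel] at this
    exact this
  have hED : E ∘ D = id := by
    refine hsep.eq_of_comp_eq hloc.isLocallyInjective (hE.comp hDc) continuous_id ?_ 0 ?_
    · funext x
      exact hDE (D x)
    · change g (1, D 0 - D 0) = 0
      rw [sub_self]
      exact hα00
  exact ⟨⟨⟨D, E, fun x => congrFun hED x, hDE⟩, hDc, hE⟩, fun p => rfl⟩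

/-- Existence of integral curves on `[0,1]` for a bounded smooth vector field. -/
theorem exists_integral_curve {v : ℝ × ℝ → ℝ × ℝ} (hv : ContDiff ℝ ∞ v) {M : ℝ}
    (hM : ∀ x, ‖v x‖ ≤ M) : ∃ α : ℝ → ℝ × ℝ, α 0 = 0 ∧
      ∀ t ∈ Icc (0:ℝ) 1, HasDerivWithinAt α (v (α t)) (Icc 0 1) t := by
  have hM0 : 0 ≤ M := (norm_nonneg _).trans (hM 0)
  obtain ⟨K, hK⟩ := (hv.contDiffOn (s := Metric.closedBall (0 : ℝ × ℝ) M)).exists_lipschitzOnWith
    infty_ne_zero (convex_closedBall _ _) (isCompact_closedBall _ _)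
  have hPL : IsPicardLindelof (fun _ => v) (tmin := 0) (tmax := 1) ⟨0, ⟨le_rfl, zero_le_one⟩⟩
      (0 : ℝ × ℝ) ⟨M, hM0⟩ 0 ⟨M, hM0⟩ K := by
    constructor
    · intro t _; exact hK
    · intro x _; exact continuousOn_const
    · intro t _ x _; exact hM x
    · simp
  exact hPL.exists_eq_forall_mem_Icc_hasDerivWithinAt₀

/-- Global inverse function theorem for maps of the plane with periodic derivative. -/
theorem global_diffeo {S T : ℝ × ℝ → ℝ} (hS : ContDiff ℝ ∞ S) (hT : ContDiff ℝ ∞ T)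
    (hdet : ∀ p, dX S p * dY T p - dY S p * dX T p ≠ 0)
    (pSx : LatPer 1 0 1 (dX S)) (pSy : LatPer 1 0 1 (dY S))
    (pTx : LatPer 1 0 1 (dX T)) (pTy : LatPer 1 0 1 (dY T)) :
    ∃ h : (ℝ × ℝ) ≃ₜ (ℝ × ℝ), (∀ p, h p = (S p, T p)) ∧ ContDiff ℝ ∞ h.symm := by
  let D : ℝ × ℝ → ℝ × ℝ := fun p => (S p, T p)
  have hD : ContDiff ℝ ∞ D := hS.prodMk hT
  -- the derivative as an equivalence
  let dt : ℝ × ℝ → ℝ := fun p => dX S p * dY T p - dY S p * dX T p
  let A : ℝ × ℝ → (ℝ × ℝ →L[ℝ] ℝ × ℝ) := fun p => (fderiv ℝ S p).prod (fderiv ℝ T p)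
  have hA : ∀ p x, A p x = (dX S p * x.1 + dY S p * x.2, dX T p * x.1 + dY T p * x.2) := by
    intro p x
    change (fderiv ℝ S p x, fderiv ℝ T p x) = _
    rw [fderiv_eq_dX_dY, fderiv_eq_dX_dY]
  let B : ℝ × ℝ → (ℝ × ℝ →L[ℝ] ℝ × ℝ) := fun p =>
    (((dY T p / dt p) • ContinuousLinearMap.fst ℝ ℝ ℝ) -
      ((dY S p / dt p) • ContinuousLinearMap.snd ℝ ℝ ℝ)).prod
    (((dX S p / dt p) • ContinuousLinearMap.snd ℝ ℝ ℝ) -
      ((dX T p / dt p) • ContinuousLinearMap.fst ℝ ℝ ℝ))
  have hB : ∀ p y, B p y = (dY T p / dt p * y.1 - dY S p / dt p * y.2,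
      dX S p / dt p * y.2 - dX T p / dt p * y.1) := by
    intro p y
    simp [B]
  let L : ℝ × ℝ → ((ℝ × ℝ) ≃L[ℝ] (ℝ × ℝ)) := fun p =>
    ContinuousLinearEquiv.equivOfInverse (A p) (B p)
      (fun x => by
        rw [hB, hA]
        have := hdet p
        change dt p ≠ 0 at this
        ext
        · simp only
          field_simp
          simp only [dt]; ring
        · simp only
          field_simp
          simp only [dt]; ring)
      (fun y => by
        rw [hA, hB]
        have := hdet p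
        change dt p ≠ 0 at this
        ext
        · simp only
          field_simp
          simp only [dt]; ring
        · simp only
          field_simp
          simp only [dt]; ring)
  have hL : ∀ p, HasFDerivAt D (L p : ℝ × ℝ →L[ℝ] ℝ × ℝ) p := fun p =>
    (hS.differentiable infty_ne_zero p).hasFDerivAt.prodMk
      (hT.differentiable infty_ne_zero p).hasFDerivAt
  have hloc : IsLocalHomeomorph D := fun p =>
    ⟨hD.contDiffAt.toOpenPartialHomeomorph D (hL p) infty_ne_zero,
      hD.contDiffAt.mem_toOpenPartialHomeomorph_source (hL p) infty_ne_zero, rfl⟩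
  have hdt : ContDiff ℝ ∞ dt :=
    ((smooth_dX hS).mul (smooth_dY hT)).sub ((smooth_dY hS).mul (smooth_dX hT))
  have pdt : LatPer 1 0 1 dt := ⟨fun p => by simp only [dt, pSx.1, pSy.1, pTx.1, pTy.1],
    fun p => by simp only [dt, pSx.2, pSy.2, pTx.2, pTy.2]⟩
  obtain ⟨h, hh⟩ := homeo_of_rays hloc (fun c => by
    have hv : ContDiff ℝ ∞ (fun p => B p c) := by
      have : (fun p => B p c) = fun p => (dY T p / dt p * c.1 - dY S p / dt p * c.2,
          dX S p / dt p * c.2 - dX T p / dt p * c.1) := funext fun p => hB p c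
      rw [this]
      have q1 := (smooth_dY hT).div hdt hdet
      have q2 := (smooth_dY hS).div hdt hdet
      have q3 := (smooth_dX hS).div hdt hdet
      have q4 := (smooth_dX hT).div hdt hdet
      exact ((q1.mul contDiff_const).sub (q2.mul contDiff_const)).prodMk
        ((q3.mul contDiff_const).sub (q4.mul contDiff_const))
    have hper : (∀ p, B (p + (1, 0)) c = B p c) ∧ ∀ p, B (p + (0, 1)) c = B p c :=
      ⟨fun p => by rw [hB, hB, pSx.1, pSy.1, pTx.1, pTy.1, pdt.1],
        fun p => by rw [hB, hB, pSx.2, pSy.2, pTx.2, pTy.2, pdt.2]⟩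
    obtain ⟨M, hM⟩ := (isCompact_fundDom 1 0 1).exists_bound_of_continuousOn
      hv.continuous.continuousOn
    have hM' : ∀ p, ‖B p c‖ ≤ M := by
      intro p
      obtain ⟨q, hq, hpq⟩ := exists_mem_fundDom (u := 0) one_pos one_pos p
      rw [hpq (fun p => B p c) hper.1 hper.2]
      exact hM q hq
    obtain ⟨α, hα0, hα⟩ := exists_integral_curve hv hM'
    refine ⟨α, fun t ht => (hα t ht).continuousWithinAt, hα0, ?_⟩
    have hder : ∀ t ∈ Icc (0:ℝ) 1, HasDerivWithinAt (fun t => D (α t) - t • c) 0 (Icc 0 1) t := by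
      intro t ht
      have h1 : HasDerivWithinAt (fun t => D (α t)) ((L (α t) : ℝ × ℝ →L[ℝ] ℝ × ℝ) (B (α t) c))
          (Icc 0 1) t := (hL (α t)).comp_hasDerivWithinAt t (hα t ht)
      have h2 : (L (α t) : ℝ × ℝ →L[ℝ] ℝ × ℝ) (B (α t) c) = c :=
        (L (α t)).apply_symm_apply c
      rw [h2] at h1
      have h3 : HasDerivWithinAt (fun t : ℝ => t • c) c (Icc 0 1) t := by
        simpa using (hasDerivWithinAt_id t (Icc (0:ℝ) 1)).smul_const c
      have h4 := h1.sub h3
      rw [sub_self] at h4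
      exact h4
    have hconst := constant_of_derivWithin_zero (f := fun t => D (α t) - t • c) (a := 0) (b := 1)
      (fun t ht => (hder t ht).differentiableWithinAt) (fun t ht => by
        have ht' : t ∈ Icc (0:ℝ) 1 := ⟨ht.1, ht.2.le⟩
        exact (hder t ht').derivWithin (uniqueDiffOn_Icc zero_lt_one t ht'))
    intro t ht
    have := hconst t ht
    simp only [zero_smul, sub_zero, hα0] at this
    rw [← this]; abel)
  refine ⟨h, hh, ?_⟩
  have hhD : ⇑h = D := funext hh
  exact h.contDiff_symm (f₀' := L) (fun a => by rw [hhD]; exact hL a) (by rw [hhD]; exact hD)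

end Vale.Agent.P205
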