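import Vale.Agent.H16.Torus.Orbit

set_option autoImplicit false

open MeasureTheory Set
open scoped ContDiff ENNReal

namespace Vale.Agent.P205

theorem WA.conv_comm (a b : WA) : WA.conv a b = WA.conv b a := by
  refine WA.ext fun n => ?_
  simp only [WA.conv_apply]
  rw [← (Equiv.subLeft n).tsum_eq]
  congr 1
  funext m
  simp only [Equiv.subLeft_apply, sub_sub_cancel]
  ring

/-- square summable double sequences -/
noncomputable abbrev H2 : Type := lp (fun _ : ℤ × ℤ => ℂ) 2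

namespace H2

theorem ssq (f : H2) : Summable (fun n => ‖f n‖ ^ 2) := by
  have := (memℓp_gen_iff (by simp : 0 < (2:ℝ≥0∞).toReal)).1 (lp.memℓp f)
  simpa using this

theorem norm_sq (f : H2) : ‖f‖ ^ 2 = ∑' n, ‖f n‖ ^ 2 := by
  have := lp.norm_rpow_eq_tsum (by simp : 0 < (2:ℝ≥0∞).toReal) f
  simpa using this

theorem apply_le (f : H2) (n : ℤ × ℤ) : ‖f n‖ ≤ ‖f‖ := by
  have h1 : ‖f n‖ ^ 2 ≤ ‖f‖ ^ 2 := by
    rw [norm_sq]
    exact (ssq f).le_tsum n fun _ _ => by positivity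
  exact abs_le_of_sq_le_sq' h1 (norm_nonneg _) |>.2

def mk (c : ℤ × ℤ → ℂ) (h : Summable fun n => ‖c n‖ ^ 2) : H2 :=
  ⟨c, memℓp_gen (by simpa using h)⟩

@[simp] theorem mk_apply (c : ℤ × ℤ → ℂ) (h : Summable fun n => ‖c n‖ ^ 2) (n : ℤ × ℤ) :
    (mk c h) n = c n := rfl

theorem ext {a b : H2} (h : ∀ n, a n = b n) : a = b := lp.ext (funext h)

@[simp] theorem add_apply (a b : H2) (n : ℤ × ℤ) : (a + b) n = a n + b n := rfl
@[simp] theorem sub_apply (a b : H2) (n : ℤ × ℤ) : (a - b) n = a n - b n := rfl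
@[simp] theorem neg_apply (a : H2) (n : ℤ × ℤ) : (-a) n = -a n := rfl
@[simp] theorem zero_apply (n : ℤ × ℤ) : (0 : H2) n = 0 := rfl
@[simp] theorem smul_apply (r : ℝ) (a : H2) (n : ℤ × ℤ) : (r • a) n = r • a n := rfl

/-- coordinate functional -/
noncomputable def coord (n : ℤ × ℤ) : H2 →L[ℝ] ℂ :=
  LinearMap.mkContinuous
    { toFun := fun a => a n, map_add' := fun _ _ => rfl, map_smul' := fun _ _ => rfl } 1
    fun a => by rw [one_mul]; exact apply_le a n

@[simp] theorem coord_apply (n : ℤ × ℤ) (a : H2) : coord n a = a n := rfl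

theorem wop_summable (σ : ℤ × ℤ → ℂ) (e : ℤ × ℤ ≃ ℤ × ℤ) (C : ℝ) (h : ∀ n, ‖σ n‖ ≤ C) (f : H2) :
    Summable (fun n => ‖σ n * f (e n)‖ ^ 2) := by
  have h1 : Summable (fun n => C ^ 2 * ‖f (e n)‖ ^ 2) :=
    (e.summable_iff.2 (ssq f)).mul_left (C ^ 2)
  refine Summable.of_nonneg_of_le (fun _ => by positivity) (fun n => ?_) h1
  rw [norm_mul, mul_pow]
  exact mul_le_mul_of_nonneg_right (pow_le_pow_left₀ (norm_nonneg _) (h n) 2) (by positivity)

/-- weighted reindexing operator -/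
noncomputable def wop (σ : ℤ × ℤ → ℂ) (e : ℤ × ℤ ≃ ℤ × ℤ) (C : ℝ) (h : ∀ n, ‖σ n‖ ≤ C) :
    H2 →L[ℝ] H2 :=
  LinearMap.mkContinuous
    { toFun := fun f => mk (fun n => σ n * f (e n)) (wop_summable σ e C h f)
      map_add' := fun a b => ext fun n => by simp [mul_add]
      map_smul' := fun r a => ext fun n => by simp; ring } C
    fun f => by
      have hC : 0 ≤ C := (norm_nonneg _).trans (h 0)
      have h1 : Summable (fun n => C ^ 2 * ‖f (e n)‖ ^ 2) :=
        (e.summable_iff.2 (ssq f)).mul_left (C ^ 2)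
      refine abs_le_of_sq_le_sq' ?_ (by positivity) |>.2
      change ‖mk _ (wop_summable σ e C h f)‖ ^ 2 ≤ _
      rw [mul_pow, norm_sq, norm_sq f, ← e.tsum_eq (fun n => ‖f n‖ ^ 2), ← tsum_mul_left]
      refine (wop_summable σ e C h f).tsum_le_tsum (fun n => ?_) h1
      rw [mk_apply]
      rw [norm_mul, mul_pow]
      exact mul_le_mul_of_nonneg_right (pow_le_pow_left₀ (norm_nonneg _) (h n) 2) (by positivity)

@[simp] theorem wop_apply (σ : ℤ × ℤ → ℂ) (e : ℤ × ℤ ≃ ℤ × ℤ) (C : ℝ) (h : ∀ n, ‖σ n‖ ≤ C)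
    (f : H2) (n : ℤ × ℤ) : wop σ e C h f n = σ n * f (e n) := rfl

theorem norm_wop_le (σ : ℤ × ℤ → ℂ) (e : ℤ × ℤ ≃ ℤ × ℤ) (C : ℝ) (h : ∀ n, ‖σ n‖ ≤ C) :
    ‖wop σ e C h‖ ≤ C :=
  LinearMap.mkContinuous_norm_le _ ((norm_nonneg _).trans (h 0)) _

theorem inner_def (f g : H2) : inner ℝ f g = ∑' n, (starRingEnd ℂ (f n) * g n).re := by
  rw [lp.inner_eq_tsum]
  congr 1
  funext n
  rw [Complex.inner, mul_comm]

theorem inner_wop (σ : ℤ × ℤ → ℂ) (e : ℤ × ℤ ≃ ℤ × ℤ) (C : ℝ) (h : ∀ n, ‖σ n‖ ≤ C)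
    (τ : ℤ × ℤ → ℂ) (D : ℝ) (h' : ∀ n, ‖τ n‖ ≤ D) (hτ : ∀ n, τ (e n) = (starRingEnd ℂ) (σ n))
    (f g : H2) : inner ℝ (wop σ e C h f) g = inner ℝ f (wop τ e.symm D h' g) := by
  rw [inner_def, inner_def,
    ← e.tsum_eq (fun n => (starRingEnd ℂ (f n) * (wop τ e.symm D h' g) n).re)]
  congr 1
  funext n
  simp only [wop_apply, map_mul, Equiv.symm_apply_apply, hτ]
  congr 1
  ring

end H2

/-- the shift `n ↦ n - m` -/
def shE (m : ℤ × ℤ) : ℤ × ℤ ≃ ℤ × ℤ where
  toFun n := n - m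
  invFun n := n + m
  left_inv n := by simp
  right_inv n := by simp

/-- one term of the convolution operator -/
noncomputable def cterm (a : WA) (m : ℤ × ℤ) : H2 →L[ℝ] H2 :=
  H2.wop (fun _ => a m) (shE m) ‖a m‖ (fun _ => le_rfl)

theorem cterm_apply (a : WA) (m : ℤ × ℤ) (f : H2) (n : ℤ × ℤ) :
    cterm a m f n = a m * f (n - m) := rfl

theorem summable_cterm (a : WA) : Summable (fun m => ‖cterm a m‖) :=
  Summable.of_nonneg_of_le (fun _ => norm_nonneg _) (fun _ => H2.norm_wop_le _ _ _ _) (WA.smb a)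

/-- the convolution operator (multiplication by a function on the Fourier side) -/
noncomputable def Mop0 (a : WA) : H2 →L[ℝ] H2 := ∑' m, cterm a m

theorem hasSum_Mop0 (a : WA) : HasSum (cterm a) (Mop0 a) := (Summable.of_norm (summable_cterm a)).hasSum

theorem hasSum_Mop0_apply (a : WA) (f : H2) : HasSum (fun m => cterm a m f) (Mop0 a f) := by
  have := (ContinuousLinearMap.apply ℝ H2 f).hasSum (hasSum_Mop0 a)
  exact this

theorem hasSum_Mop0_coord (a : WA) (f : H2) (n : ℤ × ℤ) :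
    HasSum (fun m => a m * f (n - m)) (Mop0 a f n) := by
  have := (H2.coord n).hasSum (hasSum_Mop0_apply a f)
  exact this

theorem Mop0_apply (a : WA) (f : H2) (n : ℤ × ℤ) : Mop0 a f n = ∑' m, a m * f (n - m) :=
  (hasSum_Mop0_coord a f n).tsum_eq.symm

theorem norm_Mop0_le (a : WA) : ‖Mop0 a‖ ≤ ‖a‖ := by
  rw [WA.norm_def]
  exact (norm_tsum_le_tsum_norm (summable_cterm a)).trans
    ((summable_cterm a).tsum_le_tsum (fun _ => H2.norm_wop_le _ _ _ _) (WA.smb a))

/-- convolution operator, linear in the symbol -/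
noncomputable def Mop : WA →L[ℝ] H2 →L[ℝ] H2 :=
  LinearMap.mkContinuous
    { toFun := Mop0
      map_add' := fun a b => by
        refine ContinuousLinearMap.ext fun f => H2.ext fun n => ?_
        have h1 := (hasSum_Mop0_coord a f n).add (hasSum_Mop0_coord b f n)
        rw [add_apply, H2.add_apply, ← h1.tsum_eq, Mop0_apply]
        congr 1; funext m
        rw [WA.add_apply]; ring
      map_smul' := fun r a => by
        refine ContinuousLinearMap.ext fun f => H2.ext fun n => ?_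
        have h1 := (hasSum_Mop0_coord a f n).const_smul r
        rw [RingHom.id_apply, smul_apply, H2.smul_apply, ← h1.tsum_eq,
          Mop0_apply]
        congr 1; funext m
        rw [WA.smul_apply, smul_mul_assoc] } 1
    fun a => by rw [one_mul]; exact norm_Mop0_le a

theorem Mop_apply (a : WA) (f : H2) (n : ℤ × ℤ) : Mop a f n = ∑' m, a m * f (n - m) :=
  Mop0_apply a f n

theorem Mop_one (f : H2) : Mop WA.one f = f := by
  refine H2.ext fun n => ?_
  rw [Mop_apply, tsum_eq_single (0 : ℤ × ℤ)]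
  · rw [WA.one_apply, if_pos rfl, one_mul, sub_zero]
  · intro m hm
    rw [WA.one_apply, if_neg hm, zero_mul]

theorem Mop_conv (a b : WA) (f : H2) : Mop (WA.conv a b) f = Mop a (Mop b f) := by
  refine H2.ext fun n => ?_
  have hs : Summable (fun x : (ℤ × ℤ) × (ℤ × ℤ) => a x.1 * b x.2 * f (n - x.1 - x.2)) := by
    refine Summable.of_norm ?_
    have h1 := ((WA.smb a).mul_of_nonneg (WA.smb b) (fun _ => norm_nonneg _)
      (fun _ => norm_nonneg _)).mul_right ‖f‖
    refine Summable.of_nonneg_of_le (fun _ => norm_nonneg _) (fun x => ?_) h1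
    rw [norm_mul, norm_mul]
    exact mul_le_mul_of_nonneg_left (H2.apply_le f _) (by positivity)
  have e1 : Mop a (Mop b f) n = ∑' x : (ℤ × ℤ) × (ℤ × ℤ), a x.1 * b x.2 * f (n - x.1 - x.2) := by
    rw [hs.tsum_prod, Mop_apply]
    congr 1; funext m
    rw [Mop_apply, ← tsum_mul_left]
    congr 1; funext k
    ring
  have hs2 : Summable (fun x : (ℤ × ℤ) × (ℤ × ℤ) => a x.2 * b (x.1 - x.2) * f (n - x.2 - (x.1 - x.2))) :=
    (WA.shiftEquiv.summable_iff (f := fun x : (ℤ × ℤ) × (ℤ × ℤ) =>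
      a x.1 * b x.2 * f (n - x.1 - x.2))).2 hs
  rw [e1, ← WA.shiftEquiv.tsum_eq (fun x : (ℤ × ℤ) × (ℤ × ℤ) => a x.1 * b x.2 * f (n - x.1 - x.2))]
  change _ = ∑' x : (ℤ × ℤ) × (ℤ × ℤ), a x.2 * b (x.1 - x.2) * f (n - x.2 - (x.1 - x.2))
  rw [hs2.tsum_prod, Mop_apply]
  congr 1; funext k
  rw [WA.conv_apply, ← tsum_mul_right]
  congr 1; funext m
  have e2 : n - m - (k - m) = n - k := by abel
  rw [e2]

theorem Mop_comm (a b : WA) (f : H2) : Mop a (Mop b f) = Mop b (Mop a f) := by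
  rw [← Mop_conv, ← Mop_conv, WA.conv_comm]

theorem inner_Mop {a : WA} (ha : WA.inv a = a) (f g : H2) :
    inner ℝ (Mop a f) g = inner ℝ f (Mop a g) := by
  have h1 : HasSum (fun m => inner ℝ (cterm a m f) g) (inner ℝ (Mop a f) g) := by
    have := (innerSL ℝ g).hasSum (hasSum_Mop0_apply a f)
    simp only [innerSL_apply_apply] at this
    have e : ∀ x : H2, inner ℝ g x = inner ℝ x g := fun x => real_inner_comm _ _
    simp only [e] at this
    exact this
  have h2 : HasSum (fun m => inner ℝ f (cterm a m g)) (inner ℝ f (Mop a g)) := by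
    have := (innerSL ℝ f).hasSum (hasSum_Mop0_apply a g)
    simp only [innerSL_apply_apply] at this
    exact this
  have h3 : ∀ m, inner ℝ (cterm a (-m) f) g = inner ℝ f (cterm a m g) := by
    intro m
    have hm : (starRingEnd ℂ) (a (-m)) = a m := by
      conv_rhs => rw [← ha]
      rfl
    have := H2.inner_wop (fun _ => a (-m)) (shE (-m)) ‖a (-m)‖ (fun _ => le_rfl)
      (fun _ => a m) ‖a m‖ (fun _ => le_rfl) (fun _ => hm.symm) f g
    refine this.trans ?_
    congr 1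
  have h4 := (Equiv.neg (ℤ × ℤ)).hasSum_iff.2 h1
  have h5 : ((fun m => inner ℝ (cterm a m f) g) ∘ ⇑(Equiv.neg (ℤ × ℤ))) =
      fun m => inner ℝ f (cterm a m g) := by
    funext m
    exact h3 m
  rw [h5] at h4
  exact h4.unique h2

end Vale.Agent.P205
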