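import Mathlib

set_option autoImplicit false

open Real MeasureTheory intervalIntegral Set
open scoped ContDiff

namespace Vale.Agent.P205

/-- A positive continuous periodic function is bounded below by a positive constant. -/
theorem exists_pos_lower (w : ℝ → ℝ) (hw : Continuous w) (P : ℝ) (hP : 0 < P)
    (hper : Function.Periodic w P) (hpos : ∀ x, 0 < w x) : ∃ m, 0 < m ∧ ∀ x, m ≤ w x := by
  obtain ⟨x0, _, hx0⟩ := (isCompact_Icc (a := (0:ℝ)) (b := P)).exists_isMinOn
    ⟨0, by constructor <;> linarith⟩ hw.continuousOn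
  refine ⟨w x0, hpos x0, fun x => ?_⟩
  obtain ⟨y, hy, hxy⟩ := hper.exists_mem_Ico₀ hP x
  rw [hxy]
  exact hx0 ⟨hy.1, hy.2.le⟩

theorem exists_upper (w : ℝ → ℝ) (hw : Continuous w) (P : ℝ) (hP : 0 < P)
    (hper : Function.Periodic w P) : ∃ m, ∀ x, w x ≤ m := by
  obtain ⟨x0, _, hx0⟩ := (isCompact_Icc (a := (0:ℝ)) (b := P)).exists_isMaxOn
    ⟨0, by constructor <;> linarith⟩ hw.continuousOn
  refine ⟨w x0, fun x => ?_⟩
  obtain ⟨y, hy, hxy⟩ := hper.exists_mem_Ico₀ hP x
  rw [hxy]
  exact hx0 ⟨hy.1, hy.2.le⟩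

theorem contDiff_primitive (w : ℝ → ℝ) (hw : ContDiff ℝ ∞ w) :
    ContDiff ℝ ∞ (fun x => ∫ t in (0:ℝ)..x, w t) := by
  have hd : ∀ x, HasDerivAt (fun x => ∫ t in (0:ℝ)..x, w t) (w x) x := fun x =>
    integral_hasDerivAt_right (hw.continuous.intervalIntegrable _ _)
      hw.continuous.stronglyMeasurable.stronglyMeasurableAtFilter hw.continuous.continuousAt
  rw [contDiff_infty_iff_deriv]
  refine ⟨fun x => (hd x).differentiableAt, ?_⟩
  have : deriv (fun x => ∫ t in (0:ℝ)..x, w t) = w := funext fun x => (hd x).deriv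
  rw [this]; exact hw

theorem hasDerivAt_primitive (w : ℝ → ℝ) (hw : Continuous w) (x : ℝ) :
    HasDerivAt (fun x => ∫ t in (0:ℝ)..x, w t) (w x) x :=
  integral_hasDerivAt_right (hw.intervalIntegrable _ _)
    hw.stronglyMeasurable.stronglyMeasurableAtFilter hw.continuousAt

/-- Arc length reparametrisation. -/
theorem exists_arclength (w : ℝ → ℝ) (hw : ContDiff ℝ ∞ w) (P : ℝ) (hP : 0 < P)
    (hper : Function.Periodic w P) (hpos : ∀ x, 0 < w x) :
    ∃ σ : ℝ → ℝ, ContDiff ℝ ∞ σ ∧ (∀ s, HasDerivAt σ (1 / w (σ s)) s) ∧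
      ∀ s, σ (s + ∫ x in (0:ℝ)..P, w x) = σ s + P := by
  obtain ⟨m, hm, hmw⟩ := exists_pos_lower w hw.continuous P hP hper hpos
  set S : ℝ → ℝ := fun x => ∫ t in (0:ℝ)..x, w t with hS
  have hSd : ∀ x, HasDerivAt S (w x) x := hasDerivAt_primitive w hw.continuous
  have hSc : ContDiff ℝ ∞ S := contDiff_primitive w hw
  have hSmono : StrictMono S := strictMono_of_deriv_pos fun x => by rw [(hSd x).deriv]; exact hpos x
  have hSadd : ∀ x, S (x + P) = S x + ∫ x in (0:ℝ)..P, w x := by
    intro x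
    simp only [hS]
    have h1 : (∫ t in (0:ℝ)..x + P, w t) = (∫ t in (0:ℝ)..x, w t) + ∫ t in x..x + P, w t :=
      (integral_add_adjacent_intervals (hw.continuous.intervalIntegrable _ _)
        (hw.continuous.intervalIntegrable _ _)).symm
    rw [h1, hper.intervalIntegral_add_eq x 0, zero_add]
  have hlow : ∀ x y, x ≤ y → m * (y - x) ≤ S y - S x := by
    intro x y hxy
    have h1 : S y - S x = ∫ t in x..y, w t :=
      integral_interval_sub_left (hw.continuous.intervalIntegrable _ _)
        (hw.continuous.intervalIntegrable _ _)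
    rw [h1]
    have h2 : (∫ t in x..y, m) ≤ ∫ t in x..y, w t :=
      integral_mono_on hxy (by simp) (hw.continuous.intervalIntegrable _ _) fun t _ => hmw t
    simpa [mul_comm] using h2
  have hS0 : S 0 = 0 := by simp [hS]
  have htop : Filter.Tendsto S Filter.atTop Filter.atTop := by
    refine Filter.tendsto_atTop_mono' _ ?_ (Filter.tendsto_id.const_mul_atTop hm)
    filter_upwards [Filter.eventually_ge_atTop 0] with x hx
    have := hlow 0 x hx
    simp only [hS0, sub_zero, id] at this ⊢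
    exact this
  have hbot : Filter.Tendsto S Filter.atBot Filter.atBot := by
    refine Filter.tendsto_atBot_mono' _ ?_ (Filter.tendsto_id.const_mul_atBot hm)
    filter_upwards [Filter.eventually_le_atBot 0] with x hx
    have := hlow x 0 hx
    simp only [hS0, id] at this ⊢
    linarith
  have hsurj : Function.Surjective S := hSc.continuous.surjective htop hbot
  let e : ℝ ≃o ℝ := hSmono.orderIsoOfSurjective S hsurj
  let h : ℝ ≃ₜ ℝ := e.toHomeomorph
  have hcoe : (h : ℝ → ℝ) = S := rfl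
  have hinv : ∀ s, S (h.symm s) = s := fun s => h.apply_symm_apply s
  have hinv' : ∀ s, h.symm (S s) = s := fun s => h.symm_apply_apply s
  have hcd : ContDiff ℝ ∞ (h.symm : ℝ → ℝ) :=
    h.contDiff_symm_deriv (f' := w) (fun x => (hpos x).ne') (fun x => hSd x) hSc
  refine ⟨h.symm, hcd, fun s => ?_, fun s => ?_⟩
  · have := (hSd (h.symm s)).of_local_left_inverse (h.symm.continuous.continuousAt) (hpos _).ne'
      (Filter.Eventually.of_forall hinv)
    rw [one_div]; exact this
  · have h1 : S (h.symm s + P) = s + ∫ x in (0:ℝ)..P, w x := by rw [hSadd, hinv]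
    rw [← h1, hinv']

end Vale.Agent.P205
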