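import Vale.Agent.H16.Torus.Mult
import Vale.Agent.H16.Torus.Fourier

set_option autoImplicit false

open MeasureTheory Set
open scoped ContDiff ENNReal

namespace Vale.Agent.P205

/-- parameter space -/
abbrev DD : Type := WA × WA × WA × WA × WA

namespace Mults
variable {l u w : ℝ} (M : Mults l u w)

/-- first part of the nonlinearity -/
noncomputable def N1 (y : WA) : WA :=
  WA.conv (M.K1 y) (M.K1 y) + WA.conv (M.K2 y) (M.K2 y) -
    WA.conv (M.K0 y) (M.K11 y + M.K22 y)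

noncomputable def ze (y : WA) : WA := WA.one + M.K0 y
noncomputable def aa (P : DD) (y : WA) : WA := WA.conv (M.ze y) P.1 + M.K1 y
noncomputable def bb (P : DD) (y : WA) : WA := WA.conv (M.ze y) P.2.1 + M.K2 y
noncomputable def aax (P : DD) (y : WA) : WA :=
  WA.conv (M.K1 y) P.1 + WA.conv (M.ze y) P.2.2.1 + M.K11 y
noncomputable def aay (P : DD) (y : WA) : WA :=
  WA.conv (M.K2 y) P.1 + WA.conv (M.ze y) P.2.2.2.1 + M.K12 y
noncomputable def bbx (P : DD) (y : WA) : WA :=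
  WA.conv (M.K1 y) P.2.1 + WA.conv (M.ze y) P.2.2.2.1 + M.K12 y
noncomputable def bby (P : DD) (y : WA) : WA :=
  WA.conv (M.K2 y) P.2.1 + WA.conv (M.ze y) P.2.2.2.2 + M.K22 y

/-- second part of the nonlinearity -/
noncomputable def N2 (P : DD) (y : WA) : WA :=
  WA.conv (WA.conv (M.aa P y) (M.aa P y) + WA.conv (M.bb P y) (M.bb P y))
      (WA.conv (M.ze y) (M.K11 y + M.K22 y) -
        (WA.conv (M.K1 y) (M.K1 y) + WA.conv (M.K2 y) (M.K2 y))) +
    WA.conv (WA.conv (M.ze y) (M.ze y))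
      (WA.conv (M.aax P y) (M.bby P y) - WA.conv (M.aay P y) (M.bbx P y)) -
    WA.conv (M.ze y)
      (WA.conv (WA.conv (M.aa P y) (M.aax P y) + WA.conv (M.bb P y) (M.bbx P y)) (M.K1 y) +
        WA.conv (WA.conv (M.aa P y) (M.aay P y) + WA.conv (M.bb P y) (M.bby P y)) (M.K2 y))

noncomputable def NN (x : ℝ × DD × WA) : WA :=
  M.Pr (M.N1 x.2.2 + x.1 ^ 2 • M.N2 x.2.1 x.2.2)

theorem contDiff_conv {E : Type*} [NormedAddCommGroup E] [NormedSpace ℝ E] {f g : E → WA}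
    (hf : ContDiff ℝ ∞ f) (hg : ContDiff ℝ ∞ g) : ContDiff ℝ ∞ (fun x => WA.conv (f x) (g x)) :=
  (WA.convL.contDiff.comp hf).clm_apply hg

section cd
variable {E : Type*} [NormedAddCommGroup E] [NormedSpace ℝ E] {P : E → DD} {y : E → WA}
  (hP : ContDiff ℝ ∞ P) (hy : ContDiff ℝ ∞ y)
include hy

theorem cd_N1 : ContDiff ℝ ∞ (fun x => M.N1 (y x)) := by
  have h0 := M.K0.contDiff.comp hy
  have h1 := M.K1.contDiff.comp hy
  have h2 := M.K2.contDiff.comp hy
  have h11 := M.K11.contDiff.comp hy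
  have h22 := M.K22.contDiff.comp hy
  exact ((contDiff_conv h1 h1).add (contDiff_conv h2 h2)).sub (contDiff_conv h0 (h11.add h22))

theorem cd_ze : ContDiff ℝ ∞ (fun x => M.ze (y x)) :=
  contDiff_const.add (M.K0.contDiff.comp hy)

include hP
theorem cd_aa : ContDiff ℝ ∞ (fun x => M.aa (P x) (y x)) :=
  (contDiff_conv (M.cd_ze hy) hP.fst).add (M.K1.contDiff.comp hy)
theorem cd_bb : ContDiff ℝ ∞ (fun x => M.bb (P x) (y x)) :=
  (contDiff_conv (M.cd_ze hy) hP.snd.fst).add (M.K2.contDiff.comp hy)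
theorem cd_aax : ContDiff ℝ ∞ (fun x => M.aax (P x) (y x)) :=
  ((contDiff_conv (M.K1.contDiff.comp hy) hP.fst).add
    (contDiff_conv (M.cd_ze hy) hP.snd.snd.fst)).add (M.K11.contDiff.comp hy)
theorem cd_aay : ContDiff ℝ ∞ (fun x => M.aay (P x) (y x)) :=
  ((contDiff_conv (M.K2.contDiff.comp hy) hP.fst).add
    (contDiff_conv (M.cd_ze hy) hP.snd.snd.snd.fst)).add (M.K12.contDiff.comp hy)
theorem cd_bbx : ContDiff ℝ ∞ (fun x => M.bbx (P x) (y x)) :=
  ((contDiff_conv (M.K1.contDiff.comp hy) hP.snd.fst).add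
    (contDiff_conv (M.cd_ze hy) hP.snd.snd.snd.fst)).add (M.K12.contDiff.comp hy)
theorem cd_bby : ContDiff ℝ ∞ (fun x => M.bby (P x) (y x)) :=
  ((contDiff_conv (M.K2.contDiff.comp hy) hP.snd.fst).add
    (contDiff_conv (M.cd_ze hy) hP.snd.snd.snd.snd)).add (M.K22.contDiff.comp hy)

theorem cd_N2 : ContDiff ℝ ∞ (fun x => M.N2 (P x) (y x)) := by
  have h1 := M.K1.contDiff.comp hy
  have h2 := M.K2.contDiff.comp hy
  have h11 := M.K11.contDiff.comp hy
  have h22 := M.K22.contDiff.comp hy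
  have hz := M.cd_ze hy
  have ha := M.cd_aa hP hy
  have hb := M.cd_bb hP hy
  have hax := M.cd_aax hP hy
  have hay := M.cd_aay hP hy
  have hbx := M.cd_bbx hP hy
  have hby := M.cd_bby hP hy
  exact ((contDiff_conv ((contDiff_conv ha ha).add (contDiff_conv hb hb))
    ((contDiff_conv hz (h11.add h22)).sub ((contDiff_conv h1 h1).add (contDiff_conv h2 h2)))).add
    (contDiff_conv (contDiff_conv hz hz) ((contDiff_conv hax hby).sub (contDiff_conv hay hbx)))).sub
    (contDiff_conv hz ((contDiff_conv ((contDiff_conv ha hax).add (contDiff_conv hb hbx)) h1).add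
      (contDiff_conv ((contDiff_conv ha hay).add (contDiff_conv hb hby)) h2)))
end cd

theorem contDiff_NN : ContDiff ℝ ∞ M.NN := by
  unfold NN
  refine M.Pr.contDiff.comp (ContDiff.add ?_ ?_)
  · exact M.cd_N1 (contDiff_snd.snd)
  · exact (contDiff_fst.pow 2).smul (M.cd_N2 (contDiff_snd.fst) (contDiff_snd.snd))

theorem hasFDerivAt_conv_zero {E : Type*} [NormedAddCommGroup E] [NormedSpace ℝ E]
    (L1 L2 : E →L[ℝ] WA) (x : E) (h1 : L1 x = 0) (h2 : L2 x = 0) :
    HasFDerivAt (fun x => WA.conv (L1 x) (L2 x)) (0 : E →L[ℝ] WA) x := by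
  have := WA.convL.hasFDerivAt_of_bilinear (L1.hasFDerivAt (x := x)) (L2.hasFDerivAt (x := x))
  rw [h1, h2] at this
  simpa using this

theorem NN_zero (P : DD) : M.NN (0, P, 0) = 0 := by
  unfold NN N1
  simp only [map_zero]
  have : WA.conv 0 0 = 0 := by
    have := WA.convL_apply 0 0
    rw [← this]; simp
  simp [this]

theorem hasFDerivAt_NN (P : DD) : HasFDerivAt M.NN (0 : ℝ × DD × WA →L[ℝ] WA) (0, P, 0) := by
  have hz : ∀ K : WA →L[ℝ] WA, (K.comp ((ContinuousLinearMap.snd ℝ DD WA).comp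
      (ContinuousLinearMap.snd ℝ ℝ (DD × WA)))) ((0, P, 0) : ℝ × DD × WA) = 0 := by
    intro K; simp
  have hN1 : HasFDerivAt (fun x : ℝ × DD × WA => M.N1 x.2.2) (0 : ℝ × DD × WA →L[ℝ] WA)
      (0, P, 0) := by
    have h := ((hasFDerivAt_conv_zero _ _ _ (hz M.K1) (hz M.K1)).add
      (hasFDerivAt_conv_zero _ _ _ (hz M.K2) (hz M.K2))).sub
      (hasFDerivAt_conv_zero _ _ _ (hz M.K0) (hz (M.K11 + M.K22)))
    simp only [add_zero, sub_zero] at h
    exact h
  have hN2 : HasFDerivAt (fun x : ℝ × DD × WA => x.1 ^ 2 • M.N2 x.2.1 x.2.2)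
      (0 : ℝ × DD × WA →L[ℝ] WA) (0, P, 0) := by
    have h1 : DifferentiableAt ℝ (fun x : ℝ × DD × WA => M.N2 x.2.1 x.2.2) (0, P, 0) :=
      (M.cd_N2 (contDiff_snd.fst) (contDiff_snd.snd)).differentiable (by simp) _
    have h2 : HasFDerivAt (fun x : ℝ × DD × WA => x.1 ^ 2) (0 : ℝ × DD × WA →L[ℝ] ℝ) (0, P, 0) := by
      have := (hasFDerivAt_fst (𝕜 := ℝ) (E := ℝ) (F := DD × WA) (p := (0, P, 0))).pow 2
      simpa using this
    have h3 := h2.smul h1.hasFDerivAt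
    have e : ((0:ℝ) ^ 2 • fderiv ℝ (fun x : ℝ × DD × WA => M.N2 x.2.1 x.2.2) (0, P, 0) +
        (0 : ℝ × DD × WA →L[ℝ] ℝ).smulRight (M.N2 P 0)) = 0 := by
      rw [zero_pow two_ne_zero, zero_smul, zero_add]
      refine ContinuousLinearMap.ext fun x => ?_
      rw [ContinuousLinearMap.smulRight_apply]
      simp
    rw [← e]
    exact h3
  have h := M.Pr.hasFDerivAt.comp ((0, P, 0) : ℝ × DD × WA) (hN1.add hN2)
  rw [add_zero, ContinuousLinearMap.comp_zero] at h
  exact h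

/-- action of a linear map on the parameters -/
noncomputable def actD (S : WA →L[ℝ] WA) (P : DD) : DD := (S P.1, S P.2.1, S P.2.2.1, S P.2.2.2.1, S P.2.2.2.2)

theorem NN_sym {S : WA →L[ℝ] WA} (hS : Sym M S) (e : ℝ) (P : DD) (y : WA) :
    M.NN (e, actD S P, S y) = S (M.NN (e, P, y)) := by
  have h1 := hS.sconv
  unfold NN N1 N2 aa bb aax aay bbx bby ze actD
  simp only [hS.sP, map_add, map_sub, map_smul, hS.sconv, hS.sone, hS.s0, hS.s1, hS.s2, hS.s11,
    hS.s12, hS.s22]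

end Mults

end Vale.Agent.P205
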