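import Vale.Agent.H16.Torus.Wiener

set_option autoImplicit false

open MeasureTheory Set
open scoped ContDiff ENNReal

namespace Vale.Agent.P205

/-- dual lattice vectors -/
noncomputable def xi1 (l : ℝ) (n : ℤ × ℤ) : ℝ := 2 * Real.pi * n.1 / l
noncomputable def xi2 (l u w : ℝ) (n : ℤ × ℤ) : ℝ := 2 * Real.pi * (n.2 - n.1 * u / l) / w

noncomputable def phase (l u w : ℝ) (n : ℤ × ℤ) (X : ℝ × ℝ) : ℝ := xi1 l n * X.1 + xi2 l u w n * X.2

noncomputable def chi (l u w : ℝ) (n : ℤ × ℤ) (X : ℝ × ℝ) : ℂ := Complex.exp (phase l u w n X * Complex.I)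

section
variable (l u w : ℝ)

theorem xi1_add (n m : ℤ × ℤ) : xi1 l (n + m) = xi1 l n + xi1 l m := by
  unfold xi1; push_cast [Prod.fst_add]; ring
theorem xi2_add (n m : ℤ × ℤ) : xi2 l u w (n + m) = xi2 l u w n + xi2 l u w m := by
  unfold xi2; push_cast [Prod.fst_add, Prod.snd_add]; ring
theorem xi1_neg (n : ℤ × ℤ) : xi1 l (-n) = -xi1 l n := by
  unfold xi1; push_cast [Prod.fst_neg]; ring
theorem xi2_neg (n : ℤ × ℤ) : xi2 l u w (-n) = -xi2 l u w n := by
  unfold xi2; push_cast [Prod.fst_neg, Prod.snd_neg]; ring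
theorem xi1_zero : xi1 l 0 = 0 := by simp [xi1]
theorem xi2_zero : xi2 l u w 0 = 0 := by simp [xi2]

theorem chi_add_left (n m : ℤ × ℤ) (X : ℝ × ℝ) :
    chi l u w (n + m) X = chi l u w n X * chi l u w m X := by
  unfold chi phase
  rw [xi1_add, xi2_add, ← Complex.exp_add]; congr 1; push_cast; ring
theorem chi_add_right (n : ℤ × ℤ) (X Y : ℝ × ℝ) :
    chi l u w n (X + Y) = chi l u w n X * chi l u w n Y := by
  unfold chi phase
  rw [← Complex.exp_add]; congr 1; push_cast [Prod.fst_add, Prod.snd_add]; ring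
theorem chi_neg (n : ℤ × ℤ) (X : ℝ × ℝ) :
    chi l u w (-n) X = (starRingEnd ℂ) (chi l u w n X) := by
  unfold chi phase
  rw [xi1_neg, xi2_neg, ← Complex.exp_conj]; congr 1; simp; ring
theorem chi_zero_left (X : ℝ × ℝ) : chi l u w 0 X = 1 := by
  unfold chi phase; rw [xi1_zero, xi2_zero]; simp
theorem chi_zero_right (n : ℤ × ℤ) : chi l u w n 0 = 1 := by
  unfold chi phase; simp
theorem norm_chi (n : ℤ × ℤ) (X : ℝ × ℝ) : ‖chi l u w n X‖ = 1 := by
  unfold chi; exact Complex.norm_exp_ofReal_mul_I _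
variable {l u w}
theorem chi_lat1 (hl : 0 < l) (n : ℤ × ℤ) : chi l u w n (l, 0) = 1 := by
  unfold chi phase xi1
  have : ((2 * Real.pi * (n.1 : ℝ) / l * l + xi2 l u w n * 0 : ℝ) : ℂ) * Complex.I =
      (n.1 : ℤ) * (2 * Real.pi * Complex.I) := by
    have e : (2 * Real.pi * (n.1 : ℝ) / l * l + xi2 l u w n * 0 : ℝ) = n.1 * (2 * Real.pi) := by
      field_simp; ring
    rw [e]; push_cast; ring
  simp only
  rw [this, Complex.exp_int_mul_two_pi_mul_I]
theorem chi_lat2 (hl : 0 < l) (hw : 0 < w) (n : ℤ × ℤ) : chi l u w n (u, w) = 1 := by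
  unfold chi phase xi1 xi2
  have : ((2 * Real.pi * (n.1 : ℝ) / l * u + 2 * Real.pi * (n.2 - n.1 * u / l) / w * w : ℝ) : ℂ) *
      Complex.I = (n.2 : ℤ) * (2 * Real.pi * Complex.I) := by
    have e : (2 * Real.pi * (n.1 : ℝ) / l * u + 2 * Real.pi * (n.2 - n.1 * u / l) / w * w : ℝ) =
        n.2 * (2 * Real.pi) := by
      field_simp; ring
    rw [e]; push_cast; ring
  simp only
  rw [this, Complex.exp_int_mul_two_pi_mul_I]

variable (l u w)

/-- translation -/
noncomputable def tau (X : ℝ × ℝ) : WA →L[ℝ] WA :=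
  WA.mulOp (fun n => chi l u w n X) 1 (fun n => (norm_chi l u w n X).le)

@[simp] theorem tau_apply (X : ℝ × ℝ) (a : WA) (n : ℤ × ℤ) :
    tau l u w X a n = chi l u w n X * a n := rfl

theorem norm_tau (X : ℝ × ℝ) (a : WA) : ‖tau l u w X a‖ = ‖a‖ := by
  rw [WA.norm_def, WA.norm_def]
  congr 1
  funext n
  rw [tau_apply, norm_mul, norm_chi, one_mul]

theorem tau_add (X Y : ℝ × ℝ) (a : WA) : tau l u w (X + Y) a = tau l u w X (tau l u w Y a) :=
  WA.ext fun n => by simp only [tau_apply, chi_add_right]; ring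

theorem tau_zero (a : WA) : tau l u w 0 a = a := WA.ext fun n => by simp [chi_zero_right]

theorem tau_one (X : ℝ × ℝ) : tau l u w X WA.one = WA.one := WA.ext fun n => by
  simp only [tau_apply, WA.one_apply]
  split_ifs with h
  · rw [h, chi_zero_left, one_mul]
  · simp

theorem tau_conv (X : ℝ × ℝ) (a b : WA) :
    tau l u w X (WA.conv a b) = WA.conv (tau l u w X a) (tau l u w X b) := WA.ext fun n => by
  simp only [tau_apply, WA.conv_apply]
  rw [← tsum_mul_left]
  congr 1
  funext m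
  have h : chi l u w n X = chi l u w m X * chi l u w (n - m) X := by
    rw [← chi_add_left]; congr 1; abel
  rw [h]; ring

theorem inv_tau (X : ℝ × ℝ) (a : WA) : WA.inv (tau l u w X a) = tau l u w X (WA.inv a) :=
  WA.ext fun n => by
    simp only [WA.inv_apply, tau_apply, map_mul, chi_neg, Complex.conj_conj]

variable {l u w} in
theorem tau_lat1 (hl : 0 < l) (X : ℝ × ℝ) (a : WA) : tau l u w (X + (l, 0)) a = tau l u w X a :=
  WA.ext fun n => by simp only [tau_apply, chi_add_right, chi_lat1 hl, mul_one]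
variable {l u w} in
theorem tau_lat2 (hl : 0 < l) (hw : 0 < w) (X : ℝ × ℝ) (a : WA) :
    tau l u w (X + (u, w)) a = tau l u w X a :=
  WA.ext fun n => by simp only [tau_apply, chi_add_right, chi_lat2 hl hw, mul_one]

theorem continuous_chi (n : ℤ × ℤ) : Continuous (fun X => chi l u w n X) := by
  unfold chi phase; fun_prop

theorem continuous_tau (a : WA) : Continuous (fun X => tau l u w X a) := by
  rw [continuous_iff_continuousAt]
  intro X0
  rw [ContinuousAt, tendsto_iff_norm_sub_tendsto_zero]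
  have h : ∀ X, ‖tau l u w X a - tau l u w X0 a‖ = ∑' n, ‖(chi l u w n X - chi l u w n X0) * a n‖ := by
    intro X
    rw [WA.norm_def]
    congr 1
    funext n
    simp only [WA.sub_apply, tau_apply]
    congr 1
    ring
  simp only [h]
  have h0 : (0:ℝ) = ∑' n : ℤ × ℤ, (0:ℝ) := by simp
  rw [h0]
  refine tendsto_tsum_of_dominated_convergence (bound := fun n => 2 * ‖a n‖)
    ((WA.smb a).mul_left 2) (fun n => ?_) (Filter.Eventually.of_forall fun X n => ?_)
  · have hc : Continuous (fun X => ‖(chi l u w n X - chi l u w n X0) * a n‖) := by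
      have := continuous_chi l u w n
      fun_prop
    have := hc.tendsto X0
    simpa using this
  · rw [norm_norm, norm_mul]
    refine mul_le_mul_of_nonneg_right ?_ (norm_nonneg _)
    refine (norm_sub_le _ _).trans ?_
    rw [norm_chi, norm_chi]; norm_num

/-- joint continuity -/
theorem continuous_tau_joint {y : ℝ → WA} (hy : Continuous y) :
    Continuous (fun q : ℝ × (ℝ × ℝ) => tau l u w q.2 (y q.1)) := by
  rw [continuous_iff_continuousAt]
  rintro ⟨e0, X0⟩
  rw [ContinuousAt, tendsto_iff_norm_sub_tendsto_zero]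
  have h1 : Filter.Tendsto (fun q : ℝ × (ℝ × ℝ) => ‖y q.1 - y e0‖ +
      ‖tau l u w q.2 (y e0) - tau l u w X0 (y e0)‖) (nhds (e0, X0)) (nhds 0) := by
    have c1 : Continuous (fun q : ℝ × (ℝ × ℝ) => ‖y q.1 - y e0‖ +
      ‖tau l u w q.2 (y e0) - tau l u w X0 (y e0)‖) := by
      have := continuous_tau l u w (y e0)
      fun_prop
    have := c1.tendsto (e0, X0)
    simpa using this
  refine squeeze_zero (fun _ => norm_nonneg _) (fun q => ?_) h1
  have : tau l u w q.2 (y q.1) - tau l u w X0 (y e0) =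
      tau l u w q.2 (y q.1 - y e0) + (tau l u w q.2 (y e0) - tau l u w X0 (y e0)) := by
    rw [map_sub]; abel
  simp only
  rw [this]
  refine (norm_add_le _ _).trans ?_
  rw [norm_tau]

/-- rapid decay -/
def Rapid (a : WA) : Prop :=
  ∀ k : ℕ, Summable (fun n => (1 + |xi1 l n| + |xi2 l u w n|) ^ k * ‖a n‖)

variable {l u w}

theorem Rapid.summable1 {a : WA} (h : Rapid l u w a) :
    Summable (fun n => ‖Complex.I * xi1 l n * a n‖) := by
  refine Summable.of_nonneg_of_le (fun _ => norm_nonneg _) (fun n => ?_) (h 1)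
  rw [norm_mul, norm_mul, Complex.norm_I, one_mul, pow_one, Complex.norm_real, Real.norm_eq_abs]
  exact mul_le_mul_of_nonneg_right (by have := abs_nonneg (xi2 l u w n); linarith) (norm_nonneg _)

theorem Rapid.summable2 {a : WA} (h : Rapid l u w a) :
    Summable (fun n => ‖Complex.I * xi2 l u w n * a n‖) := by
  refine Summable.of_nonneg_of_le (fun _ => norm_nonneg _) (fun n => ?_) (h 1)
  rw [norm_mul, norm_mul, Complex.norm_I, one_mul, pow_one, Complex.norm_real, Real.norm_eq_abs]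
  exact mul_le_mul_of_nonneg_right (by have := abs_nonneg (xi1 l n); linarith) (norm_nonneg _)

noncomputable def Rapid.d1 {a : WA} (h : Rapid l u w a) : WA := WA.mk _ h.summable1
noncomputable def Rapid.d2 {a : WA} (h : Rapid l u w a) : WA := WA.mk _ h.summable2

theorem Rapid.d1_apply {a : WA} (h : Rapid l u w a) (n : ℤ × ℤ) :
    h.d1 n = Complex.I * xi1 l n * a n := rfl
theorem Rapid.d2_apply {a : WA} (h : Rapid l u w a) (n : ℤ × ℤ) :
    h.d2 n = Complex.I * xi2 l u w n * a n := rfl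

theorem Rapid.rapid1 {a : WA} (h : Rapid l u w a) : Rapid l u w h.d1 := by
  intro k
  refine Summable.of_nonneg_of_le (fun _ => by positivity) (fun n => ?_) (h (k + 1))
  rw [h.d1_apply, norm_mul, norm_mul, Complex.norm_I, one_mul, Complex.norm_real,
    Real.norm_eq_abs, pow_succ, mul_assoc]
  have : |xi1 l n| ≤ 1 + |xi1 l n| + |xi2 l u w n| := by
    have := abs_nonneg (xi2 l u w n); linarith
  gcongr

theorem Rapid.rapid2 {a : WA} (h : Rapid l u w a) : Rapid l u w h.d2 := by
  intro k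
  refine Summable.of_nonneg_of_le (fun _ => by positivity) (fun n => ?_) (h (k + 1))
  rw [h.d2_apply, norm_mul, norm_mul, Complex.norm_I, one_mul, Complex.norm_real,
    Real.norm_eq_abs, pow_succ, mul_assoc]
  have : |xi2 l u w n| ≤ 1 + |xi1 l n| + |xi2 l u w n| := by
    have := abs_nonneg (xi1 l n); linarith
  gcongr

theorem norm_exp_I_sub_le (θ : ℝ) :
    ‖Complex.exp (θ * Complex.I) - 1 - θ * Complex.I‖ ≤ 3 * θ ^ 2 := by
  rcases le_or_gt |θ| 1 with h | h
  · have h1 : ‖(θ * Complex.I : ℂ)‖ ≤ 1 := by simpa using h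
    have := Complex.norm_exp_sub_one_sub_id_le h1
    refine this.trans ?_
    simp only [norm_mul, Complex.norm_real, Complex.norm_I, mul_one, Real.norm_eq_abs, sq_abs]
    nlinarith [sq_nonneg θ]
  · have h1 : ‖Complex.exp (θ * Complex.I) - 1 - θ * Complex.I‖ ≤ 1 + 1 + |θ| := by
      refine (norm_sub_le _ _).trans ?_
      refine add_le_add ((norm_sub_le _ _).trans ?_) ?_
      · rw [Complex.norm_exp_ofReal_mul_I]; simp
      · simp
    refine h1.trans ?_
    rw [← sq_abs]
    nlinarith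

/-- derivative of the orbit map -/
theorem Rapid.hasFDerivAt {a : WA} (h : Rapid l u w a) (X : ℝ × ℝ) :
    HasFDerivAt (fun X => tau l u w X a)
      ((ContinuousLinearMap.fst ℝ ℝ ℝ).smulRight (tau l u w X h.d1) +
        (ContinuousLinearMap.snd ℝ ℝ ℝ).smulRight (tau l u w X h.d2)) X := by
  rw [hasFDerivAt_iff_isLittleO_nhds_zero]
  set C : ℝ := ∑' n, (1 + |xi1 l n| + |xi2 l u w n|) ^ 2 * ‖a n‖ with hC
  have hbound : ∀ H : ℝ × ℝ, ‖tau l u w (X + H) a - tau l u w X a -
      ((ContinuousLinearMap.fst ℝ ℝ ℝ).smulRight (tau l u w X h.d1) +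
        (ContinuousLinearMap.snd ℝ ℝ ℝ).smulRight (tau l u w X h.d2)) H‖ ≤ 3 * C * ‖H‖ ^ 2 := by
    intro H
    rw [WA.norm_def]
    have hterm : ∀ n, (tau l u w (X + H) a - tau l u w X a -
      ((ContinuousLinearMap.fst ℝ ℝ ℝ).smulRight (tau l u w X h.d1) +
        (ContinuousLinearMap.snd ℝ ℝ ℝ).smulRight (tau l u w X h.d2)) H) n =
        chi l u w n X * (Complex.exp (phase l u w n H * Complex.I) - 1 -
          phase l u w n H * Complex.I) * a n := by
      intro n
      simp only [ContinuousLinearMap.add_apply, ContinuousLinearMap.smulRight_apply,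
        ContinuousLinearMap.coe_fst', ContinuousLinearMap.coe_snd', WA.sub_apply, WA.add_apply,
        WA.smul_apply, tau_apply, h.d1_apply, h.d2_apply, chi_add_right, Complex.real_smul]
      have e : chi l u w n H = Complex.exp (phase l u w n H * Complex.I) := rfl
      rw [e]
      unfold phase
      push_cast
      ring
    have hle : ∀ n, ‖(tau l u w (X + H) a - tau l u w X a -
      ((ContinuousLinearMap.fst ℝ ℝ ℝ).smulRight (tau l u w X h.d1) +
        (ContinuousLinearMap.snd ℝ ℝ ℝ).smulRight (tau l u w X h.d2)) H) n‖ ≤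
        3 * ‖H‖ ^ 2 * ((1 + |xi1 l n| + |xi2 l u w n|) ^ 2 * ‖a n‖) := by
      intro n
      rw [hterm, norm_mul, norm_mul, norm_chi, one_mul]
      have h1 := norm_exp_I_sub_le (phase l u w n H)
      have h2 : |phase l u w n H| ≤ (1 + |xi1 l n| + |xi2 l u w n|) * ‖H‖ := by
        unfold phase
        refine (abs_add_le _ _).trans ?_
        rw [abs_mul, abs_mul]
        have a1 : |H.1| ≤ ‖H‖ := norm_fst_le H
        have a2 : |H.2| ≤ ‖H‖ := norm_snd_le H
        have a3 : 0 ≤ ‖H‖ := norm_nonneg _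
        nlinarith [mul_le_mul_of_nonneg_left a1 (abs_nonneg (xi1 l n)),
          mul_le_mul_of_nonneg_left a2 (abs_nonneg (xi2 l u w n))]
      have h3 : phase l u w n H ^ 2 ≤ ((1 + |xi1 l n| + |xi2 l u w n|) * ‖H‖) ^ 2 := by
        rw [← sq_abs]; gcongr
      calc _ ≤ 3 * phase l u w n H ^ 2 * ‖a n‖ := by gcongr
        _ ≤ 3 * ((1 + |xi1 l n| + |xi2 l u w n|) * ‖H‖) ^ 2 * ‖a n‖ := by gcongr
        _ = _ := by ring
    have hs : Summable (fun n => 3 * ‖H‖ ^ 2 * ((1 + |xi1 l n| + |xi2 l u w n|) ^ 2 * ‖a n‖)) :=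
      (h 2).mul_left _
    calc _ ≤ ∑' n, 3 * ‖H‖ ^ 2 * ((1 + |xi1 l n| + |xi2 l u w n|) ^ 2 * ‖a n‖) :=
          (WA.smb _).tsum_le_tsum hle hs
      _ = 3 * C * ‖H‖ ^ 2 := by rw [tsum_mul_left, hC]; ring
  have hO : (fun H : ℝ × ℝ => tau l u w (X + H) a - tau l u w X a -
      ((ContinuousLinearMap.fst ℝ ℝ ℝ).smulRight (tau l u w X h.d1) +
        (ContinuousLinearMap.snd ℝ ℝ ℝ).smulRight (tau l u w X h.d2)) H) =O[nhds 0]
        fun H => ‖H‖ ^ 2 :=
    Asymptotics.IsBigO.of_bound (3 * C) (Filter.Eventually.of_forall fun H => by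
      have := hbound H
      simpa using this)
  refine hO.trans_isLittleO ?_
  have h2 : (fun H : ℝ × ℝ => ‖H‖ ^ 2) =o[nhds 0] fun H : ℝ × ℝ => ‖H‖ := by
    have := (Asymptotics.isLittleO_pow_id (𝕜 := ℝ) (n := 2) (by norm_num))
    exact this.comp_tendsto (by simpa using (continuous_norm (E := ℝ × ℝ)).tendsto 0)
  exact h2.of_norm_right

theorem Rapid.contDiff {a : WA} (h : Rapid l u w a) : ContDiff ℝ ∞ (fun X => tau l u w X a) := by
  rw [contDiff_infty]
  intro n
  induction n generalizing a with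
  | zero => exact contDiff_zero.2 (continuous_tau l u w a)
  | succ n ih =>
    push_cast
    rw [contDiff_succ_iff_hasFDerivAt]
    refine ⟨_, ?_, h.hasFDerivAt⟩
    exact (contDiff_const.smulRight (ih h.rapid1)).add (contDiff_const.smulRight (ih h.rapid2))

end

end Vale.Agent.P205
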