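import Mathlib

set_option autoImplicit false

open Real MeasureTheory Set
open scoped ContDiff

namespace Vale.Agent.P205

/-- derivative in the first variable -/
noncomputable def dX (f : ℝ × ℝ → ℝ) (p : ℝ × ℝ) : ℝ := fderiv ℝ f p (1, 0)
/-- derivative in the second variable -/
noncomputable def dY (f : ℝ × ℝ → ℝ) (p : ℝ × ℝ) : ℝ := fderiv ℝ f p (0, 1)

theorem infty_ne_zero : (∞ : WithTop ℕ∞) ≠ 0 := by simp

theorem smooth_dX {f : ℝ × ℝ → ℝ} (hf : ContDiff ℝ ∞ f) : ContDiff ℝ ∞ (dX f) :=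
  (hf.fderiv_right (m := ∞) le_rfl).clm_apply contDiff_const

theorem smooth_dY {f : ℝ × ℝ → ℝ} (hf : ContDiff ℝ ∞ f) : ContDiff ℝ ∞ (dY f) :=
  (hf.fderiv_right (m := ∞) le_rfl).clm_apply contDiff_const

theorem fderiv_eq_dX_dY {f : ℝ × ℝ → ℝ} (p v : ℝ × ℝ) :
    fderiv ℝ f p v = dX f p * v.1 + dY f p * v.2 := by
  have : v = v.1 • ((1:ℝ), (0:ℝ)) + v.2 • ((0:ℝ), (1:ℝ)) := by ext <;> simp
  conv_lhs => rw [this]
  rw [map_add, map_smul, map_smul]
  simp [dX, dY, mul_comm]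

theorem hasDX {f : ℝ × ℝ → ℝ} (hf : ContDiff ℝ ∞ f) (p : ℝ × ℝ) :
    HasDerivAt (fun t => f (t, p.2)) (dX f p) p.1 := by
  have h1 := (hf.differentiable infty_ne_zero p).hasFDerivAt
  have h2 : HasDerivAt (fun t : ℝ => (t, p.2)) ((1:ℝ), (0:ℝ)) p.1 :=
    (hasDerivAt_id p.1).prodMk (hasDerivAt_const p.1 p.2)
  exact h1.comp_hasDerivAt_of_eq p.1 h2 rfl

theorem hasDY {f : ℝ × ℝ → ℝ} (hf : ContDiff ℝ ∞ f) (p : ℝ × ℝ) :
    HasDerivAt (fun t => f (p.1, t)) (dY f p) p.2 := by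
  have h1 := (hf.differentiable infty_ne_zero p).hasFDerivAt
  have h2 : HasDerivAt (fun t : ℝ => (p.1, t)) ((0:ℝ), (1:ℝ)) p.2 :=
    (hasDerivAt_const p.2 p.1).prodMk (hasDerivAt_id p.2)
  exact h1.comp_hasDerivAt_of_eq p.2 h2 rfl

theorem dX_eq {f : ℝ × ℝ → ℝ} (hf : ContDiff ℝ ∞ f) {p : ℝ × ℝ} {c : ℝ}
    (h : HasDerivAt (fun t => f (t, p.2)) c p.1) : dX f p = c := (hasDX hf p).unique h

theorem dY_eq {f : ℝ × ℝ → ℝ} (hf : ContDiff ℝ ∞ f) {p : ℝ × ℝ} {c : ℝ}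
    (h : HasDerivAt (fun t => f (p.1, t)) c p.2) : dY f p = c := (hasDY hf p).unique h

theorem dX_dY_comm {f : ℝ × ℝ → ℝ} (hf : ContDiff ℝ ∞ f) (p : ℝ × ℝ) :
    dX (dY f) p = dY (dX f) p := by
  have hsymm : IsSymmSndFDerivAt ℝ f p :=
    ContDiffAt.isSymmSndFDerivAt hf.contDiffAt (by
      rw [minSmoothness_of_isRCLikeNormedField]
      exact WithTop.coe_le_coe.2 (le_top : (2:ℕ∞) ≤ ⊤))
  have hd : DifferentiableAt ℝ (fderiv ℝ f) p :=
    (hf.fderiv_right (m := ∞) le_rfl).differentiable infty_ne_zero p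
  have h1 : ∀ v w : ℝ × ℝ, fderiv ℝ (fun q => fderiv ℝ f q v) p w = fderiv ℝ (fderiv ℝ f) p w v := by
    intro v w
    have : HasFDerivAt (fun q => fderiv ℝ f q v) _ p := hd.hasFDerivAt.clm_apply
      (hasFDerivAt_const v p)
    rw [this.fderiv]
    simp
  unfold dX dY
  rw [h1, h1]
  exact hsymm _ _

/-- Potential of a closed one-form on the plane. -/
theorem exists_potential {a b : ℝ × ℝ → ℝ} (ha : ContDiff ℝ ∞ a) (hb : ContDiff ℝ ∞ b)
    (h : ∀ p, dX b p = dY a p) :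
    ∃ f : ℝ × ℝ → ℝ, ContDiff ℝ ∞ f ∧ f 0 = 0 ∧ ∀ p, dX f p = a p ∧ dY f p = b p := by
  let om : ℝ × ℝ → (ℝ × ℝ →L[ℝ] ℝ) := fun p =>
    a p • ContinuousLinearMap.fst ℝ ℝ ℝ + b p • ContinuousLinearMap.snd ℝ ℝ ℝ
  have hω : ContDiff ℝ ∞ om := (ha.smul contDiff_const).add (hb.smul contDiff_const)
  have hder : ∀ p v w, fderiv ℝ om p v w = fderiv ℝ a p v * w.1 + fderiv ℝ b p v * w.2 := by
    intro p v w
    have d1 := (ha.differentiable infty_ne_zero p).hasFDerivAt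
    have d2 := (hb.differentiable infty_ne_zero p).hasFDerivAt
    have : HasFDerivAt om _ p := (d1.smul_const (ContinuousLinearMap.fst ℝ ℝ ℝ)).add
      (d2.smul_const (ContinuousLinearMap.snd ℝ ℝ ℝ))
    rw [this.fderiv]
    simp
  obtain ⟨f, hf⟩ := (convex_univ (𝕜 := ℝ) (E := ℝ × ℝ)).exists_forall_hasFDerivAt_of_fderiv_symmetric
    isOpen_univ (hω.differentiable infty_ne_zero).differentiableOn (by
      intro p _ v w
      rw [hder, hder]
      simp only [fderiv_eq_dX_dY (f := a), fderiv_eq_dX_dY (f := b)]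
      have := h p
      linear_combination (v.1 * w.2 - w.1 * v.2) * this)
  have hf' : ∀ p, HasFDerivAt f (om p) p := fun p => hf p (mem_univ p)
  refine ⟨fun p => f p - f 0, ?_, by simp, ?_⟩
  · refine ContDiff.sub ?_ contDiff_const
    rw [contDiff_infty_iff_fderiv]
    refine ⟨fun p => (hf' p).differentiableAt, ?_⟩
    have : fderiv ℝ f = om := funext fun p => (hf' p).fderiv
    rw [this]; exact hω
  · intro p
    have : HasFDerivAt (fun p => f p - f 0) (om p) p := (hf' p).sub_const _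
    unfold dX dY
    rw [this.fderiv]
    simp [om]

/-- Two differentiable functions on the plane with the same partial derivatives differ by a
constant. -/
theorem eq_add_const_of_partials {f g : ℝ × ℝ → ℝ} (hf : ContDiff ℝ ∞ f) (hg : ContDiff ℝ ∞ g)
    (h1 : ∀ p, dX f p = dX g p) (h2 : ∀ p, dY f p = dY g p) (p : ℝ × ℝ) :
    f p = g p + (f 0 - g 0) := by
  have hd : Differentiable ℝ (fun p => f p - g p) :=
    (hf.sub hg).differentiable infty_ne_zero
  have : ∀ p, fderiv ℝ (fun p => f p - g p) p = 0 := by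
    intro p
    ext
    · rw [fderiv_fun_sub (hf.differentiable infty_ne_zero p) (hg.differentiable infty_ne_zero p)]
      simp [fderiv_eq_dX_dY, h1, h2]
    · rw [fderiv_fun_sub (hf.differentiable infty_ne_zero p) (hg.differentiable infty_ne_zero p)]
      simp [fderiv_eq_dX_dY, h1, h2]
  have := is_const_of_fderiv_eq_zero hd this p 0
  linarith

end Vale.Agent.P205
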