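import Vale.Agent.H16.Torus.UniPDE
import Vale.Agent.H16.Torus.DevGen
import Vale.Agent.H16.Torus.GlobalDiffeo
import Vale.Agent.H16.Torus.FamilyFinal

set_option autoImplicit false

open MeasureTheory Set Filter Topology Real
open scoped ContDiff ENNReal

namespace Vale.Agent.P205

/-- isothermal coordinates on the torus (uniformization) -/
theorem uniformize (g : TorusMetric) : ∃ (S T σ : ℝ × ℝ → ℝ),
    ContDiff ℝ ∞ S ∧ ContDiff ℝ ∞ T ∧ ContDiff ℝ ∞ σ ∧ LatPer 1 0 1 σ ∧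
    (∀ p, S (p + (1, 0)) = S p + S (1, 0)) ∧ (∀ p, S (p + (0, 1)) = S p + S (0, 1)) ∧
    (∀ p, T (p + (1, 0)) = T p + T (1, 0)) ∧ (∀ p, T (p + (0, 1)) = T p + T (0, 1)) ∧
    (∀ p, 0 < dX S p * dY T p - dY S p * dX T p) ∧
    ∀ p x y, g.inner p x y = exp (2 * σ p) *
      (fderiv ℝ S p x * fderiv ℝ S p y + fderiv ℝ T p x * fderiv ℝ T p y) := by
  have hE := g.smooth_E
  have hF := g.smooth_F
  have hG := g.smooth_G
  -- periodicity in lattice form
  have per : ∀ f : ℝ × ℝ → ℝ, (∀ (p : ℝ × ℝ) (m n : ℤ), f (p.1 + m, p.2 + n) = f p) →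
      LatPer 1 0 1 f := by
    intro f hf
    constructor
    · intro p
      have e : p + (1, 0) = (p.1 + ((1:ℤ):ℝ), p.2 + ((0:ℤ):ℝ)) := by ext <;> simp
      rw [e]; exact hf p 1 0
    · intro p
      have e : p + (0, 1) = (p.1 + ((0:ℤ):ℝ), p.2 + ((1:ℤ):ℝ)) := by ext <;> simp
      rw [e]; exact hf p 0 1
  have pE := per g.E g.periodic_E
  have pF := per g.F g.periodic_F
  have pG := per g.G g.periodic_G
  -- basic functions
  let W : ℝ × ℝ → ℝ := fun p => sqrt (g.E p * g.G p - g.F p ^ 2)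
  have hWpos : ∀ p, 0 < W p := fun p => sqrt_pos.2 (g.pos_det p)
  have hWsq : ∀ p, W p ^ 2 = g.E p * g.G p - g.F p ^ 2 := fun p => sq_sqrt (g.pos_det p).le
  have hW : ContDiff ℝ ∞ W :=
    ContDiff.sqrt ((hE.mul hG).sub (hF.pow 2)) fun p => (g.pos_det p).ne'
  have pW : LatPer 1 0 1 W := ⟨fun p => by simp only [W, pE.1, pF.1, pG.1],
    fun p => by simp only [W, pE.2, pF.2, pG.2]⟩
  let P : ℝ × ℝ → ℝ := fun p => sqrt (g.E p / W p)
  have hEW : ∀ p, 0 < g.E p / W p := fun p => div_pos (g.pos_E p) (hWpos p)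
  have hPpos : ∀ p, 0 < P p := fun p => sqrt_pos.2 (hEW p)
  have hPsq : ∀ p, P p ^ 2 = g.E p / W p := fun p => sq_sqrt (hEW p).le
  have hP : ContDiff ℝ ∞ P :=
    ContDiff.sqrt (hE.div hW fun p => (hWpos p).ne') fun p => (hEW p).ne'
  have pP : LatPer 1 0 1 P := ⟨fun p => by simp only [P, pE.1, pW.1],
    fun p => by simp only [P, pE.2, pW.2]⟩
  let R : ℝ × ℝ → ℝ := fun p => 1 / P p
  have hR : ContDiff ℝ ∞ R := contDiff_const.div hP fun p => (hPpos p).ne'
  have pR : LatPer 1 0 1 R := ⟨fun p => by simp only [R, pP.1], fun p => by simp only [R, pP.2]⟩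
  have hPR : ∀ p, P p * R p = 1 := fun p => by
    have := (hPpos p).ne'
    simp only [R]; field_simp
  let Q : ℝ × ℝ → ℝ := fun p => g.F p / (W p * P p)
  have hWP : ∀ p, W p * P p ≠ 0 := fun p => (mul_pos (hWpos p) (hPpos p)).ne'
  have hQ : ContDiff ℝ ∞ Q := hF.div (hW.mul hP) hWP
  have pQ : LatPer 1 0 1 Q := ⟨fun p => by simp only [Q, pF.1, pW.1, pP.1],
    fun p => by simp only [Q, pF.2, pW.2, pP.2]⟩
  have hE' : ∀ p, g.E p = W p * P p ^ 2 := fun p => by
    rw [hPsq]; have := (hWpos p).ne'; field_simp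
  have hF' : ∀ p, g.F p = W p * (P p * Q p) := fun p => by
    have h1 := (hWpos p).ne'
    have h2 := (hPpos p).ne'
    simp only [Q]; field_simp
  have hG' : ∀ p, g.G p = W p * (Q p ^ 2 + R p ^ 2) := fun p => by
    have h1 := hWsq p
    have h2 := hE' p
    have h3 := hF' p
    have h4 := hPR p
    have h5 := hWpos p
    have h6 := hPpos p
    have h7 : W p * P p ^ 2 * g.G p = W p * P p ^ 2 * (W p * (Q p ^ 2 + R p ^ 2)) := by
      rw [h2, h3] at h1
      linear_combination (-1) * h1 - W p ^ 2 * (P p * R p + 1) * h4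
    exact mul_left_cancel₀ (by positivity) h7
  -- connection form
  let O1 : ℝ × ℝ → ℝ := fun p => P p * (dX Q p - dY P p)
  let O2 : ℝ × ℝ → ℝ := fun p => R p * (dX R p + O1 p * Q p)
  have hO1 : ContDiff ℝ ∞ O1 := hP.mul ((smooth_dX hQ).sub (smooth_dY hP))
  have hO2 : ContDiff ℝ ∞ O2 := hR.mul ((smooth_dX hR).add (hO1.mul hQ))
  have pO1 : LatPer 1 0 1 O1 := ⟨fun p => by simp only [O1, pP.1, pQ.dX.1, pP.dY.1],
    fun p => by simp only [O1, pP.2, pQ.dX.2, pP.dY.2]⟩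
  have pO2 : LatPer 1 0 1 O2 := ⟨fun p => by simp only [O2, pR.1, pR.dX.1, pO1.1, pQ.1],
    fun p => by simp only [O2, pR.2, pR.dX.2, pO1.2, pQ.2]⟩
  obtain ⟨u, hu, pu, hV1, hV2, hdiv⟩ := solve_pde hP hQ hO1 hO2 pP pQ pO1 pO2 hPpos
  set V1 : ℝ × ℝ → ℝ := fun X => (Q X ^ 2 + (1 / P X) ^ 2) * dX u X - Q X * P X * dY u X + O2 X
    with hV1def
  set V2 : ℝ × ℝ → ℝ := fun X => -(Q X * P X) * dX u X + P X ^ 2 * dY u X - O1 X with hV2def
  have pV1 : LatPer 1 0 1 V1 := ⟨fun p => by simp only [V1, pQ.1, pP.1, pu.dX.1, pu.dY.1, pO2.1],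
    fun p => by simp only [V1, pQ.2, pP.2, pu.dX.2, pu.dY.2, pO2.2]⟩
  have pV2 : LatPer 1 0 1 V2 := ⟨fun p => by simp only [V2, pQ.1, pP.1, pu.dX.1, pu.dY.1, pO1.1],
    fun p => by simp only [V2, pQ.2, pP.2, pu.dX.2, pu.dY.2, pO1.2]⟩
  -- the flat coframe
  have heu : ContDiff ℝ ∞ (fun p => exp (u p)) := contDiff_exp.comp hu
  have peu : LatPer 1 0 1 (fun p => exp (u p)) := ⟨fun p => by simp only [pu.1],
    fun p => by simp only [pu.2]⟩
  let A1 : ℝ × ℝ → ℝ := fun p => exp (u p) * P p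
  let A2 : ℝ × ℝ → ℝ := fun p => exp (u p) * Q p
  let B2 : ℝ × ℝ → ℝ := fun p => exp (u p) * R p
  have hA1 : ContDiff ℝ ∞ A1 := heu.mul hP
  have hA2 : ContDiff ℝ ∞ A2 := heu.mul hQ
  have hB2 : ContDiff ℝ ∞ B2 := heu.mul hR
  have pA1 : LatPer 1 0 1 A1 := ⟨fun p => by simp only [A1, pu.1, pP.1],
    fun p => by simp only [A1, pu.2, pP.2]⟩
  have pA2 : LatPer 1 0 1 A2 := ⟨fun p => by simp only [A2, pu.1, pQ.1],
    fun p => by simp only [A2, pu.2, pQ.2]⟩
  have pB2 : LatPer 1 0 1 B2 := ⟨fun p => by simp only [B2, pu.1, pR.1],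
    fun p => by simp only [B2, pu.2, pR.2]⟩
  have hB1 : ContDiff ℝ ∞ (fun _ : ℝ × ℝ => (0:ℝ)) := contDiff_const
  have pB1 : LatPer 1 0 1 (fun _ : ℝ × ℝ => (0:ℝ)) := ⟨fun _ => rfl, fun _ => rfl⟩
  have hB1y : ∀ p, dY (fun _ : ℝ × ℝ => (0:ℝ)) p = 0 := fun p => by unfold dY; simp
  have hnV2 : ContDiff ℝ ∞ (fun p => -V2 p) := hV2.neg
  have pnV2 : LatPer 1 0 1 (fun p => -V2 p) := ⟨fun p => by simp only [pV2.1],
    fun p => by simp only [pV2.2]⟩
  have exX : ∀ p : ℝ × ℝ, HasDerivAt (fun t => exp (u (t, p.2))) _ p.1 := fun p => (hasDX hu p).exp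
  have exY : ∀ p : ℝ × ℝ, HasDerivAt (fun t => exp (u (p.1, t))) _ p.2 := fun p => (hasDY hu p).exp
  have dA1y : ∀ p, dY A1 p = exp (u p) * dY u p * P p + exp (u p) * dY P p := fun p =>
    dY_eq hA1 ((exY p).mul (hasDY hP p))
  have dA2x : ∀ p, dX A2 p = exp (u p) * dX u p * Q p + exp (u p) * dX Q p := fun p =>
    dX_eq hA2 ((exX p).mul (hasDX hQ p))
  have dB2x : ∀ p, dX B2 p = exp (u p) * dX u p * R p + exp (u p) * dX R p := fun p =>
    dX_eq hB2 ((exX p).mul (hasDX hR p))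
  have hV1' : ∀ p, V1 p = (Q p ^ 2 + R p ^ 2) * dX u p - Q p * P p * dY u p + O2 p := fun p => rfl
  have hV2' : ∀ p, V2 p = -(Q p * P p) * dX u p + P p ^ 2 * dY u p - O1 p := fun p => rfl
  have hO1' : ∀ p, O1 p * R p = dX Q p - dY P p := fun p => by
    have h := hPR p
    have e : O1 p = P p * (dX Q p - dY P p) := rfl
    rw [e]
    linear_combination (dX Q p - dY P p) * h
  have hO2' : ∀ p, O2 p * P p = dX R p + O1 p * Q p := fun p => by
    have h := hPR p
    have e : O2 p = R p * (dX R p + O1 p * Q p) := rfl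
    rw [e]
    linear_combination (dX R p + O1 p * Q p) * h
  obtain ⟨ϑ, S, T, hϑ, hS, hT, hdS, hdT, hS1, hS2, hT1, hT2⟩ :=
    develop_general (l := 1) (u := 0) (w := 1) one_pos one_pos (a1 := A1) (a2 := A2)
      (b1 := fun _ => 0) (b2 := B2) (o1 := fun p => -V2 p) (o2 := V1)
      hA1 hA2 hB1 hB2 hnV2 hV1 pA1 pA2 pB1 pB2 pnV2 pV1
      (fun p => by
        rw [dA2x, dA1y]
        have h := hPR p
        have h1 := hO1' p
        have e : B2 p = exp (u p) * R p := rfl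
        rw [e, hV2']
        linear_combination (-exp (u p)) * h1 +
          (-exp (u p) * Q p * dX u p + exp (u p) * P p * dY u p) * h)
      (fun p => by
        rw [dB2x, hB1y]
        have h := hPR p
        have h1 := hO2' p
        have e1 : A1 p = exp (u p) * P p := rfl
        have e2 : A2 p = exp (u p) * Q p := rfl
        rw [e1, e2, hV1', hV2']
        linear_combination (-exp (u p)) * h1 - exp (u p) * R p * dX u p * h)
      (fun p => by
        have h := hdiv p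
        have e : dY (fun p => -V2 p) p = -dY V2 p := dY_eq hnV2 (hasDY hV2 p).neg
        rw [e]
        linarith)
      (fun p => by
        have e1 : A1 p = exp (u p) * P p := rfl
        have e2 : B2 p = exp (u p) * R p := rfl
        rw [e1, e2]
        have h := hPR p
        have h2 : exp (u p) * P p * (exp (u p) * R p) - A2 p * 0 = exp (u p) ^ 2 := by
          linear_combination exp (u p) ^ 2 * h
        rw [h2]; positivity)
  have hdet : ∀ p, dX S p * dY T p - dY S p * dX T p = exp (u p) ^ 2 := fun p => by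
    rw [(hdS p).1, (hdS p).2, (hdT p).1, (hdT p).2]
    have h := hPR p
    have e1 : A1 p = exp (u p) * P p := rfl
    have e2 : B2 p = exp (u p) * R p := rfl
    rw [e1, e2]
    have := sin_sq_add_cos_sq (ϑ p)
    linear_combination exp (u p) ^ 2 * P p * R p * this + exp (u p) ^ 2 * h
  refine ⟨S, T, fun p => Real.log (W p) / 2 - u p, hS, hT, (hW.log fun p => (hWpos p).ne').div_const 2 |>.sub hu,
    ⟨fun p => by simp only [pW.1, pu.1], fun p => by simp only [pW.2, pu.2]⟩,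
    hS1, hS2, hT1, hT2, fun p => by rw [hdet]; positivity, fun p x y => ?_⟩
  simp only [fderiv_eq_dX_dY]
  rw [(hdS p).1, (hdS p).2, (hdT p).1, (hdT p).2]
  have ee : exp (2 * (Real.log (W p) / 2 - u p)) * exp (u p) ^ 2 = W p := by
    rw [← exp_nat_mul, ← exp_add]
    have : 2 * (Real.log (W p) / 2 - u p) + (2:ℕ) * u p = Real.log (W p) := by push_cast; ring
    rw [this, exp_log (hWpos p)]
  unfold TorusMetric.inner
  rw [hE', hF', hG']
  generalize exp (2 * (Real.log (W p) / 2 - u p)) = X at *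
  rw [← ee]
  have e1 : A1 p = exp (u p) * P p := rfl
  have e2 : B2 p = exp (u p) * R p := rfl
  have e3 : A2 p = exp (u p) * Q p := rfl
  rw [e1, e2, e3]
  have hsc := sin_sq_add_cos_sq (ϑ p)
  clear_value P Q R
  generalize exp (u p) = Z at *
  linear_combination (-X * Z ^ 2 * ((P p * x.1 + Q p * x.2) * (P p * y.1 + Q p * y.2) +
    R p ^ 2 * x.2 * y.2)) * hsc

end Vale.Agent.P205
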