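import Vale.Agent.H16.Torus.Elliptic2

set_option autoImplicit false

open MeasureTheory Set Filter Topology
open scoped ContDiff ENNReal

namespace Vale.Agent.P205

theorem fc_ee (m M : ℤ) : fc (fun s => ee (m * s)) M = if m = M then 1 else 0 := by
  split_ifs with h
  · subst h
    unfold fc
    have : (fun s : ℝ => ee (m * s) * ee (-m * s)) = fun _ => (1:ℂ) := by
      funext s
      rw [← ee_add]
      have : (m:ℝ) * s + -m * s = 0 := by ring
      rw [this, ee_zero]
    rw [this]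
    simp
  · have h1 := fc_deriv (f := fun s => ee (m * s)) (f' := fun s => (2 * Real.pi * (m:ℝ) * Complex.I) *
      ee (m * s)) (fun s => hasDerivAt_ee m s) (by
        have := continuous_ee
        fun_prop) (by
        have := ee_int m
        simp only [mul_one, mul_zero, ee_zero]
        exact this) M
    have h2 : fc (fun s => (2 * Real.pi * (m:ℝ) * Complex.I) * ee (m * s)) M =
        (2 * Real.pi * (m:ℝ) * Complex.I) * fc (fun s => ee (m * s)) M := by
      unfold fc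
      rw [← intervalIntegral.integral_const_mul]
      congr 1; funext s; ring
    rw [h2] at h1
    have h3 : (2 * Real.pi * Complex.I) * ((m:ℂ) - M) * fc (fun s => ee (m * s)) M = 0 := by
      push_cast at h1
      linear_combination h1
    have h4 : (2 * Real.pi * Complex.I) * ((m:ℂ) - M) ≠ 0 := by
      refine mul_ne_zero (mul_ne_zero (mul_ne_zero two_ne_zero ?_) Complex.I_ne_zero) ?_
      · exact_mod_cast Real.pi_ne_zero
      · rw [sub_ne_zero]; exact_mod_cast h
    exact (mul_eq_zero.1 h3).resolve_left h4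

theorem series_inj {d : ℤ → ℂ} (hd : Summable (fun m => ‖d m‖))
    (h : ∀ s : ℝ, ∑' m, d m * ee (m * s) = 0) (M : ℤ) : d M = 0 := by
  have hce := continuous_ee
  have h1 : HasSum (fun m : ℤ => ∫ s in Ioc (0:ℝ) 1, d m * ee (m * s) * ee (-M * s))
      (∫ s in Ioc (0:ℝ) 1, ∑' m : ℤ, d m * ee (m * s) * ee (-M * s)) := by
    refine hasSum_integral_of_summable_integral_norm (fun m => ?_) ?_
    · have hc : Continuous (fun s : ℝ => d m * ee (m * s) * ee (-M * s)) := by fun_prop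
      exact (hc.integrableOn_Icc).mono_set Ioc_subset_Icc_self
    · simp only [norm_mul, norm_ee, mul_one]
      simpa using hd
  have h2 : ∀ s : ℝ, ∑' m : ℤ, d m * ee (m * s) * ee (-M * s) = 0 := fun s => by
    rw [tsum_mul_right, h, zero_mul]
  simp only [h2, integral_zero] at h1
  have h3 : ∀ m : ℤ, ∫ s in Ioc (0:ℝ) 1, d m * ee (m * s) * ee (-M * s) =
      if m = M then d M else 0 := by
    intro m
    rw [← intervalIntegral.integral_of_le zero_le_one]
    have h4 := fc_ee m M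
    unfold fc at h4
    have h5 : ∫ s in (0:ℝ)..1, d m * ee (m * s) * ee (-M * s) =
        d m * ∫ s in (0:ℝ)..1, ee (m * s) * ee (-M * s) := by
      rw [← intervalIntegral.integral_const_mul]
      congr 1; funext s; ring
    rw [h5, h4]
    split_ifs with h6
    · rw [h6, mul_one]
    · rw [mul_zero]
  simp only [h3] at h1
  have h4 := h1.tsum_eq
  rw [tsum_ite_eq] at h4
  exact h4

theorem chi_std (n : ℤ × ℤ) (s t : ℝ) : chi 1 0 1 n (s, t) = ee (n.1 * s) * ee (n.2 * t) := by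
  rw [← ee_add]
  unfold chi ee phase
  congr 2
  have h1 := x1_eq n
  have h2 := x2_eq n
  unfold x1 at h1
  unfold x2 at h2
  rw [h1, h2]
  push_cast
  ring

theorem WA.eq_zero_of_evX {c : WA} (h : ∀ X, evX 1 0 1 X c = 0) : c = 0 := by
  refine WA.ext fun n => ?_
  have hs := WA.smb c
  have h1 : ∀ (m : ℤ) (t : ℝ), ∑' k : ℤ, c (m, k) * ee (k * t) = 0 := by
    intro m t
    refine series_inj (d := fun m => ∑' k : ℤ, c (m, k) * ee (k * t)) ?_ (fun s => ?_) m
    · refine Summable.of_nonneg_of_le (fun _ => norm_nonneg _) (fun m => ?_) hs.prod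
      refine (norm_tsum_le_tsum_norm ?_).trans ?_
      · simpa [norm_mul, norm_ee] using hs.prod_factor m
      · simp [norm_mul, norm_ee]
    · have h2 := h (s, t)
      unfold evX at h2
      rw [WA.ev0_apply] at h2
      have h3 : Summable (fun n : ℤ × ℤ => tau 1 0 1 (s, t) c n) := WA.ev_summable _
      rw [h3.tsum_prod] at h2
      rw [← h2]
      congr 1
      funext m
      rw [← tsum_mul_right]
      congr 1
      funext k
      rw [tau_apply, chi_std]
      ring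
  have h2 := series_inj (d := fun k => c (n.1, k)) (hs.prod_factor n.1) (h1 n.1) n.2
  exact h2

theorem WA.eq_of_evX {a b : WA} (h : ∀ X, evX 1 0 1 X a = evX 1 0 1 X b) : a = b := by
  refine sub_eq_zero.1 (WA.eq_zero_of_evX fun X => ?_)
  rw [evX_sub, h, sub_self]

theorem evX_neg (l u w : ℝ) (X : ℝ × ℝ) (a : WA) : evX l u w X (-a) = -evX l u w X a := by
  unfold evX; rw [map_neg, map_neg]

/-- a WA element with smooth orbit has a derivative -/
theorem exists_deriv1 {a : WA} (ha : ContDiff ℝ ∞ (fun X => tau 1 0 1 X a)) :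
    ∃ b : WA, ∀ n, b n = Complex.I * xi1 1 n * a n := by
  refine ⟨fderiv ℝ (fun X => tau 1 0 1 X a) 0 (1, 0), fun n => ?_⟩
  rw [fderiv_orbit_apply ha, chi_zero_right]
  unfold phase
  push_cast
  ring

theorem exists_deriv2 {a : WA} (ha : ContDiff ℝ ∞ (fun X => tau 1 0 1 X a)) :
    ∃ b : WA, ∀ n, b n = Complex.I * xi2 1 0 1 n * a n := by
  refine ⟨fderiv ℝ (fun X => tau 1 0 1 X a) 0 (0, 1), fun n => ?_⟩
  rw [fderiv_orbit_apply ha, chi_zero_right]
  unfold phase
  push_cast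
  ring

theorem smooth_conv {a b : WA} (ha : ContDiff ℝ ∞ (fun X => tau 1 0 1 X a))
    (hb : ContDiff ℝ ∞ (fun X => tau 1 0 1 X b)) :
    ContDiff ℝ ∞ (fun X => tau 1 0 1 X (WA.conv a b)) := by
  have : (fun X => tau 1 0 1 X (WA.conv a b)) =
      fun X => WA.conv (tau 1 0 1 X a) (tau 1 0 1 X b) := funext fun X => tau_conv _ _ _ _ _ _
  rw [this]
  exact Mults.contDiff_conv ha hb

theorem smooth_add' {a b : WA} (ha : ContDiff ℝ ∞ (fun X => tau 1 0 1 X a))
    (hb : ContDiff ℝ ∞ (fun X => tau 1 0 1 X b)) :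
    ContDiff ℝ ∞ (fun X => tau 1 0 1 X (a + b)) := by
  simp only [map_add]; exact ha.add hb

theorem smooth_neg' {a : WA} (ha : ContDiff ℝ ∞ (fun X => tau 1 0 1 X a)) :
    ContDiff ℝ ∞ (fun X => tau 1 0 1 X (-a)) := by
  simp only [map_neg]; exact ha.neg

/-- Solution of the conformal-flattening equation on the torus. -/
theorem solve_pde {p q o1 o2 : ℝ × ℝ → ℝ} (hp : ContDiff ℝ ∞ p) (hq : ContDiff ℝ ∞ q)
    (ho1 : ContDiff ℝ ∞ o1) (ho2 : ContDiff ℝ ∞ o2) (pp : LatPer 1 0 1 p) (pq : LatPer 1 0 1 q)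
    (po1 : LatPer 1 0 1 o1) (po2 : LatPer 1 0 1 o2) (hpos : ∀ X, 0 < p X) :
    ∃ u : ℝ × ℝ → ℝ, ContDiff ℝ ∞ u ∧ LatPer 1 0 1 u ∧
      ContDiff ℝ ∞ (fun X => (q X ^ 2 + (1 / p X) ^ 2) * dX u X - q X * p X * dY u X + o2 X) ∧
      ContDiff ℝ ∞ (fun X => -(q X * p X) * dX u X + p X ^ 2 * dY u X - o1 X) ∧
      ∀ X, dX (fun X => (q X ^ 2 + (1 / p X) ^ 2) * dX u X - q X * p X * dY u X + o2 X) X +
        dY (fun X => -(q X * p X) * dX u X + p X ^ 2 * dY u X - o1 X) X = 0 := by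
  have hr : ContDiff ℝ ∞ (fun X => 1 / p X) := contDiff_const.div hp fun X => (hpos X).ne'
  have pr : LatPer 1 0 1 (fun X => 1 / p X) := ⟨fun X => by simp only [pp.1], fun X => by simp only [pp.2]⟩
  obtain ⟨P, P1, P2, P3⟩ := exists_rapid one_pos one_pos hp pp
  obtain ⟨Q, Q1, Q2, Q3⟩ := exists_rapid one_pos one_pos hq pq
  obtain ⟨R, R1', R2', R3⟩ := exists_rapid one_pos one_pos hr pr
  obtain ⟨O1, O11, O12, O13⟩ := exists_rapid one_pos one_pos ho1 po1
  obtain ⟨O2, O21, O22, O23⟩ := exists_rapid one_pos one_pos ho2 po2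
  have P3' : ∀ X, evX 1 0 1 X P = p X := P3
  have Q3' : ∀ X, evX 1 0 1 X Q = q X := Q3
  have R3' : ∀ X, evX 1 0 1 X R = ((1 / p X : ℝ) : ℂ) := R3
  have O13' : ∀ X, evX 1 0 1 X O1 = o1 X := O13
  have O23' : ∀ X, evX 1 0 1 X O2 = o2 X := O23
  have hPR : WA.conv P R = WA.one := WA.eq_of_evX fun X => by
    rw [evX_conv, evX_one, P3', R3', ← Complex.ofReal_mul]
    have : p X * (1 / p X) = 1 := by have := (hpos X).ne'; field_simp
    rw [this, Complex.ofReal_one]
  obtain ⟨κ, hκ, hco⟩ := coercive_Lop P2 Q2 R2' hPR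
  have sa : ContDiff ℝ ∞ (fun X => tau 1 0 1 X (WA.conv Q Q + WA.conv R R)) :=
    smooth_add' (smooth_conv Q1.contDiff Q1.contDiff) (smooth_conv R1'.contDiff R1'.contDiff)
  have sb : ContDiff ℝ ∞ (fun X => tau 1 0 1 X (-WA.conv Q P)) :=
    smooth_neg' (smooth_conv Q1.contDiff P1.contDiff)
  have sc : ContDiff ℝ ∞ (fun X => tau 1 0 1 X (WA.conv P P)) :=
    smooth_conv P1.contDiff P1.contDiff
  obtain ⟨U, hU, hEq⟩ := exists_elliptic sa sb sc O21.contDiff (smooth_neg' O11.contDiff) hκ hco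
  set V1 : WA := WA.conv (WA.conv Q Q + WA.conv R R) hU.d1 + WA.conv (-WA.conv Q P) hU.d2 + O2
    with hV1
  set V2 : WA := WA.conv (-WA.conv Q P) hU.d1 + WA.conv (WA.conv P P) hU.d2 + -O1 with hV2
  have sV1 : ContDiff ℝ ∞ (fun X => tau 1 0 1 X V1) :=
    smooth_add' (smooth_add' (smooth_conv sa hU.rapid1.contDiff)
      (smooth_conv sb hU.rapid2.contDiff)) O21.contDiff
  have sV2 : ContDiff ℝ ∞ (fun X => tau 1 0 1 X V2) :=
    smooth_add' (smooth_add' (smooth_conv sb hU.rapid1.contDiff)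
      (smooth_conv sc hU.rapid2.contDiff)) (smooth_neg' O11.contDiff)
  have d1 : dX (rv 1 0 1 U) = rv 1 0 1 hU.d1 := dX_rv hU.contDiff hU.d1_apply
  have d2 : dY (rv 1 0 1 U) = rv 1 0 1 hU.d2 := dY_rv hU.contDiff hU.d2_apply
  have e1 : (fun X => (q X ^ 2 + (1 / p X) ^ 2) * dX (rv 1 0 1 U) X -
      q X * p X * dY (rv 1 0 1 U) X + o2 X) = rv 1 0 1 V1 := by
    funext X
    rw [d1, d2]
    unfold rv
    have : evX 1 0 1 X V1 = ((q X ^ 2 + (1 / p X) ^ 2 : ℝ) : ℂ) * evX 1 0 1 X hU.d1 -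
        ((q X * p X : ℝ) : ℂ) * evX 1 0 1 X hU.d2 + (o2 X : ℂ) := by
      rw [hV1, evX_add, evX_add, evX_conv, evX_conv, evX_add, evX_conv, evX_conv, evX_neg, evX_conv,
        P3', Q3', R3', O23']
      push_cast
      ring
    rw [this, Complex.add_re, Complex.sub_re, Complex.re_ofReal_mul, Complex.re_ofReal_mul,
      Complex.ofReal_re]
  have e2 : (fun X => -(q X * p X) * dX (rv 1 0 1 U) X + p X ^ 2 * dY (rv 1 0 1 U) X - o1 X) =
      rv 1 0 1 V2 := by
    funext X
    rw [d1, d2]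
    unfold rv
    have : evX 1 0 1 X V2 = ((-(q X * p X) : ℝ) : ℂ) * evX 1 0 1 X hU.d1 +
        ((p X ^ 2 : ℝ) : ℂ) * evX 1 0 1 X hU.d2 - (o1 X : ℂ) := by
      rw [hV2, evX_add, evX_add, evX_conv, evX_conv, evX_neg, evX_conv, evX_conv, evX_neg,
        P3', Q3', O13']
      push_cast
      ring
    rw [this, Complex.sub_re, Complex.add_re, Complex.re_ofReal_mul, Complex.re_ofReal_mul,
      Complex.ofReal_re]
  refine ⟨rv 1 0 1 U, smooth_rv hU.contDiff, latPer_rv one_pos one_pos U, ?_, ?_, ?_⟩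
  · rw [e1]; exact smooth_rv sV1
  · rw [e2]; exact smooth_rv sV2
  · intro X
    rw [e1, e2]
    obtain ⟨D1, hD1⟩ := exists_deriv1 sV1
    obtain ⟨D2, hD2⟩ := exists_deriv2 sV2
    rw [dX_rv sV1 hD1, dY_rv sV2 hD2]
    have h0 : D1 + D2 = 0 := WA.ext fun n => by
      rw [WA.add_apply, hD1, hD2, WA.zero_apply]
      exact hEq n
    unfold rv
    rw [← Complex.add_re, ← evX_add, h0]
    unfold evX
    rw [map_zero, map_zero, Complex.zero_re]

end Vale.Agent.P205
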