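import Mathlib

set_option autoImplicit false

open MeasureTheory Set
open scoped ContDiff ENNReal

namespace Vale.Agent.P205

/-- Absolutely summable double sequences. -/
noncomputable abbrev WA : Type := lp (fun _ : ℤ × ℤ => ℂ) 1

namespace WA

theorem smb (a : WA) : Summable (fun n => ‖a n‖) := by
  have := (memℓp_gen_iff (by simp : 0 < (1:ℝ≥0∞).toReal)).1 (lp.memℓp a)
  simpa using this

theorem norm_def (a : WA) : ‖a‖ = ∑' n, ‖a n‖ := by
  rw [lp.norm_eq_tsum_rpow (by simp : 0 < (1:ℝ≥0∞).toReal)]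
  simp

theorem apply_le (a : WA) (n : ℤ × ℤ) : ‖a n‖ ≤ ‖a‖ := by
  rw [norm_def]
  exact (smb a).le_tsum n fun _ _ => norm_nonneg _

/-- constructor -/
def mk (c : ℤ × ℤ → ℂ) (h : Summable fun n => ‖c n‖) : WA :=
  ⟨c, memℓp_gen (by simpa using h)⟩

@[simp] theorem mk_apply (c : ℤ × ℤ → ℂ) (h : Summable fun n => ‖c n‖) (n : ℤ × ℤ) :
    (mk c h) n = c n := rfl

theorem norm_mk (c : ℤ × ℤ → ℂ) (h : Summable fun n => ‖c n‖) : ‖mk c h‖ = ∑' n, ‖c n‖ :=
  norm_def _

theorem ext {a b : WA} (h : ∀ n, a n = b n) : a = b := lp.ext (funext h)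

@[simp] theorem add_apply (a b : WA) (n : ℤ × ℤ) : (a + b) n = a n + b n := rfl
@[simp] theorem sub_apply (a b : WA) (n : ℤ × ℤ) : (a - b) n = a n - b n := rfl
@[simp] theorem neg_apply (a : WA) (n : ℤ × ℤ) : (-a) n = -a n := rfl
@[simp] theorem zero_apply (n : ℤ × ℤ) : (0 : WA) n = 0 := rfl
@[simp] theorem smul_apply (r : ℝ) (a : WA) (n : ℤ × ℤ) : (r • a) n = r • a n := rfl

/-- coordinate functional -/
noncomputable def coord (n : ℤ × ℤ) : WA →L[ℝ] ℂ :=
  LinearMap.mkContinuous
    { toFun := fun a => a n, map_add' := fun _ _ => rfl, map_smul' := fun _ _ => rfl } 1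
    fun a => by rw [one_mul]; exact apply_le a n

@[simp] theorem coord_apply (n : ℤ × ℤ) (a : WA) : coord n a = a n := rfl

/-- multiplier operator -/
noncomputable def mulOp (σ : ℤ × ℤ → ℂ) (C : ℝ) (h : ∀ n, ‖σ n‖ ≤ C) : WA →L[ℝ] WA :=
  LinearMap.mkContinuous
    { toFun := fun a => mk (fun n => σ n * a n) (by
        refine Summable.of_nonneg_of_le (fun n => norm_nonneg _) (fun n => ?_)
          ((smb a).mul_left C)
        rw [norm_mul]
        exact mul_le_mul_of_nonneg_right (h n) (norm_nonneg _))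
      map_add' := fun a b => ext fun n => by simp [mul_add]
      map_smul' := fun r a => ext fun n => by simp; ring } C
    fun a => by
      have hs : Summable (fun n => C * ‖a n‖) := (smb a).mul_left C
      have hs2 : Summable (fun n => ‖σ n * a n‖) := by
        refine Summable.of_nonneg_of_le (fun n => norm_nonneg _) (fun n => ?_) hs
        rw [norm_mul]
        exact mul_le_mul_of_nonneg_right (h n) (norm_nonneg _)
      change ‖mk (fun n => σ n * a n) hs2‖ ≤ _
      rw [norm_mk, norm_def, ← tsum_mul_left]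
      refine hs2.tsum_le_tsum (fun n => ?_) hs
      rw [norm_mul]
      exact mul_le_mul_of_nonneg_right (h n) (norm_nonneg _)

@[simp] theorem mulOp_apply (σ : ℤ × ℤ → ℂ) (C : ℝ) (h : ∀ n, ‖σ n‖ ≤ C) (a : WA) (n : ℤ × ℤ) :
    mulOp σ C h a n = σ n * a n := rfl

theorem norm_mulOp_le (σ : ℤ × ℤ → ℂ) (C : ℝ) (hC : 0 ≤ C) (h : ∀ n, ‖σ n‖ ≤ C) (a : WA) :
    ‖mulOp σ C h a‖ ≤ C * ‖a‖ :=
  (mulOp σ C h).le_of_opNorm_le (LinearMap.mkContinuous_norm_le _ hC _) a

/-- equivalence used for reindexing convolutions -/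
def shiftEquiv : (ℤ × ℤ) × (ℤ × ℤ) ≃ (ℤ × ℤ) × (ℤ × ℤ) where
  toFun x := (x.2, x.1 - x.2)
  invFun y := (y.1 + y.2, y.1)
  left_inv x := by ext <;> simp
  right_inv y := by ext <;> simp

theorem conv_summable_norm (a b : WA) :
    Summable (fun x : (ℤ × ℤ) × (ℤ × ℤ) => ‖a x.2‖ * ‖b (x.1 - x.2)‖) := by
  have h := (smb a).mul_of_nonneg (smb b) (fun _ => norm_nonneg _) (fun _ => norm_nonneg _)
  exact (shiftEquiv.summable_iff (f := fun x : (ℤ × ℤ) × (ℤ × ℤ) => ‖a x.1‖ * ‖b x.2‖)).2 h

theorem conv_summable (a b : WA) :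
    Summable (fun x : (ℤ × ℤ) × (ℤ × ℤ) => a x.2 * b (x.1 - x.2)) := by
  refine Summable.of_norm ?_
  simpa [norm_mul] using conv_summable_norm a b

theorem conv_inner_summable (a b : WA) (n : ℤ × ℤ) : Summable (fun m => a m * b (n - m)) :=
  (conv_summable a b).prod_factor n

theorem conv_inner_summable_norm (a b : WA) (n : ℤ × ℤ) :
    Summable (fun m => ‖a m‖ * ‖b (n - m)‖) :=
  (conv_summable_norm a b).prod_factor n

theorem tsum_conv_norm (a b : WA) :
    ∑' x : (ℤ × ℤ) × (ℤ × ℤ), ‖a x.2‖ * ‖b (x.1 - x.2)‖ = ‖a‖ * ‖b‖ := by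
  have h := (smb a).mul_of_nonneg (smb b) (fun _ => norm_nonneg _) (fun _ => norm_nonneg _)
  rw [norm_def, norm_def, (smb a).tsum_mul_tsum (smb b) h]
  exact shiftEquiv.tsum_eq (fun x : (ℤ × ℤ) × (ℤ × ℤ) => ‖a x.1‖ * ‖b x.2‖)

theorem conv_norm_summable (a b : WA) : Summable (fun n => ‖∑' m, a m * b (n - m)‖) := by
  refine Summable.of_nonneg_of_le (fun n => norm_nonneg _) (fun n => ?_)
    (conv_summable_norm a b).prod
  refine (norm_tsum_le_tsum_norm ?_).trans ?_
  · simpa [norm_mul] using conv_inner_summable_norm a b n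
  · simp [norm_mul]

/-- convolution -/
noncomputable def conv (a b : WA) : WA := mk (fun n => ∑' m, a m * b (n - m)) (conv_norm_summable a b)

@[simp] theorem conv_apply (a b : WA) (n : ℤ × ℤ) : conv a b n = ∑' m, a m * b (n - m) := rfl

theorem norm_conv_le (a b : WA) : ‖conv a b‖ ≤ ‖a‖ * ‖b‖ := by
  rw [← tsum_conv_norm a b, (conv_summable_norm a b).tsum_prod]
  unfold conv
  rw [norm_mk]
  refine (conv_norm_summable a b).tsum_le_tsum (fun n => ?_) (conv_summable_norm a b).prod
  refine (norm_tsum_le_tsum_norm ?_).trans ?_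
  · simpa [norm_mul] using conv_inner_summable_norm a b n
  · simp [norm_mul]

/-- convolution as a continuous bilinear map -/
noncomputable def convL : WA →L[ℝ] WA →L[ℝ] WA :=
  LinearMap.mkContinuous₂
    (LinearMap.mk₂ ℝ conv
      (fun a a' b => ext fun n => by
        simp only [conv_apply, add_apply, add_mul]
        exact (conv_inner_summable a b n).tsum_add (conv_inner_summable a' b n))
      (fun r a b => ext fun n => by
        simp only [conv_apply, smul_apply, smul_mul_assoc]
        exact ((conv_inner_summable a b n).tsum_const_smul r))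
      (fun a b b' => ext fun n => by
        simp only [conv_apply, add_apply, mul_add]
        exact (conv_inner_summable a b n).tsum_add (conv_inner_summable a b' n))
      (fun r a b => ext fun n => by
        simp only [conv_apply, smul_apply, mul_smul_comm]
        exact ((conv_inner_summable a b n).tsum_const_smul r)))
    1 (fun a b => by simpa using norm_conv_le a b)

@[simp] theorem convL_apply (a b : WA) : convL a b = conv a b := rfl

theorem ev_summable (a : WA) : Summable (fun n => a n) := Summable.of_norm (smb a)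

/-- evaluation at the origin -/
noncomputable def ev0 : WA →L[ℝ] ℂ :=
  LinearMap.mkContinuous
    { toFun := fun a => ∑' n, a n
      map_add' := fun a b => (ev_summable a).tsum_add (ev_summable b)
      map_smul' := fun r a => (ev_summable a).tsum_const_smul r } 1
    fun a => by
      rw [one_mul, norm_def]
      exact norm_tsum_le_tsum_norm (smb a)

theorem ev0_apply (a : WA) : ev0 a = ∑' n, a n := rfl

theorem ev0_conv (a b : WA) : ev0 (conv a b) = ev0 a * ev0 b := by
  have h : Summable (fun x : (ℤ × ℤ) × (ℤ × ℤ) => a x.1 * b x.2) := by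
    refine Summable.of_norm ?_
    simpa [norm_mul] using
      (smb a).mul_of_nonneg (smb b) (fun _ => norm_nonneg _) (fun _ => norm_nonneg _)
  rw [ev0_apply, ev0_apply, ev0_apply, (ev_summable a).tsum_mul_tsum (ev_summable b) h,
    ← shiftEquiv.tsum_eq (fun x : (ℤ × ℤ) × (ℤ × ℤ) => a x.1 * b x.2)]
  simp only [conv_apply, shiftEquiv, Equiv.coe_fn_mk]
  exact ((conv_summable a b).tsum_prod).symm

/-- the unit -/
noncomputable def one : WA := mk (fun n => if n = 0 then 1 else 0) (by
  refine summable_of_ne_finset_zero (s := {0}) fun n hn => ?_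
  simp only [Finset.mem_singleton] at hn
  simp [hn])

theorem one_apply (n : ℤ × ℤ) : one n = if n = 0 then 1 else 0 := rfl

/-- reality involution -/
noncomputable def inv : WA →L[ℝ] WA :=
  LinearMap.mkContinuous
    { toFun := fun a => mk (fun n => (starRingEnd ℂ) (a (-n))) (by
        have := (Equiv.neg (ℤ × ℤ)).summable_iff.2 (smb a)
        simpa [Function.comp_def] using this)
      map_add' := fun a b => ext fun n => by simp
      map_smul' := fun r a => ext fun n => by simp } 1
    fun a => by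
      have hs : Summable (fun n => ‖(starRingEnd ℂ) (a (-n))‖) := by
        have := (Equiv.neg (ℤ × ℤ)).summable_iff.2 (smb a)
        simpa [Function.comp_def] using this
      rw [one_mul, norm_def a]
      change ‖mk (fun n => (starRingEnd ℂ) (a (-n))) hs‖ ≤ _
      rw [norm_mk]
      have := (Equiv.neg (ℤ × ℤ)).tsum_eq (fun n => ‖a n‖)
      simp only [Equiv.neg_apply] at this
      simp [this]

@[simp] theorem inv_apply (a : WA) (n : ℤ × ℤ) : inv a n = (starRingEnd ℂ) (a (-n)) := rfl

theorem inv_conv (a b : WA) : inv (conv a b) = conv (inv a) (inv b) := by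
  refine ext fun n => ?_
  simp only [inv_apply, conv_apply]
  rw [Complex.conj_tsum, ← (Equiv.neg (ℤ × ℤ)).tsum_eq]
  congr 1
  funext m
  simp only [Equiv.neg_apply, map_mul]
  have e : -n - -m = -(n - m) := by abel
  rw [e]

theorem inv_one : inv one = one := by
  refine ext fun n => ?_
  simp only [inv_apply, one_apply, neg_eq_zero]
  split_ifs <;> simp

end WA

end Vale.Agent.P205
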